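import Vale.Agent.P340.Safe

/-! Unary or two-colourable components. -/

namespace Vale.Agent.P340

universe u

namespace Tm

variable {S : Type u} {Q : Sig S} {c₀ : S}

namespace CaseIAux

variable {col : S → Bool}

theorem colour_eq (hF : Full Q) (hL : Low Q c₀) (hc : Colouring Q.toPTS c₀ col) (A : Tm S) :
    ∀ {Γ : List (Tm S)} {c c' : S} {ρ : ℕ → Tm S}, Normal A → Ty Q Γ A (srt c) →
      Ty Q Γ A (srt c') → InC Q.toPTS c₀ c → InC Q.toPTS c₀ c' → Sub Q [] ρ Γ →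
      ¬ Safe Q (subst ρ A) → col c = col c' := by
  have nonpi : ∀ {A : Tm S}, (∀ A1 A2, A ≠ pi A1 A2) →
      ∀ {Γ : List (Tm S)} {c c' : S} {ρ : ℕ → Tm S}, Normal A → Ty Q Γ A (srt c) →
      Ty Q Γ A (srt c') → InC Q.toPTS c₀ c → InC Q.toPTS c₀ c' → Sub Q [] ρ Γ →
      ¬ Safe Q (subst ρ A) → col c = col c' := by
    intro A hA Γ c c' ρ hn h1 h2 _ _ _ hs
    rcases hn.type_cases h1 with ⟨s, rfl⟩ | ⟨A1, A2, rfl⟩ | ⟨x, hx⟩ | hx
    · exact (hs (safe_srt s)).elim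
    · exact (hA _ _ rfl).elim
    · rw [(hx.unique_ty h1 h2).srt_inj]
    · exact (hs (hx.subst ρ).safe).elim
  induction A with
  | pi A1 A2 ih1 ih2 =>
    intro Γ c c' ρ hn h1 h2 i1 i2 hρ hs
    obtain ⟨a, b, r1, t1, t2⟩ := h1.gen_pi'
    obtain ⟨a', b', r2, t3, t4⟩ := h2.gen_pi'
    obtain ⟨n1, n2⟩ := normal_pi.1 hn
    by_cases hd : Safe Q (subst ρ A1)
    · have : ¬ ∀ N, CTy Q N (subst ρ A1) → SN N → Safe Q (inst (subst (up ρ) A2) N) :=
        fun h => hs (safe_pi hF (h1.subst_srt hρ) hd h)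
      push Not at this
      obtain ⟨N, hN, -, hu⟩ := this
      have hρ' := hρ.cons (hN.ty (t1.subst_srt hρ))
      have hu' : ¬ Safe Q (subst (scons N ρ) A2) := by simpa using hu
      have j1 := (hL.cod r1 i1).resolve_right fun h => hu' (h _ (t2.subst_srt hρ'))
      have j2 := (hL.cod r2 i2).resolve_right fun h => hu' (h _ (t4.subst_srt hρ'))
      rw [← (hc _ _ _ r1 i1).2 j1, ← (hc _ _ _ r2 i2).2 j2]
      exact ih2 n2 t2 t4 j1 j2 hρ' hu'
    · have j1 := (hL.dom r1 i1).resolve_right fun h => hd (h _ (t1.subst_srt hρ))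
      have j2 := (hL.dom r2 i2).resolve_right fun h => hd (h _ (t3.subst_srt hρ))
      have e := ih1 n1 t1 t3 j1 j2 hρ hd
      rw [(hc _ _ _ r1 i1).1 j1, (hc _ _ _ r2 i2).1 j2] at e
      simpa using e
  | _ => exact nonpi fun _ _ h => by cases h

/-- The colour of a closed type. -/
def colR (Q : Sig S) (c₀ : S) (col : S → Bool) (T : Tm S) : Prop :=
  ∃ c, InC Q.toPTS c₀ c ∧ Ty Q [] (nf T) (srt c) ∧ col c = true

theorem colR_congr {T T' : Tm S} (h : Conv T T') : colR Q c₀ col T ↔ colR Q c₀ col T' := by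
  rw [colR, colR, h.nf_eq]

theorem colR_iff (hF : Full Q) (hW : WN Q) (hL : Low Q c₀)
    (h : (Unary Q.toPTS c₀ ∧ ∀ s, col s = true) ∨ Colouring Q.toPTS c₀ col) {T : Tm S} {c : S}
    (hT : Ty Q [] T (srt c)) (hc : InC Q.toPTS c₀ c) (hs : ¬ Safe Q T) :
    colR Q c₀ col T ↔ col c = true := by
  refine ⟨?_, fun h' => ⟨c, hc, hT.nf hW, h'⟩⟩
  rintro ⟨c', h1, h2, h3⟩
  rcases h with h | h
  · exact h.2 c
  · rw [← h3]
    refine colour_eq hF hL h (nf T) (ρ := var) (nf_normal T) (hT.nf hW) h2 hc h1 Wf.nil ?_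
    rw [subst_id]
    exact fun h' => hs (h'.conv (hT.hasNf hW).conv.symm)

def leaf (Q : Sig S) (c₀ : S) (col : S → Bool) (B : Tm S) (σ : ℕ → Tm S) (tag : ℕ → Bool) :
    Set (Tm S) :=
  ov (Safe Q (subst σ B))
    (ov (¬ ∃ x, VHd x B ∧ (tag x = true ↔ colR Q c₀ col (subst σ B))) (cl ∅))

/-- The interpretation of normal types. -/
def J (Q : Sig S) (c₀ : S) (col : S → Bool) : Tm S → (ℕ → Tm S) → (ℕ → Bool) → Set (Tm S)
  | pi B1 B2, σ, tag => ov (Safe Q (subst σ (pi B1 B2)))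
      (arr (fun N (_ : Bool) => CTy Q N (subst σ B1) ∧ N ∈ J Q c₀ col B1 σ tag)
        fun N ε => J Q c₀ col B2 (scons N σ) (scons ε tag))
  | var n, σ, tag => leaf Q c₀ col (var n) σ tag
  | srt s, σ, tag => leaf Q c₀ col (srt s) σ tag
  | app M N, σ, tag => leaf Q c₀ col (app M N) σ tag
  | lam M N, σ, tag => leaf Q c₀ col (lam M N) σ tag
  | con n A, σ, tag => leaf Q c₀ col (con n A) σ tag

theorem sat_J (B : Tm S) : ∀ σ tag, Sat (J Q c₀ col B σ tag) := by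
  induction B with
  | pi B1 B2 ih1 ih2 =>
    exact fun σ tag => sat_ov _ (sat_arr (fun N _ h => (ih1 σ tag).sn _ h.2) fun _ _ => ih2 _ _)
  | _ => exact fun _ _ => sat_ov _ (sat_ov _ (sat_cl _))

theorem J_safe {B : Tm S} {σ : ℕ → Tm S} (tag : ℕ → Bool) (h : Safe Q (subst σ B)) :
    J Q c₀ col B σ tag = {M | SN M} := by
  cases B <;> exact ov_pos h _

theorem J_vhd {B : Tm S} {x : ℕ} (h : VHd x B) (σ : ℕ → Tm S) (tag : ℕ → Bool) :
    J Q c₀ col B σ tag = ov (Safe Q (subst σ B))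
      (ov (¬ (tag x = true ↔ colR Q c₀ col (subst σ B))) (cl ∅)) := by
  have e : (∃ y, VHd y B ∧ (tag y = true ↔ colR Q c₀ col (subst σ B))) ↔
      (tag x = true ↔ colR Q c₀ col (subst σ B)) :=
    ⟨fun ⟨y, h1, h2⟩ => h1.unique h ▸ h2, fun h' => ⟨x, h, h'⟩⟩
  rw [← e]
  cases h <;> rfl

theorem vhd_ren {ξ : ℕ → ℕ} {y : ℕ} (B : Tm S) (h : VHd y (subst (fun n => var (ξ n)) B)) :
    ∃ x, VHd x B ∧ y = ξ x := by
  induction B with
  | var n => cases h; exact ⟨n, .var, rfl⟩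
  | app M N ih _ =>
    cases h with
    | app _ h =>
      obtain ⟨x, h1, h2⟩ := ih h
      exact ⟨x, .app _ h1, h2⟩
  | _ => cases h

theorem leaf_ren (B : Tm S) (ξ : ℕ → ℕ) (σ : ℕ → Tm S) (tag : ℕ → Bool) :
    leaf Q c₀ col (subst (fun n => var (ξ n)) B) σ tag =
      leaf Q c₀ col B (fun n => σ (ξ n)) fun n => tag (ξ n) := by
  have e1 : subst σ (subst (fun n => var (ξ n)) B) = subst (fun n => σ (ξ n)) B := by
    rw [subst_subst]; rfl
  have e2 : ∀ C : Prop, (∃ y, VHd y (subst (fun n => var (ξ n)) B) ∧ (tag y = true ↔ C)) ↔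
      ∃ x, VHd x B ∧ (tag (ξ x) = true ↔ C) := fun C => by
    constructor
    · rintro ⟨y, h1, h2⟩
      obtain ⟨x, h3, rfl⟩ := vhd_ren B h1
      exact ⟨x, h3, h2⟩
    · rintro ⟨x, h1, h2⟩
      exact ⟨ξ x, h1.subst .var, h2⟩
  rw [leaf, leaf, e1, e2]

theorem J_ren (B : Tm S) : ∀ (ξ : ℕ → ℕ) (σ : ℕ → Tm S) (tag : ℕ → Bool),
    J Q c₀ col (subst (fun n => var (ξ n)) B) σ tag =
      J Q c₀ col B (fun n => σ (ξ n)) fun n => tag (ξ n) := by
  induction B with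
  | pi B1 B2 ih1 ih2 =>
    intro ξ σ tag
    have e0 : up (fun n => (var (ξ n) : Tm S)) = fun n => var (upr ξ n) := by
      funext n; cases n <;> rfl
    have e1 : ∀ B, subst σ (subst (fun n => var (ξ n)) B) = subst (fun n => σ (ξ n)) B :=
      fun B => by rw [subst_subst]; rfl
    have e2 : ∀ {α : Type u} (a : α) (f : ℕ → α),
        (fun n => scons a f (upr ξ n)) = scons a fun n => f (ξ n) := fun a f => by
      funext n; cases n <;> rfl
    have e3 : ∀ (a : Bool) (f : ℕ → Bool),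
        (fun n => scons a f (upr ξ n)) = scons a fun n => f (ξ n) := fun a f => by
      funext n; cases n <;> rfl
    have e4 := e1 (pi B1 B2)
    rw [subst_pi] at e4
    rw [subst_pi, J, J, e4, e1, ih1, e0]
    simp only [ih2, e2, e3]
  | var n => exact fun ξ σ tag => leaf_ren (var n) ξ σ tag
  | srt s => exact fun ξ σ tag => leaf_ren (srt s) ξ σ tag
  | app M N => exact fun ξ σ tag => leaf_ren (app M N) ξ σ tag
  | lam M N => exact fun ξ σ tag => leaf_ren (lam M N) ξ σ tag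
  | con n A => exact fun ξ σ tag => leaf_ren (con n A) ξ σ tag

/-- The sandwich property. -/
def Sand (Q : Sig S) (c₀ : S) (col : S → Bool) (B : Tm S) (X : List (Tm S)) (o : Bool) : Prop :=
  ∀ (vs : ℕ → Tm S) (Xs : ℕ → Prop) (ξ : ℕ → ℕ) (ρ : ℕ → Tm S) (t1 t2 : ℕ → Bool),
    (∀ x, ¬ Xs x → vs x = var (ξ x) ∧ t1 x = t2 (ξ x)) → Sub Q [] (comp vs ρ) X →
    HasNf (subst vs B) →
    ((∀ x, Xs x → t1 x = o) → J Q c₀ col B (comp vs ρ) t1 ⊆ J Q c₀ col (nf (subst vs B)) ρ t2) ∧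
    ((∀ x, Xs x → t1 x = !o) → J Q c₀ col (nf (subst vs B)) ρ t2 ⊆ J Q c₀ col B (comp vs ρ) t1)

theorem conv_nf {B : Tm S} {vs : ℕ → Tm S} (h : HasNf (subst vs B)) (ρ : ℕ → Tm S) :
    Conv (subst (comp vs ρ) B) (subst ρ (nf (subst vs B))) := by
  rw [← subst_subst]; exact h.conv.subst ρ

theorem sand_of_safe {B : Tm S} {X : List (Tm S)} (o : Bool)
    (h : ∀ σ, Sub Q [] σ X → Safe Q (subst σ B)) : Sand Q c₀ col B X o := by
  intro vs Xs ξ ρ t1 t2 _ hs hn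
  rw [J_safe t1 (h _ hs), J_safe t2 ((h _ hs).conv (conv_nf hn ρ))]
  exact ⟨fun _ => le_rfl, fun _ => le_rfl⟩

theorem sand_safeSort {B : Tm S} {X : List (Tm S)} {c : S} (o : Bool) (hB : Ty Q X B (srt c))
    (h : SafeSort Q c) : Sand Q c₀ col B X o :=
  sand_of_safe o fun _ hs => h _ (hB.subst_srt hs)

theorem sand_pi {B1 B2 : Tm S} {X : List (Tm S)} {a : S} {o : Bool} (h1 : Ty Q X B1 (srt a))
    (s1 : Sand Q c₀ col B1 X (!o)) (s2 : Sand Q c₀ col B2 (B1 :: X) o) :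
    Sand Q c₀ col (pi B1 B2) X o := by
  intro vs Xs ξ ρ t1 t2 hx hs hn
  have hc := conv_nf hn ρ
  rw [subst_pi] at hn
  obtain ⟨n1, n2⟩ := hn.pi_inv
  have hc1 := conv_nf n1 ρ
  obtain ⟨d1, d2⟩ := s1 vs Xs ξ ρ t1 t2 hx hs n1
  have hcod : ∀ N ε, CTy Q N (subst (comp vs ρ) B1) →
      ((∀ x, Xs x → t1 x = o) → J Q c₀ col B2 (scons N (comp vs ρ)) (scons ε t1) ⊆
        J Q c₀ col (nf (subst (up vs) B2)) (scons N ρ) (scons ε t2)) ∧
      ((∀ x, Xs x → t1 x = !o) → J Q c₀ col (nf (subst (up vs) B2)) (scons N ρ) (scons ε t2) ⊆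
        J Q c₀ col B2 (scons N (comp vs ρ)) (scons ε t1)) := by
    intro N ε hN
    have := s2 (up vs) (scons False Xs) (upr ξ) (scons N ρ) (scons ε t1) (scons ε t2)
      (fun x hx' => by
        cases x with
        | zero => exact ⟨rfl, rfl⟩
        | succ x =>
          obtain ⟨e1, e2⟩ := hx x hx'
          exact ⟨by rw [up_succ, e1]; rfl, e2⟩)
      (by rw [up_scons]; exact hs.cons (hN.ty (h1.subst_srt hs))) n2
    rw [up_scons] at this
    refine ⟨fun h => this.1 fun x hx' => ?_, fun h => this.2 fun x hx' => ?_⟩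
    · cases x with
      | zero => exact hx'.elim
      | succ x => exact h x hx'
    · cases x with
      | zero => exact hx'.elim
      | succ x => exact h x hx'
  rw [subst_pi vs, nf_pi hn] at hc ⊢
  rw [J, J]
  refine ⟨fun h M hM => ⟨hM.1, fun hu => ⟨hM.1, fun N ε hN => ?_⟩⟩,
    fun h M hM => ⟨hM.1, fun hu => ⟨hM.1, fun N ε hN => ?_⟩⟩⟩
  · have hN' := hN.1.conv hc1.symm
    exact (hcod N ε hN').1 h ((hM.2 fun h' => hu (h'.conv hc)).2 N ε
      ⟨hN', d2 (by simpa using h) hN.2⟩)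
  · exact (hcod N ε hN.1).2 h ((hM.2 fun h' => hu (h'.conv hc.symm)).2 N ε
      ⟨hN.1.conv hc1, d1 h hN.2⟩)

theorem sand_vhd (hF : Full Q) (hW : WN Q) (hL : Low Q c₀)
    (h : (Unary Q.toPTS c₀ ∧ ∀ s, col s = true) ∨ Colouring Q.toPTS c₀ col) {B : Tm S}
    {X : List (Tm S)} {c : S} {x : ℕ} (hx : VHd x B) (hB : Ty Q X B (srt c))
    (hc : InC Q.toPTS c₀ c) : Sand Q c₀ col B X (col c) := by
  intro vs Xs ξ ρ t1 t2 hv hs hn
  have hcv := conv_nf hn ρ
  by_cases hX : Xs x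
  · by_cases hsafe : Safe Q (subst (comp vs ρ) B)
    · rw [J_safe t1 hsafe, J_safe t2 (hsafe.conv hcv)]
      exact ⟨fun _ => le_rfl, fun _ => le_rfl⟩
    have e := colR_iff hF hW hL h (hB.subst_srt hs) hc hsafe
    rw [J_vhd hx, ov_neg hsafe (sat_ov _ (sat_cl _)), e]
    refine ⟨fun h' => ?_, fun h' => ?_⟩
    · rw [ov_neg (by rw [h' x hX]; simp) (sat_cl _)]
      exact cl_subset (sat_J _ _ _) (Set.empty_subset _)
    · rw [ov_pos (by rw [h' x hX]; simp)]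
      exact fun M hM => (sat_J _ _ _).sn M hM
  · obtain ⟨e1, e2⟩ := hv x hX
    have hx' : VHd (ξ x) (nf (subst vs B)) := (hx.subst (e1 ▸ .var)).red hn.red
    rw [J_vhd hx, J_vhd hx', e2, safe_congr hcv, colR_congr hcv]
    exact ⟨fun _ => le_rfl, fun _ => le_rfl⟩

theorem sandwich (hF : Full Q) (hW : WN Q) (hL : Low Q c₀)
    (h : (Unary Q.toPTS c₀ ∧ ∀ s, col s = true) ∨ Colouring Q.toPTS c₀ col) (B : Tm S) :
    ∀ {X : List (Tm S)} {c : S}, Normal B → Ty Q X B (srt c) → InC Q.toPTS c₀ c →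
      ∃ o, (Colouring Q.toPTS c₀ col → o = col c) ∧ Sand Q c₀ col B X o := by
  have nonpi : ∀ {B : Tm S}, (∀ B1 B2, B ≠ pi B1 B2) →
      ∀ {X : List (Tm S)} {c : S}, Normal B → Ty Q X B (srt c) → InC Q.toPTS c₀ c →
      ∃ o, (Colouring Q.toPTS c₀ col → o = col c) ∧ Sand Q c₀ col B X o := by
    intro B hB X c hn h1 hc
    refine ⟨col c, fun _ => rfl, ?_⟩
    rcases hn.type_cases h1 with ⟨s, rfl⟩ | ⟨A1, A2, rfl⟩ | ⟨x, hx⟩ | hx
    · exact sand_of_safe _ fun _ _ => safe_srt s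
    · exact (hB _ _ rfl).elim
    · exact sand_vhd hF hW hL h hx h1 hc
    · exact sand_of_safe _ fun σ _ => (hx.subst σ).safe
  induction B with
  | pi B1 B2 ih1 ih2 =>
    intro X c hn h1 hc
    obtain ⟨a, b, r, t1, t2⟩ := h1.gen_pi'
    obtain ⟨n1, n2⟩ := normal_pi.1 hn
    by_cases hcol : Colouring Q.toPTS c₀ col
    · refine ⟨col c, fun _ => rfl, sand_pi t1 ?_ ?_⟩
      · rcases hL.dom r hc with ha | ha
        · obtain ⟨o, e, s⟩ := ih1 n1 t1 ha
          rwa [e hcol, (hcol _ _ _ r hc).1 ha] at s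
        · exact sand_safeSort _ t1 ha
      · rcases hL.cod r hc with hb | hb
        · obtain ⟨o, e, s⟩ := ih2 n2 t2 hb
          rwa [e hcol, (hcol _ _ _ r hc).2 hb] at s
        · exact sand_safeSort _ t2 hb
    · have hu := (h.resolve_right hcol).1
      rcases hL.dom r hc with ha | ha
      · obtain ⟨o, -, s⟩ := ih1 n1 t1 ha
        have hb := (hL.cod r hc).resolve_left fun hb => hu _ _ _ r ha hb hc
        exact ⟨!o, fun h' => (hcol h').elim,
          sand_pi t1 (by simpa using s) (sand_safeSort _ t2 hb)⟩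
      · rcases hL.cod r hc with hb | hb
        · obtain ⟨o, -, s⟩ := ih2 n2 t2 hb
          exact ⟨o, fun h' => (hcol h').elim, sand_pi t1 (sand_safeSort _ t1 ha) s⟩
        · exact ⟨true, fun h' => (hcol h').elim,
            sand_pi t1 (sand_safeSort _ t1 ha) (sand_safeSort _ t2 hb)⟩
  | _ => exact nonpi fun _ _ h => by cases h

theorem J_elim (hW : WN Q) {Γ : List (Tm S)} {A B M N : Tm S} {s : S} {σ : ℕ → Tm S}
    {tag : ℕ → Bool} (hP : Ty Q Γ (pi A B) (srt s)) (hs : ¬ Safe Q (subst σ (pi A B)))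
    (hN : Ty Q [] N (subst σ A)) (hM : M ∈ J Q c₀ col (pi (nf A) (nf B)) σ tag)
    (hI : N ∈ J Q c₀ col (nf A) σ tag) (ε : Bool) :
    app M N ∈ J Q c₀ col (nf B) (scons N σ) (scons ε tag) := by
  have hn := hP.hasNf hW
  have hc := hn.conv.subst σ
  rw [nf_pi hn] at hc
  exact (hM.2 fun h => hs (h.conv hc.symm)).2 N ε
    ⟨hN.cty.conv (hn.pi_inv.1.conv.subst σ), hI⟩

/-- The model of a unary or two-colourable component. -/
def model (hF : Full Q) (hW : WN Q) (hL : Low Q c₀)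
    (h : (Unary Q.toPTS c₀ ∧ ∀ s, col s = true) ∨ Colouring Q.toPTS c₀ col) :
    CModel.{u, u} Q c₀ where
  Env := (ℕ → Tm S) × (ℕ → Bool)
  real e := e.1
  Valid Γ e := Sub Q [] e.1 Γ
  J e A := J Q c₀ col A e.1 e.2
  Ext e _ N e' := ∃ ε, e' = (scons N e.1, scons ε e.2)
  e₀ := (var, fun _ => true)
  valid₀ := Wf.nil
  valid_sub h := h
  sat _ _ := sat_J _ _ _
  safe h := J_safe _ h
  ext_ex _ _ _ := ⟨_, true, rfl⟩
  ext_real := by
    rintro e A N _ ⟨ε, rfl⟩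
    rfl
  ext_valid := by
    rintro Γ e A N _ hv ⟨ε, rfl⟩ _ hN
    exact hv.cons hN
  wk := by
    rintro e A N _ B ⟨ε, rfl⟩
    exact J_ren B (fun n => n + 1) _ _
  pi_intro := by
    intro Γ e A B s M hv hP sM hM
    obtain ⟨a, ha⟩ := hP.pi_dom
    refine ⟨sM, fun _ => ⟨sM, fun N ε hN => hM N _ ?_ hN.2 ⟨ε, rfl⟩⟩⟩
    exact (hN.1.conv ((ha.hasNf hW).conv.symm.subst _)).ty (ha.subst_srt hv)
  pi_elim := by
    intro Γ e A B s a b c M N hv hP _ hb _ _ hB hs hN hM hI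
    obtain ⟨o, -, hS⟩ := sandwich hF hW hL h (nf B) (nf_normal B) hB hb
    have h1 := J_elim hW hP hs (hN.subst hv) hM hI o
    have hN' := hN.nf_ty hW
    have h2 := (hS (scons N var) (· = 0) Nat.pred e.1 (scons o e.2) e.2
      (fun x hx => by
        cases x with
        | zero => exact (hx rfl).elim
        | succ x => exact ⟨rfl, rfl⟩)
      (hN'.sub_inst.comp hv) ((hB.inst_srt hN').hasNf hW)).1 (by rintro _ rfl; rfl)
    rw [comp_scons, var_comp] at h2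
    have h3 := h2 h1
    rwa [← (Conv.inst (hP.hasNf hW).pi_inv.2.conv (.refl N)).nf_eq] at h3
  pi_sn := by
    intro Γ e A B s M N _ hP hs hN hM hI
    exact (sat_J _ _ _).sn _ (J_elim hW hP hs hN hM hI true)

end CaseIAux

theorem caseI (hF : Full Q) (hW : WN Q) (hL : Low Q c₀) (col : S → Bool)
    (h : (Unary Q.toPTS c₀ ∧ ∀ s, col s = true) ∨ Colouring Q.toPTS c₀ col) :
    SafeSort Q c₀ :=
  (CaseIAux.model hF hW hL h).safeSort hF hW hL

end Tm

end Vale.Agent.P340
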