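import Vale.Agent.P340.Interp

/-! Components in which kinds of both signs are accessible. -/

namespace Vale.Agent.P340

universe u

namespace Tm

variable {S : Type u} {Q : Sig S} {c₀ : S}

def EnvOK (Q : Sig S) (c₀ : S) (Γ : List (Tm S)) (σ κ : ℕ → Tm S) (L : ℕ → Prop) : Prop :=
  ∀ n A, Look Γ n A → L n ∨ (κ n = nf (subst σ A) ∧ Good Q c₀ (κ n))

theorem EnvOK.cons {Γ : List (Tm S)} {σ κ : ℕ → Tm S} {L : ℕ → Prop} (h : EnvOK Q c₀ Γ σ κ L)
    {A : Tm S} (N : Tm S) (hA : Good Q c₀ (nf (subst σ A))) :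
    EnvOK Q c₀ (A :: Γ) (scons N σ) (scons (nf (subst σ A)) κ) (scons False L) := by
  intro n B hl
  cases hl with
  | zero => exact .inr ⟨by simp, hA⟩
  | succ _ hl => simpa using h _ _ hl

theorem sgn_base (hW : WN Q) {Γ : List (Tm S)} {σ : ℕ → Tm S} {A : Tm S} {a b c : S}
    (hσ : Sub Q [] σ Γ) (hA : Ty Q Γ A (srt a)) (hr : Q.rule a b c) (hb : InC Q.toPTS c₀ b)
    (hc : InC Q.toPTS c₀ c) : Sgn Q c₀ true (nf (subst σ A)) :=
  .base (nf_normal _) ((hA.subst_srt hσ).nf hW) ⟨b, c, hb, hc, hr⟩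

theorem k_normal (hW : WN Q) (hL : Low Q c₀) (t : Tm S) : ∀ {Γ T σ κ L}, Normal t → Ty Q Γ t T →
    Sub Q [] σ Γ → EnvOK Q c₀ Γ σ κ L →
    (∀ π, BSp Q c₀ π (subst σ T) → (∀ q ∈ π, Good Q c₀ q.2) → K Q c₀ t σ κ L π) ∧
    (Neu t → Hd L t ∨ ∀ π, BSp Q c₀ π (subst σ T) → ∀ q ∈ π, Good Q c₀ q.2) := by
  have nil : ∀ {T : Tm S} {c : S} {π : List (Tm S × Tm S)}, Conv T (srt c) → BSp Q c₀ π T →
      π = [] ∧ InC Q.toPTS c₀ c := by
    intro T c π hc hπ
    have h1 := hπ.conv hc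
    cases π with
    | nil => obtain ⟨s, h2, h3⟩ := h1; simp at h3; exact ⟨rfl, h3 ▸ h2⟩
    | cons q π => obtain ⟨W, h2, -⟩ := h1; simp at h2
  induction t with
  | srt s =>
    intro Γ T σ κ L _ hT _ _
    obtain ⟨s', -, h⟩ := hT.gen_srt
    exact ⟨fun _ _ _ => trivial, fun _ => .inr fun π hπ => by simp [(nil (h.subst σ) hπ).1]⟩
  | con n A => exact fun _ _ _ _ => ⟨fun _ _ _ => trivial, fun _ => .inl (.inl (.con _ _))⟩
  | var x =>
    intro Γ T σ κ L _ hT _ he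
    obtain ⟨A, h1, h2⟩ := hT.gen_var
    rcases he x A h1 with h | ⟨h3, h4⟩
    · exact ⟨fun _ _ _ => .inl h, fun _ => .inl (.inr ⟨x, h, .var⟩)⟩
    · have h5 : ∀ π, BSp Q c₀ π (subst σ T) → BSp Q c₀ π (κ x) := fun π hπ => by
        rw [h3, bsp_nf]; exact hπ.conv (h2.subst σ)
      exact ⟨fun π hπ _ => .inr (h5 π hπ),
        fun _ => .inr fun π hπ q hq => h4.succ ⟨π, q.1, h5 π hπ, hq⟩⟩
  | app t u iht ihu =>
    intro Γ T σ κ L hn hT hσ he
    obtain ⟨n1, n2, n3⟩ := normal_app.1 hn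
    have hneu : Neu t := n1.neu_or_lam.resolve_right fun ⟨A, B, e⟩ => n3 A B e
    obtain ⟨A, B, h1, h2, h3⟩ := hT.gen_app
    obtain ⟨i1, i2⟩ := iht n1 h1 hσ he
    rcases i2 hneu with i2 | i2
    · exact ⟨fun _ _ _ => .inl i2, fun _ => .inl (i2.app u)⟩
    have h4 := h1.subst hσ
    have h5 := h2.subst hσ
    have hd : dom Q (subst σ t) = nf (subst σ A) := dom_eq hW h4
    have hp := h4.hasNf_ty hW
    have push : ∀ π, BSp Q c₀ π (subst σ T) →
        BSp Q c₀ ((nf (subst σ u), dom Q (subst σ t)) :: π) (subst σ (pi A B)) := by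
      intro π hπ
      refine ⟨_, by rw [hd]; exact nf_pi hp, nf_normal _, ?_, hπ.conv ((h3.subst σ).trans ?_)⟩
      · rw [hd]; exact (h5.nf hW).cty.conv hp.pi_inv.1.conv
      · rw [subst_inst]; exact Conv.inst hp.pi_inv.2.conv (h5.hasNf hW).conv
    refine ⟨fun π hπ _ => .inr ⟨h5.hasNf hW, i2 _ (push π hπ) _ List.mem_cons_self,
      i1 _ (push π hπ) (i2 _ (push π hπ)), fun π₁ hπ₁ => ?_⟩,
      fun _ => .inr fun π hπ q hq => i2 _ (push π hπ) q (List.mem_cons_of_mem _ hq)⟩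
    refine (ihu n2 h2 hσ he).1 π₁ (by rwa [hd, bsp_nf] at hπ₁) fun q hq => ?_
    exact (i2 _ (push π hπ) _ List.mem_cons_self).succ ⟨π₁, q.1, hπ₁, hq⟩
  | lam A b _ ih =>
    intro Γ T σ κ L hn hT hσ he
    refine ⟨fun π hπ hg => ?_, fun h => by cases h⟩
    cases π with
    | nil => trivial
    | cons q π =>
      obtain ⟨B, s, h1, h2, h3⟩ := hT.gen_lam
      obtain ⟨W₂, h4, h5, h6, h7⟩ := hπ.conv (h3.subst σ)
      have hp := (h2.subst hσ).hasNf hW
      rw [subst_pi, nf_pi hp] at h4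
      simp only [pi.injEq] at h4
      obtain ⟨a, ha⟩ := h2.pi_dom
      have h8 : Ty Q [] q.1 (subst σ A) :=
        (h6.conv (h4.1 ▸ hp.pi_inv.1.conv.symm)).ty (ha.subst_srt hσ)
      simp only [K]
      rw [← h4.1]
      refine (ih (normal_lam.1 hn).2 h1 (hσ.cons h8)
        (he.cons _ (h4.1 ▸ hg q List.mem_cons_self))).1 π (h7.conv ?_)
        fun q hq => hg q (List.mem_cons_of_mem _ hq)
      rw [← h4.2]
      simpa using Conv.inst hp.pi_inv.2.conv.symm (.refl q.1)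
  | pi A B ihA ihB =>
    intro Γ T σ κ L hn hT hσ he
    obtain ⟨a, b, c, hr, h1, h2, h3⟩ := hT.gen_pi
    refine ⟨fun π hπ _ => ?_, fun _ => .inr fun π hπ => by simp [(nil (h3.subst σ) hπ).1]⟩
    have hc := (nil (h3.subst σ) hπ).2
    refine ⟨?_, fun N hN => ?_⟩
    · rcases hL.dom hr hc with h | h
      · exact .inr ((ihA (normal_pi.1 hn).1 h1 hσ he).1 [] ⟨a, h, by simp⟩ (by simp))
      · exact .inl (h _ (h1.subst_srt hσ))
    · have hσ' := hσ.cons (hN.ty (h1.subst_srt hσ))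
      rcases hL.cod hr hc with h | h
      · exact .inr ((ihB (normal_pi.1 hn).2 h2 hσ'
          (he.cons _ (.inr (.inl (sgn_base hW hσ h1 hr h hc))))).1 [] ⟨b, h, by simp⟩ (by simp))
      · exact .inl (h _ (h2.subst_srt hσ'))

theorem exists_kinds (Γ : List (Tm S)) (σ : ℕ → Tm S) :
    ∃ κ : ℕ → Tm S, ∀ n A, Look Γ n A → κ n = nf (subst σ A) := by
  classical
  refine ⟨fun n => if h : ∃ A, Look Γ n A then nf (subst σ h.choose) else var 0, fun n A h => ?_⟩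
  have h1 : ∃ A, Look Γ n A := ⟨A, h⟩
  simp only [dif_pos h1, h1.choose_spec.unique h]

noncomputable def modelII (hW : WN Q) (hL : Low Q c₀) (H : HypII Q c₀) :
    CModel.{u, u + 1} Q c₀ where
  Env := (ℕ → Tm S) × (ℕ → V S)
  real e := e.1
  Valid Γ e := Sub Q [] e.1 Γ ∧ Bdd e.2 ∧
    ∀ n A, Look Γ n A → Good Q c₀ (nf (subst e.1 A)) ∨ ∀ π, fib (e.2 n) π = ∅
  J e A := evT Q c₀ A e.1 e.2
  Ext e A N e' := ∃ v ∈ Qv Q c₀ (nf (subst e.1 A)), e' = (scons N e.1, scons v e.2)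
  e₀ := (var, fun _ => mkV 0 ∅)
  valid₀ := ⟨Wf.nil, ⟨0, by simp⟩, fun _ _ h => by cases h⟩
  valid_sub h := h.1
  sat _ _ := sat_evT _ _ _
  safe h := ov_pos h _
  ext_ex e A N := by
    obtain ⟨v, hv⟩ := Qv_nonempty (Q := Q) (c₀ := c₀) (nf (subst e.1 A))
    exact ⟨_, v, hv, rfl⟩
  ext_real := by rintro e A N _ ⟨v, -, rfl⟩; rfl
  ext_valid := by
    rintro Γ e A N _ ⟨h1, h2, h3⟩ ⟨v, hv, rfl⟩ _ hN
    refine ⟨h1.cons hN, h2.cons v, fun n B hl => ?_⟩
    cases hl with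
    | zero => simpa using Qv_good hv
    | succ _ hl => simpa using h3 _ _ hl
  wk := by
    rintro e A N _ B ⟨v, -, rfl⟩
    exact evT_congr (by simp [Conv.refl]) fun _ => ev_lift _ _ _ _ _ _
  pi_intro := by
    intro Γ e A B s M hv hP sM h
    have hp := (hP.hasNf hW).pi_inv
    obtain ⟨a, ha⟩ := hP.pi_dom
    refine ⟨sM, fun _ => ?_⟩
    rw [(sat_ev_pi _ _ _ _ _).cl_eq, ev_pi]
    refine ⟨sM, fun N v ⟨h1, h2, h3⟩ => h N _ ?_ h2 ⟨v, ?_, rfl⟩⟩
    · exact (h1.conv (hp.1.conv.symm.subst _)).ty (ha.subst_srt hv.1)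
    · rwa [(hp.1.conv.subst _).nf_eq]
  pi_elim := by
    rintro Γ ⟨σ, η⟩ A B s a b c M N ⟨hσ, hb, hv⟩ hP hr hbC hcC hA hB hs hN hM hI
    have hp := (hP.hasNf hW).pi_inv
    have hM' := hM.2 fun h => hs (h.conv ((Conv.pi hp.1.conv hp.2.conv).symm.subst _))
    rw [(sat_ev_pi _ _ _ _ _).cl_eq, ev_pi] at hM'
    have hN' : Ty Q Γ (nf N) (nf A) := (hN.nf hW).nf_ty hW
    have hsg := sgn_base hW hσ hA hr hbC hcC
    have hg : Good Q c₀ (nf (subst σ (nf A))) := .inr (.inl hsg)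
    have h1 := hM'.2 (subst σ N) (reify Q c₀ (nf (subst σ (nf A))) (ev Q c₀ (nf N) σ η))
      ⟨((hN.nf_ty hW).subst hσ).cty, hI, by rw [Qv_pos hsg]; exact reify_mem H _ _⟩
    obtain ⟨κ, hκ⟩ := exists_kinds Γ σ
    have he : EnvOK Q c₀ Γ σ κ fun x => ∀ π, fib (η x) π = ∅ := fun n D hl =>
      (hv n D hl).symm.imp id fun h => ⟨hκ n D hl, hκ n D hl ▸ h⟩
    have kB : K Q c₀ (nf B) (comp (scons (nf N) var) σ) (scons (nf (subst σ (nf A))) κ)
        (scons False fun x => ∀ π, fib (η x) π = ∅) [] := by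
      simpa using (k_normal hW hL _ (nf_normal B) hB (hσ.cons (hN'.subst hσ))
        (he.cons _ hg)).1 [] ⟨b, hbC, by simp⟩ (by simp)
    have kN : ∀ π₁, BSp Q c₀ π₁ (nf (subst σ (nf A))) →
        K Q c₀ (nf N) σ κ (fun x => ∀ π, fib (η x) π = ∅) π₁ := fun π₁ h =>
      (k_normal hW hL _ (nf_normal N) hN' hσ he).1 π₁ (bsp_nf.1 h)
        fun q hq => hg.succ ⟨π₁, q.1, h, hq⟩
    have kBN : K Q c₀ (inst (nf B) (nf N)) σ κ (fun x => ∀ π, fib (η x) π = ∅) [] := by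
      refine K.subst kB (fun x hx => ?_) fun x hx π₁ hπ => ?_
      · cases x with
        | zero => exact hx.elim
        | succ x => exact .inr ⟨x, hx, .var⟩
      · cases x with
        | zero => exact kN π₁ hπ
        | succ x => exact .inr hπ
    have hc : Conv (inst B N) (inst (nf B) (nf N)) := Conv.inst hp.2.conv (hN.hasNf hW).conv
    have hn := (hB.inst_srt hN').hasNf hW
    have hσσ : ∀ n, Conv (scons (subst σ N) σ n) (comp (scons (nf N) var) σ n) := by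
      simpa using Conv.scons ((hN.hasNf hW).conv.subst σ) fun _ => .refl _
    have : evT Q c₀ (nf B) (scons (subst σ N) σ)
        (scons (reify Q c₀ (nf (subst σ (nf A))) (ev Q c₀ (nf N) σ η)) η) =
        evT Q c₀ (nf (inst B N)) σ η := by
      rw [hc.nf_eq]
      refine evT_congr ((Conv.substs hσσ _).trans (by simpa using hn.conv.subst σ)) fun _ => ?_
      rw [ev_conv _ hσσ, ← ev_red H hn.red kBN hb fun _ h => h]
      refine (ev_subst H (π := []) kB (by simp) (fun x hx π => ?_) fun x hx π hπ => ?_).symm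
      · cases x with
        | zero => exact hx.elim
        | succ x => exact ⟨hx π, hx π⟩
      · cases x with
        | zero =>
          obtain ⟨n, hn⟩ := ev_fnt H (nf N) σ hb
          exact fib_reify H hg hn hπ
        | succ x => rfl
    exact this ▸ h1
  pi_sn := by
    intro Γ e A B s M N hv hP hs hN hM hI
    have hp := (hP.hasNf hW).pi_inv
    have hM' := hM.2 fun h => hs (h.conv ((Conv.pi hp.1.conv hp.2.conv).symm.subst _))
    rw [(sat_ev_pi _ _ _ _ _).cl_eq, ev_pi] at hM'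
    obtain ⟨v, hv⟩ := Qv_nonempty (Q := Q) (c₀ := c₀) (nf (subst e.1 (nf A)))
    exact (sat_evT _ _ _).sn _ (hM'.2 N v ⟨hN.cty.conv (hp.1.conv.subst _), hI, hv⟩)

theorem caseII (hF : Full Q) (hW : WN Q) (hL : Low Q c₀) (h : HypII Q c₀) : SafeSort Q c₀ :=
  (modelII hW hL h).safeSort hF hW hL

end Tm

end Vale.Agent.P340
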