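import Vale.Agent.P340.Spine

/-! A kind of both signs that is not accessible gives an impredicative cycle of sorts. -/

namespace Vale.Agent.P340

universe u

namespace Tm

variable {S : Type u} {Q : Sig S} {c₀ : S}

namespace Extract

theorem spine_sorts (hW : WN Q) {π : List (Tm S × Tm S)} {W : Tm S} {w : S}
    (hT : Ty Q [] W (srt w)) (h : BSp Q c₀ π W) :
    L1 Q.toPTS c₀ w ∧ ∀ N D, (N, D) ∈ π →
      Normal D ∧ ∃ a, Ty Q [] D (srt a) ∧ Path (LRule Q.toPTS c₀) w a true := by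
  induction π generalizing W w with
  | nil =>
    obtain ⟨s, hs, e⟩ := h
    have h1 := hT.nf hW
    rw [e] at h1
    exact ⟨⟨s, w, hs, h1.gen_srt', .refl _⟩, fun _ _ h => by cases h⟩
  | cons p π ih =>
    obtain ⟨W₂, e, -, h2, h3⟩ := h
    have h1 := hT.nf hW
    have h0 := nf_normal W
    rw [e] at h1 h0
    obtain ⟨a, b, hr, h4, h5⟩ := h1.gen_pi'
    obtain ⟨h6, h7⟩ := ih (h5.inst_srt (h2.ty h4)) h3
    have hl : LRule Q.toPTS c₀ a b w := ⟨hr, h6⟩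
    refine ⟨?_, fun N D hD => ?_⟩
    · obtain ⟨s, t, h8, h9, h10⟩ := h6
      exact ⟨s, t, h8, h9, .step hr h10⟩
    · rcases List.mem_cons.1 hD with rfl | hD
      · exact ⟨(normal_pi.1 h0).1, a, h4, .dom hl (.refl a)⟩
      · obtain ⟨h8, a', h9, h10⟩ := h7 N D hD
        exact ⟨h8, a', h9, .cod hl h10⟩

theorem succ_sort (hW : WN Q) {W D : Tm S} {w : S} (hT : Ty Q [] W (srt w))
    (h : Succ Q c₀ W D) :
    Normal D ∧ ∃ a, Ty Q [] D (srt a) ∧ Path (LRule Q.toPTS c₀) w a true := by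
  obtain ⟨π, N, h1, h2⟩ := h
  exact (spine_sorts hW hT h1).2 N D h2

theorem exists_succ {W : Tm S} (h : ¬ AccK Q c₀ W) : ∃ D, Succ Q c₀ W D ∧ ¬ AccK Q c₀ D := by
  by_contra hne
  exact h (AccK.intro fun D hD => by_contra fun h' => hne ⟨D, hD, h'⟩)

theorem succ_pi {W D : Tm S} (h : Succ Q c₀ W D) : ∃ A B, nf W = pi A B := by
  obtain ⟨π, N, h1, h2⟩ := h
  cases π with
  | nil => cases h2
  | cons p π => obtain ⟨W₂, e, -⟩ := h1; exact ⟨_, _, e⟩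

/-- Sorts reached from a quantified sort with the parity of the sign. -/
def SP (Q : Sig S) (c₀ : S) (ε : Bool) (w : S) : Prop :=
  ∃ q, Quantif Q.toPTS c₀ q ∧ Path (LRule Q.toPTS c₀) q w (!ε)

theorem SP.path {ε δ : Bool} {w t : S} (h : SP Q c₀ ε w)
    (hp : Path (LRule Q.toPTS c₀) w t δ) : SP Q c₀ (xor ε δ) t := by
  obtain ⟨q, h1, h2⟩ := h
  refine ⟨q, h1, ?_⟩
  have h3 := h2.trans hp
  cases ε <;> cases δ <;> exact h3

theorem sgn_sort (hW : WN Q) {ε : Bool} {W : Tm S} (h : Sgn Q c₀ ε W) :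
    Normal W ∧ ∃ w, Ty Q [] W (srt w) ∧ SP Q c₀ ε w := by
  induction h with
  | base h1 h2 h3 => exact ⟨h1, _, h2, _, h3, .refl _⟩
  | @step ε W D _ hs ih =>
    obtain ⟨-, w, h1, h2⟩ := ih
    obtain ⟨h3, a, h4, h5⟩ := succ_sort hW h1 hs
    refine ⟨h3, a, h4, ?_⟩
    have h6 := h2.path h5
    cases ε <;> exact h6

theorem vhd_look {x : ℕ} {T : List (Tm S)} {t U : Tm S} (h : VHd x t) (ht : Ty Q T t U) :
    ∃ A, Look T x A := by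
  induction h generalizing U with
  | var => obtain ⟨A, h1, -⟩ := ht.gen_var; exact ⟨A, h1⟩
  | app N _ ih => obtain ⟨A, B, h1, -, -⟩ := ht.gen_app; exact ih h1

theorem vhd_cod {x : ℕ} {T : List (Tm S)} {t U A : Tm S} {k : S} (h : VHd x t)
    (ht : Ty Q T t U) (hx : Look T x A) (hA : Ty Q T A (srt k)) :
    ∃ k₂ U₂, Cod Q.rule k k₂ ∧ Conv U₂ U ∧ Ty Q T U₂ (srt k₂) := by
  induction h generalizing U with
  | var =>
    obtain ⟨A', h1, h2⟩ := ht.gen_var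
    obtain rfl := h1.unique hx
    exact ⟨k, _, .refl _, h2.symm, hA⟩
  | app N _ ih =>
    obtain ⟨A₁, B₁, h1, h2, h3⟩ := ht.gen_app
    obtain ⟨k₂, U₂, h4, h5, h6⟩ := ih h1
    obtain ⟨A', B', h7, h8, h9⟩ := h5.red_pi
    obtain ⟨a, b, hr, h10, h11⟩ := (h6.red h7).gen_pi'
    exact ⟨b, _, h4.snoc hr, (h3.trans (Conv.inst h9.conv (.refl _))).symm,
      h11.inst_srt (.conv h2 h10 h8.conv)⟩

theorem descent (hW : WN Q) (r₁ r₂ : S) (W : Tm S) :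
    ∀ (T : List (Tm S)) (w₁ w₂ : S) (δ : Bool) (ρ : ℕ → Tm S), Normal W →
      Ty Q T W (srt w₁) → Ty Q T W (srt w₂) → Path (LRule Q.toPTS c₀) r₁ w₁ δ →
      Path (LRule Q.toPTS c₀) r₂ w₂ δ → Sub Q [] ρ T → ¬ AccK Q c₀ (subst ρ W) →
      (∀ x A, Look T x A → ∃ k b c, Q.rule k b c ∧ Ty Q T A (srt k) ∧
        Reach (LRule Q.toPTS c₀) r₁ c ∧ Reach (LRule Q.toPTS c₀) b w₁) →
      ∃ d δ₂ dh k b c W₂, Path (LRule Q.toPTS c₀) r₁ d δ₂ ∧ Path (LRule Q.toPTS c₀) r₂ d δ₂ ∧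
        Q.ax d dh ∧ Cod Q.rule k dh ∧ Q.rule k b c ∧ Reach (LRule Q.toPTS c₀) r₁ c ∧
        Reach (LRule Q.toPTS c₀) b d ∧ Normal W₂ ∧ Ty Q [] W₂ (srt d) ∧ ¬ AccK Q c₀ W₂ := by
  have neutral : ∀ (W : Tm S), (∀ A B, W ≠ pi A B) →
      ∀ (T : List (Tm S)) (w₁ w₂ : S) (δ : Bool) (ρ : ℕ → Tm S), Normal W →
      Ty Q T W (srt w₁) → Ty Q T W (srt w₂) → Path (LRule Q.toPTS c₀) r₁ w₁ δ →
      Path (LRule Q.toPTS c₀) r₂ w₂ δ → Sub Q [] ρ T → ¬ AccK Q c₀ (subst ρ W) →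
      (∀ x A, Look T x A → ∃ k b c, Q.rule k b c ∧ Ty Q T A (srt k) ∧
        Reach (LRule Q.toPTS c₀) r₁ c ∧ Reach (LRule Q.toPTS c₀) b w₁) →
      ∃ d δ₂ dh k b c W₂, Path (LRule Q.toPTS c₀) r₁ d δ₂ ∧ Path (LRule Q.toPTS c₀) r₂ d δ₂ ∧
        Q.ax d dh ∧ Cod Q.rule k dh ∧ Q.rule k b c ∧ Reach (LRule Q.toPTS c₀) r₁ c ∧
        Reach (LRule Q.toPTS c₀) b d ∧ Normal W₂ ∧ Ty Q [] W₂ (srt d) ∧ ¬ AccK Q c₀ W₂ := by
    intro W hne T w₁ w₂ δ ρ hN h1 h2 p1 p2 hρ hA hL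
    obtain ⟨D, hD, -⟩ := exists_succ hA
    obtain ⟨A, B, e⟩ := succ_pi hD
    rcases hN.type_cases h1 with ⟨s, rfl⟩ | ⟨A', B', rfl⟩ | ⟨x, hx⟩ | hc
    · simp at e
    · exact (hne _ _ rfl).elim
    · obtain rfl := (hx.unique_ty h1 h2).srt_inj
      obtain ⟨A', hA'⟩ := vhd_look hx h1
      obtain ⟨k, b, c, h3, h4, h5, h6⟩ := hL x A' hA'
      obtain ⟨k₂, U₂, h7, h8, h9⟩ := vhd_cod hx h1 hA' h4
      have h10 := h1.subst_srt hρ
      exact ⟨w₁, δ, k₂, k, b, c, nf (subst ρ W), p1, p2,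
        (h9.red (h8.red_normal (normal_srt _))).gen_srt', h7, h3, h5, h6, nf_normal _,
        h10.nf hW, fun h => hA (h.conv (h10.hasNf hW).conv.symm)⟩
    · exact ((hc.subst ρ).not_conv_pi (conv_of_nf_pi e)).elim
  induction W with
  | pi W₁ W₂ ih₁ ih₂ =>
    intro T w₁ w₂ δ ρ hN h1 h2 p1 p2 hρ hA hL
    obtain ⟨D, ⟨π, N', hπ, hm⟩, hD⟩ := exists_succ hA
    obtain ⟨a₁, b₁, hr₁, h3, h4⟩ := h1.gen_pi'
    obtain ⟨a₂, b₂, hr₂, h5, h6⟩ := h2.gen_pi'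
    have hnf : HasNf (pi (subst ρ W₁) (subst (up ρ) W₂)) := (h1.subst_srt hρ).hasNf hW
    cases π with
    | nil => cases hm
    | cons p π =>
      obtain ⟨N, D₁⟩ := p
      obtain ⟨D₂, e, -, h7, h8⟩ := hπ
      rw [subst_pi, nf_pi hnf] at e
      obtain ⟨e₁, e₂⟩ : nf (subst ρ W₁) = D₁ ∧ nf (subst (up ρ) W₂) = D₂ := by
        simpa only [pi.injEq] using e
      have c₁ : Conv (subst ρ W₁) D₁ := e₁ ▸ hnf.pi_inv.1.conv
      have c₂ : Conv (subst (up ρ) W₂) D₂ := e₂ ▸ hnf.pi_inv.2.conv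
      have hρ' : Sub Q [] (scons N ρ) (W₁ :: T) :=
        hρ.cons ((h7.conv c₁.symm).ty (h3.subst_srt hρ))
      have c₃ : Conv (inst D₂ N) (subst (scons N ρ) W₂) := by
        simpa using Conv.inst c₂.symm (Conv.refl N)
      have h9 := h8.conv c₃
      have l₁ : LRule Q.toPTS c₀ a₁ b₁ w₁ := ⟨hr₁, (spine_sorts hW (h4.subst_srt hρ') h9).1⟩
      have l₂ : LRule Q.toPTS c₀ a₂ b₂ w₂ := ⟨hr₂, (spine_sorts hW (h6.subst_srt hρ') h9).1⟩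
      rcases List.mem_cons.1 hm with e' | hm
      · cases e'
        refine ih₁ T a₁ a₂ (!δ) ρ (normal_pi.1 hN).1 h3 h5 (p1.snoc_dom l₁) (p2.snoc_dom l₂) hρ
          (fun h => hD (h.conv c₁)) fun x A hx => ?_
        obtain ⟨k, b, c, k1, k2, k3, k4⟩ := hL x A hx
        exact ⟨k, b, c, k1, k2, k3, k4.trans (.dom l₁)⟩
      · refine ih₂ (W₁ :: T) b₁ b₂ δ (scons N ρ) (normal_pi.1 hN).2 h4 h6 (p1.snoc_cod l₁)
          (p2.snoc_cod l₂) hρ' (fun h => hD (h.succ ⟨π, N', h9, hm⟩)) fun x A hx => ?_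
        cases hx with
        | zero => exact ⟨a₁, b₁, w₁, hr₁, h3.wk_srt h3.wf_cons, ⟨_, p1⟩, .refl _⟩
        | succ _ hx =>
          obtain ⟨k, b, c, k1, k2, k3, k4⟩ := hL _ _ hx
          exact ⟨k, b, c, k1, k2.wk_srt h3.wf_cons, k3, k4.trans (.cod l₁)⟩
  | _ => exact neutral _ fun _ _ h => by cases h

theorem descent_closed (hW : WN Q) {r₁ r₂ : S} {W : Tm S} (hN : Normal W)
    (h1 : Ty Q [] W (srt r₁)) (h2 : Ty Q [] W (srt r₂)) (hA : ¬ AccK Q c₀ W) :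
    ∃ d δ₂ dh k b c W₂, Path (LRule Q.toPTS c₀) r₁ d δ₂ ∧ Path (LRule Q.toPTS c₀) r₂ d δ₂ ∧
      Q.ax d dh ∧ Cod Q.rule k dh ∧ Q.rule k b c ∧ Reach (LRule Q.toPTS c₀) r₁ c ∧
      Reach (LRule Q.toPTS c₀) b d ∧ Normal W₂ ∧ Ty Q [] W₂ (srt d) ∧ ¬ AccK Q c₀ W₂ :=
  descent hW r₁ r₂ W [] r₁ r₂ false var hN h1 h2 (.refl _) (.refl _) (Sub.nil .nil)
    (by simpa using hA) fun _ _ h => by cases h

theorem both_path {w t : S} {δ : Bool} (h : ∀ ε, SP Q c₀ ε w)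
    (hp : Path (LRule Q.toPTS c₀) w t δ) (ε : Bool) : SP Q c₀ ε t := by
  have h1 := (h (xor ε δ)).path hp
  cases ε <;> cases δ <;> exact h1

end Extract

open Extract in
theorem impred_of (hW : WN Q) (hfin : FinRules Q.rule) (h : ¬ HypII Q c₀) :
    Impred Q.toPTS c₀ := by
  have hwf := (hfin.mono (E' := LRule Q.toPTS c₀) fun _ _ _ h => h.1).wf
  have hne : {d | (∀ ε, SP Q c₀ ε d) ∧
      ∃ W, Normal W ∧ Ty Q [] W (srt d) ∧ ¬ AccK Q c₀ W}.Nonempty := by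
    simp only [HypII, not_forall] at h
    obtain ⟨W, h1, h2, h3⟩ := h
    obtain ⟨hN, w₁, h4, h5⟩ := sgn_sort hW h1
    obtain ⟨-, w₂, h6, h7⟩ := sgn_sort hW h2
    obtain ⟨d, δ, -, -, -, -, W₂, p1, p2, -, -, -, -, -, h8, h9, h10⟩ :=
      descent_closed hW hN h4 h6 h3
    refine ⟨d, fun ε => ?_, W₂, h8, h9, h10⟩
    have k1 := h5.path p1
    have k2 := h7.path p2
    cases ε <;> cases δ <;> assumption
  obtain ⟨d₀, ⟨hs, W₀, hN, hT, hA⟩, hmin⟩ := hwf.has_min _ hne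
  have back : ∀ {t : S} {δ : Bool} {W : Tm S}, Path (LRule Q.toPTS c₀) d₀ t δ → Normal W →
      Ty Q [] W (srt t) → ¬ AccK Q c₀ W → Reach (LRule Q.toPTS c₀) t d₀ := by
    intro t δ W hp h1 h2 h3
    by_contra hne
    exact hmin t ⟨both_path hs hp, W, h1, h2, h3⟩ ⟨⟨_, hp⟩, hne⟩
  obtain ⟨d, e₃, dh, k, b, c, W₂, p3, -, h1, h2, h3, h4, ⟨ε₂, h5⟩, h6, h7, h8⟩ :=
    descent_closed hW hN hT hT hA
  obtain ⟨e₁, p1⟩ := back p3 h6 h7 h8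
  obtain ⟨ε₁, h9⟩ := Reach.trans ⟨_, p1⟩ h4
  obtain ⟨D, hD, hD'⟩ := exists_succ hA
  obtain ⟨h10, a, h11, pa⟩ := succ_sort hW hT hD
  obtain ⟨e₂, p2⟩ := back pa h10 h11 hD'
  obtain ⟨q, hq, hq'⟩ := both_path hs p3 true
  have fin : ∀ d', Path (LRule Q.toPTS c₀) d d' true → Path (LRule Q.toPTS c₀) d' d true →
      Impred Q.toPTS c₀ := by
    intro d' k1 k2
    obtain ⟨q', k3, k4⟩ := both_path (both_path hs p3) k1 true
    exact ⟨d, d', dh, k, b, c, q, q', ε₁, ε₂, h1, h2, h3, h9, h5, k1, k2, hq, hq', k3, k4⟩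
  have c1 := p1.trans p3
  have c2 := p1.trans (pa.trans (p2.trans p3))
  have c3 := p1.trans pa
  have c4 := p2.trans p3
  cases e₁ <;> cases e₂ <;> cases e₃
  · exact fin d c2 c2
  · exact fin d c1 c1
  · exact fin a c3 c4
  · exact fin d c1 c1
  · exact fin d c1 c1
  · exact fin d c2 c2
  · exact fin d c1 c1
  · exact fin d₀ p1 p3

end Tm

end Vale.Agent.P340
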