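import Vale.Agent.P340.Typ

/-! The graph of a specification: a rule `(a, b, c)` gives a domain edge `c → a` and a
codomain edge `c → b`. -/

namespace Vale.Agent.P340

universe u

variable {S : Type u}

/-- Sorts that are inhabited. -/
inductive Gen (Q : PTS S) : S → Prop
  | src {s t : S} : Q.ax s t → Gen Q s
  | tgt {s t : S} : Q.ax s t → Gen Q t
  | rule {a b c : S} : Q.rule a b c → Gen Q a → Gen Q b → Gen Q c

def Usable (Q : PTS S) : Prop := ∀ a b c, Q.rule a b c → Gen Q a ∧ Gen Q b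

def Full (Q : Sig S) : Prop := ∀ n A, Q.cn n A

def FinRules (E : S → S → S → Prop) : Prop := {x : S × S × S | E x.1 x.2.1 x.2.2}.Finite

/-- Paths with the parity of the number of domain edges (`true` = odd). -/
inductive Path (E : S → S → S → Prop) : S → S → Bool → Prop
  | refl (s : S) : Path E s s false
  | cod {a b c t : S} {ε : Bool} : E a b c → Path E b t ε → Path E c t ε
  | dom {a b c t : S} {ε : Bool} : E a b c → Path E a t ε → Path E c t (!ε)

theorem Path.trans {E : S → S → S → Prop} {s t r : S} {ε δ : Bool} (h : Path E s t ε)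
    (h' : Path E t r δ) : Path E s r (xor ε δ) := by
  induction h with
  | refl s => simpa using h'
  | cod he _ ih => exact .cod he (ih h')
  | dom he _ ih => simpa using Path.dom he (ih h')

theorem Path.snoc_cod {E : S → S → S → Prop} {s a b c : S} {ε : Bool} (h : Path E s c ε)
    (he : E a b c) : Path E s b ε := by
  simpa using h.trans (.cod he (.refl b))

theorem Path.snoc_dom {E : S → S → S → Prop} {s a b c : S} {ε : Bool} (h : Path E s c ε)
    (he : E a b c) : Path E s a (!ε) := by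
  simpa using h.trans (.dom he (.refl a))

def Reach (E : S → S → S → Prop) (s t : S) : Prop := ∃ ε, Path E s t ε

theorem Reach.refl {E : S → S → S → Prop} (s : S) : Reach E s s := ⟨_, .refl s⟩

theorem Reach.trans {E : S → S → S → Prop} {s t r : S} (h : Reach E s t) (h' : Reach E t r) :
    Reach E s r := by
  obtain ⟨_, h⟩ := h
  obtain ⟨_, h'⟩ := h'
  exact ⟨_, h.trans h'⟩

theorem Reach.cod {E : S → S → S → Prop} {a b c : S} (h : E a b c) : Reach E c b :=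
  ⟨_, .cod h (.refl b)⟩

theorem Reach.dom {E : S → S → S → Prop} {a b c : S} (h : E a b c) : Reach E c a :=
  ⟨_, .dom h (.refl a)⟩

/-- Paths of codomain edges. -/
inductive Cod (E : S → S → S → Prop) : S → S → Prop
  | refl (s : S) : Cod E s s
  | step {a b c t : S} : E a b c → Cod E b t → Cod E c t

theorem Cod.snoc {E : S → S → S → Prop} {s a b c : S} (h : Cod E s c) (he : E a b c) :
    Cod E s b := by
  induction h with
  | refl => exact .step he (.refl _)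
  | step h _ ih => exact .step h (ih he)

theorem FinRules.mono {E E' : S → S → S → Prop} (h : FinRules E)
    (hE : ∀ a b c, E' a b c → E a b c) : FinRules E' :=
  Set.Finite.subset h fun _ hx => hE _ _ _ hx

theorem FinRules.reach_finite {E : S → S → S → Prop} (h : FinRules E) (s : S) :
    {t | Reach E s t}.Finite := by
  refine Set.Finite.subset (((h.image fun x => x.1).union (h.image fun x => x.2.1)).insert s) ?_
  rintro t ⟨ε, ht⟩
  induction ht with
  | refl => exact .inl rfl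
  | @cod a b c t ε he _ ih =>
    rcases ih with rfl | ih
    · exact .inr (.inr ⟨(a, t, c), he, rfl⟩)
    · exact .inr ih
  | @dom a b c t ε he _ ih =>
    rcases ih with rfl | ih
    · exact .inr (.inl ⟨(t, b, c), he, rfl⟩)
    · exact .inr ih

theorem FinRules.wf {E : S → S → S → Prop} (h : FinRules E) :
    WellFounded fun s t => Reach E t s ∧ ¬ Reach E s t := by
  refine Subrelation.wf (r := InvImage (· < ·) fun s => {t | Reach E s t}.ncard) ?_
    (InvImage.wf _ wellFounded_lt)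
  rintro s t ⟨h1, h2⟩
  refine Set.ncard_lt_ncard ⟨fun x hx => h1.trans hx, fun hx => h2 (hx (Reach.refl t))⟩
    (h.reach_finite t)

/-- The strongly connected component of `c₀`. -/
def InC (Q : PTS S) (c₀ s : S) : Prop := Reach Q.rule c₀ s ∧ Reach Q.rule s c₀

theorem InC.refl (Q : PTS S) (c₀ : S) : InC Q c₀ c₀ := ⟨.refl _, .refl _⟩

/-- Sorts of kinds that end in a sort of the component. -/
def L1 (Q : PTS S) (c₀ b : S) : Prop := ∃ s t, InC Q c₀ s ∧ Q.ax s t ∧ Cod Q.rule b t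

def LRule (Q : PTS S) (c₀ a b c : S) : Prop := Q.rule a b c ∧ L1 Q c₀ b

/-- Sorts over whose members types of the component quantify. -/
def Quantif (Q : PTS S) (c₀ q : S) : Prop := ∃ b c, InC Q c₀ b ∧ InC Q c₀ c ∧ Q.rule q b c

/-- No rule lies inside the component. -/
def Unary (Q : PTS S) (c₀ : S) : Prop :=
  ∀ a b c, Q.rule a b c → InC Q c₀ a → InC Q c₀ b → InC Q c₀ c → False

/-- A colouring flipped by domain edges and kept by codomain edges inside the component. -/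
def Colouring (Q : PTS S) (c₀ : S) (col : S → Bool) : Prop :=
  ∀ a b c, Q.rule a b c → InC Q c₀ c →
    (InC Q c₀ a → col a = !col c) ∧ (InC Q c₀ b → col b = col c)

/-- The component carries classical logic. -/
structure Classic (Q : PTS S) (c₀ : S) : Prop where
  par : ∀ s t, InC Q c₀ s → InC Q c₀ t → ∀ ε, Path Q.rule s t ε
  bin : ∃ a b c, InC Q c₀ a ∧ InC Q c₀ b ∧ InC Q c₀ c ∧ Q.rule a b c

theorem classical_of {Q : PTS S} {c₀ : S} (h1 : ¬ Unary Q c₀) (h2 : ¬ ∃ col, Colouring Q c₀ col) :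
    Classic Q c₀ := by
  classical
  refine ⟨fun s t hs ht ε => ?_, ?_⟩
  · by_contra hne
    have huniq : ∀ r, InC Q c₀ r → ¬ (Path Q.rule s r true ∧ Path Q.rule s r false) := by
      rintro r hr ⟨h3, h4⟩
      obtain ⟨δ, h5⟩ := hr.2.trans ht.1
      have h6 := h3.trans h5
      have h7 := h4.trans h5
      cases δ <;> cases ε <;> simp_all
    refine h2 ⟨fun r => decide (Path Q.rule s r true), fun a b c he hc => ⟨fun ha => ?_, fun hb => ?_⟩⟩
    · obtain ⟨δ, h5⟩ := hs.2.trans hc.1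
      have h6 := h5.snoc_dom he
      have h7 := huniq a ha
      have h8 := huniq c hc
      cases δ
      · simp_all
      · have : ¬ Path Q.rule s a true := fun h => h7 ⟨h, h6⟩
        simp_all
    · obtain ⟨δ, h5⟩ := hs.2.trans hc.1
      have h6 := h5.snoc_cod he
      have h7 := huniq b hb
      have h8 := huniq c hc
      cases δ
      · have h9 : ¬ Path Q.rule s b true := fun h => h7 ⟨h, h6⟩
        have h10 : ¬ Path Q.rule s c true := fun h => h8 ⟨h, h5⟩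
        simp [h9, h10]
      · simp [h5, h6]
  · by_contra hne
    exact h1 fun a b c he ha hb hc => hne ⟨a, b, c, ha, hb, hc, he⟩

/-- An impredicative cycle of kinds over the component. -/
def Impred (Q : PTS S) (c₀ : S) : Prop :=
  ∃ (d d' dh k b c q q' : S) (ε₁ ε₂ : Bool), Q.ax d dh ∧ Cod Q.rule k dh ∧ Q.rule k b c ∧
    Path (LRule Q c₀) d c ε₁ ∧ Path (LRule Q c₀) b d ε₂ ∧
    Path (LRule Q c₀) d d' true ∧ Path (LRule Q c₀) d' d true ∧
    Quantif Q c₀ q ∧ Path (LRule Q c₀) q d false ∧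
    Quantif Q c₀ q' ∧ Path (LRule Q c₀) q' d' false

namespace Tm

/-- A model of classical logic inside the specification: formulas are members of `c₀`. -/
structure Logic (Q : Sig S) (c₀ : S) where
  Cmd : List (Tm S) → Prop
  Tr : List (Tm S) → Tm S → Prop
  neg : Tm S → Tm S
  imp : Tm S → Tm S → Tm S
  all : S → Tm S → Tm S → Tm S
  top : Tm S
  cons : ¬ Cmd []
  cmd_sub : ∀ {Γ Δ σ}, Cmd Γ → Sub Q Δ σ Γ → Cmd Δ
  tr_sub : ∀ {Γ Δ σ φ}, Tr Γ φ → Sub Q Δ σ Γ → Tr Δ (subst σ φ)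
  tr_conv : ∀ {Γ φ ψ}, Ty Q Γ φ (srt c₀) → Ty Q Γ ψ (srt c₀) → Conv φ ψ → Tr Γ φ → Tr Γ ψ
  raa : ∀ {Γ φ}, Ty Q Γ φ (srt c₀) →
    (∀ Δ σ, Sub Q Δ σ Γ → Tr Δ (neg (subst σ φ)) → Cmd Δ) → Tr Γ φ
  neg_sub : ∀ σ φ, subst σ (neg φ) = neg (subst σ φ)
  neg_ty : ∀ {Γ φ}, Ty Q Γ φ (srt c₀) → Ty Q Γ (neg φ) (srt c₀)
  tr_neg : ∀ {Γ φ}, Ty Q Γ φ (srt c₀) →
    (Tr Γ (neg φ) ↔ ∀ Δ σ, Sub Q Δ σ Γ → Tr Δ (subst σ φ) → Cmd Δ)
  imp_sub : ∀ σ φ ψ, subst σ (imp φ ψ) = imp (subst σ φ) (subst σ ψ)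
  imp_ty : ∀ {Γ φ ψ}, Ty Q Γ φ (srt c₀) → Ty Q Γ ψ (srt c₀) → Ty Q Γ (imp φ ψ) (srt c₀)
  tr_imp : ∀ {Γ φ ψ}, Ty Q Γ φ (srt c₀) → Ty Q Γ ψ (srt c₀) →
    (Tr Γ (imp φ ψ) ↔ ∀ Δ σ, Sub Q Δ σ Γ → Tr Δ (subst σ φ) → Tr Δ (subst σ ψ))
  all_sub : ∀ q σ κ φ, subst σ (all q κ φ) = all q (subst σ κ) (subst (up σ) φ)
  all_ty : ∀ {q Γ κ φ}, Quantif Q.toPTS c₀ q → Ty Q Γ κ (srt q) → Ty Q (κ :: Γ) φ (srt c₀) →
    Ty Q Γ (all q κ φ) (srt c₀)
  tr_all : ∀ {q Γ κ φ}, Quantif Q.toPTS c₀ q → Ty Q Γ κ (srt q) → Ty Q (κ :: Γ) φ (srt c₀) →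
    (Tr Γ (all q κ φ) ↔
      ∀ Δ σ t, Sub Q Δ σ Γ → Ty Q Δ t (subst σ κ) → Tr Δ (subst (scons t σ) φ))
  top_ty : Ty Q [] top (srt c₀)
  tr_top : ∀ {Γ}, Wf Q Γ → Tr Γ top
  inh : ∀ s, Gen Q.toPTS s → ∃ O o, Ty Q [] O (srt s) ∧ Ty Q [] o O
  move : ∀ s, InC Q.toPTS c₀ s → ∃ T T' : Tm S → Tm S,
    (∀ σ φ, subst σ (T φ) = T (subst σ φ)) ∧ (∀ σ φ, subst σ (T' φ) = T' (subst σ φ)) ∧
    (∀ Γ φ, Ty Q Γ φ (srt c₀) → Ty Q Γ (T φ) (srt s)) ∧
    (∀ Γ φ, Ty Q Γ φ (srt s) → Ty Q Γ (T' φ) (srt c₀)) ∧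
    ∀ Γ φ, Ty Q Γ φ (srt c₀) → (Tr Γ (T' (T φ)) ↔ Tr Γ φ)

end Tm

end Vale.Agent.P340
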