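import Vale.Agent.P340.Pairs

/-! Hurkens' paradox along an impredicative cycle of kinds. -/

namespace Vale.Agent.P340

universe u

namespace Tm

variable {S : Type u} {Q : Sig S} {c₀ : S}

theorem hurkens_abs (L : Logic Q c₀) {Sf mem : Tm S → Tm S → Tm S} {f star : Tm S → Tm S}
    {Ω D : Tm S} {PtN PrN : List (Tm S) → Tm S → Prop}
    (S_sub : ∀ σ x p, subst σ (Sf x p) = Sf (subst σ x) (subst σ p))
    (Ω_sub : ∀ σ, subst σ Ω = Ω) (D_sub : ∀ σ, subst σ D = D)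
    (pt_sub : ∀ {Γ Δ σ x}, PtN Γ x → Sub Q Δ σ Γ → PtN Δ (subst σ x))
    (pr_sub : ∀ {Γ Δ σ x}, PrN Γ x → Sub Q Δ σ Γ → PrN Δ (subst σ x))
    (pt_f : ∀ {Γ x}, PtN Γ x → PtN Γ (f x)) (pr_star : ∀ {Γ p}, PrN Γ p → PrN Γ (star p))
    (star_sub : ∀ σ p, subst σ (star p) = star (subst σ p))
    (f_sub : ∀ σ p, subst σ (f p) = f (subst σ p))
    (pt_Ω : PtN [] Ω) (pr_D : PrN [] D)
    (h1 : ∀ {Γ x p}, PtN Γ x → PrN Γ p → (L.Tr Γ (Sf (f x) p) ↔ L.Tr Γ (Sf x (star p))))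
    (h2 : ∀ {Γ x p}, PtN Γ x → PrN Γ p → (L.Tr Γ (mem x (star p)) ↔ L.Tr Γ (mem (f x) p)))
    (h3 : ∀ {Γ p}, PrN Γ p → (L.Tr Γ (Sf Ω p) ↔ ∀ Δ σ x, Sub Q Δ σ Γ → PtN Δ x →
      L.Tr Δ (Sf x (star (subst σ p))) → L.Tr Δ (mem x (star (subst σ p)))))
    (h4 : ∀ {Γ y}, PtN Γ y → (L.Tr Γ (mem y D) ↔ ∀ Δ σ, Sub Q Δ σ Γ →
      (∀ Δ' σ' p, Sub Q Δ' σ' Δ → PrN Δ' p → L.Tr Δ' (Sf (subst (comp σ σ') y) p) →
        L.Tr Δ' (mem (f (subst (comp σ σ') y)) p)) → L.Cmd Δ)) : False := by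
  have hΩ : ∀ {Γ}, Wf Q Γ → PtN Γ Ω := fun h => Ω_sub var ▸ pt_sub pt_Ω (Sub.nil h)
  have hD : ∀ {Γ}, Wf Q Γ → PrN Γ D := fun h => D_sub var ▸ pr_sub pr_D (Sub.nil h)
  have A : ∀ {Γ p}, Wf Q Γ → PrN Γ p → (∀ Δ σ x, Sub Q Δ σ Γ → PtN Δ x →
      L.Tr Δ (Sf x (subst σ p)) → L.Tr Δ (mem x (subst σ p))) → L.Tr Γ (mem Ω p) := by
    intro Γ p hw hp h
    have := h Γ var Ω hw.sub_id (hΩ hw) (by
      rw [subst_id, h3 hp]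
      intro Δ σ x hs hx h5
      rw [h2 hx (pr_sub hp hs)]
      exact h Δ σ _ hs (pt_f hx) ((h1 hx (pr_sub hp hs)).2 h5))
    rwa [subst_id] at this
  have B : L.Tr [] (mem Ω D) := by
    refine A .nil pr_D fun Δ σ x hs hx h5 => ?_
    rw [D_sub] at h5 ⊢
    rw [h4 hx]
    intro Δ' σ' hs' h
    have hx' := pt_sub hx hs'
    have h6 := h Δ' var D hs'.wf.sub_id (hD hs'.wf) (by
      simpa [S_sub, D_sub] using L.tr_sub h5 hs')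
    rw [comp_var, h4 (pt_f hx')] at h6
    refine h6 Δ' var hs'.wf.sub_id fun Δ'' σ'' p hs'' hp h7 => ?_
    have hx'' := pt_sub hx (hs'.comp hs'')
    simp only [var_comp, f_sub, subst_subst] at h7 ⊢
    rw [← h2 (pt_f hx'') hp]
    exact h Δ'' σ'' _ hs'' (pr_star hp) ((h1 hx'' hp).1 h7)
  refine L.cons ((h4 pt_Ω).1 B [] var Wf.nil fun Δ σ p hs hp h5 => ?_)
  rw [Ω_sub] at h5 ⊢
  rw [← h2 (hΩ hs.wf) hp]
  refine A hs.wf (pr_star hp) ?_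
  simpa only [star_sub] using (h3 hp).1 h5

theorem hurkens_core (L : Logic Q c₀) {d d' k b c : S} (C : Chain Q k d) (hr : Q.rule k b c)
    {P₀ P₁ Rel Str Zop : Tm S → Tm S} (h₀ : Op Q d d' P₀) (h₁ : Op Q d' d P₁)
    (R₀ : PF L d P₀) (R₁ : PF L d' P₁) (Q₀ : Qt R₀) (Q₁ : Qt R₁) (hRel : Op Q d d' Rel)
    (Rl : Rep L d (Bd2 Q c₀ P₀ _ h₀.sub (h₁.comp h₀).sub) (Pt2 Q P₀ _ h₀.sub (h₁.comp h₀).sub)
      (fun φ p => subst (scons p.2 (scons p.1 var)) φ) Rel)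
    (hStr : Op Q d b Str)
    (St : Rep L d (Bd2 Q c₀ Rel P₀ hRel.sub h₀.sub) (Pt2 Q Rel P₀ hRel.sub h₀.sub)
      (fun φ p => subst (scons p.2 (scons p.1 var)) φ) Str)
    (hZ : Op Q c d' Zop) (Zr : PF L c Zop) : False := by
  have s₀ := h₀.sub
  have s₁ := h₁.sub
  have sR := hRel.sub
  have sS := hStr.sub
  have sZ := hZ.sub
  have sel := C.el_sub
  have scd := C.cd_sub
  unfold OpS at s₀ s₁ sR sS sZ sel scd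
  have κ_sub : ∀ σ, subst σ C.κ = C.κ := C.ty.closed
  -- the universe
  obtain ⟨W, hW⟩ : ∃ W, W = pi C.κ (Str (C.el (var 0))) := ⟨_, rfl⟩
  have v0 : ∀ {Γ}, Wf Q Γ → Ty Q (C.κ :: Γ) (C.el (var 0)) (srt d) := fun h =>
    C.el_ty (by simpa [κ_sub] using (C.ty.of_closed h).wf_cons.var0)
  have W_ty : Ty Q [] W (srt c) := hW ▸ .pi C.ty (hStr.ty (v0 .nil)) hr
  have W_sub : ∀ σ, subst σ W = W := W_ty.closed
  obtain ⟨Z, hZe⟩ : ∃ Z, Z = Zop W := ⟨_, rfl⟩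
  have Z_ty : Ty Q [] Z (srt d') := hZe ▸ hZ.ty W_ty
  have Z_sub : ∀ σ, subst σ Z = Z := Z_ty.closed
  obtain ⟨U, hU⟩ : ∃ U, U = P₁ Z := ⟨_, rfl⟩
  have U_ty : Ty Q [] U (srt d) := hU ▸ h₁.ty Z_ty
  have U_sub : ∀ σ, subst σ U = U := U_ty.closed
  have cW : ∀ {Γ}, Wf Q Γ → Ty Q Γ W (srt c) := W_ty.of_closed
  have cZ : ∀ {Γ}, Wf Q Γ → Ty Q Γ Z (srt d') := Z_ty.of_closed
  have cU : ∀ {Γ}, Wf Q Γ → Ty Q Γ U (srt d) := U_ty.of_closed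
  have wkU : ∀ {Γ A x}, Ty Q Γ x U → Wf Q (A :: Γ) → Ty Q (A :: Γ) (lift x) U :=
    fun h hw => by simpa [U_sub] using h.wk hw
  have varU : ∀ {Γ}, Wf Q Γ → Ty Q (U :: Γ) (var 0) U :=
    fun h => by simpa [U_sub] using (cU h).wf_cons.var0
  have wkP : ∀ {Γ A x}, Ty Q Γ x (P₀ U) → Wf Q (A :: Γ) → Ty Q (A :: Γ) (lift x) (P₀ U) :=
    fun h hw => by simpa [U_sub, s₀] using h.wk hw
  have varP : ∀ {Γ}, Wf Q Γ → Ty Q (P₀ U :: Γ) (var 0) (P₀ U) :=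
    fun h => by simpa [U_sub, s₀] using (h₀.ty (cU h)).wf_cons.var0
  have app_ty : ∀ {Γ u X}, Ty Q Γ u W → Ty Q Γ X (srt d) → Ty Q Γ (app u (C.cd X)) (Str X) := by
    intro Γ u X hu hX
    have := (hW ▸ hu).app (C.cd_ty hX)
    refine .conv this (hStr.ty hX) ?_
    simpa [sS, sel] using hStr.sub.conv (C.el_cd X)
  -- reading a point of the universe at a structure
  obtain ⟨Sx, hSx⟩ : ∃ Sx : Tm S → Tm S → Tm S → Tm S → Tm S, Sx = fun X x R q =>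
    R₁.out Z (Zr.inn W (St.out (lift X) (lift R, lift q) (app (var 0) (C.cd (lift X))))) x :=
    ⟨_, rfl⟩
  have Sx_sub : ∀ σ X x R q, subst σ (Sx X x R q) =
      Sx (subst σ X) (subst σ x) (subst σ R) (subst σ q) := by
    intro σ X x R q
    simp [hSx, R₁.out_sub, Zr.inn_sub, St.out_sub, scd, Z_sub, W_sub]
  have Sb_ty : ∀ {Γ X R q}, Ty Q Γ X (srt d) → Ty Q Γ R (Rel X) → Ty Q Γ q (P₀ X) →
      Ty Q (W :: Γ) (St.out (lift X) (lift R, lift q) (app (var 0) (C.cd (lift X)))) (srt c₀) := by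
    intro Γ X R q hX hR hq
    have hw := (cW hX.wf).wf_cons
    exact St.out_ty (j := (lift R, lift q)) (hX.wk_srt hw)
      ⟨by simpa [sR] using hR.wk hw, by simpa [s₀] using hq.wk hw⟩
      (app_ty (by simpa [W_sub] using hw.var0) (hX.wk_srt hw))
  have Sx_ty : ∀ {Γ X x R q}, Ty Q Γ X (srt d) → Ty Q Γ x U → Ty Q Γ R (Rel X) →
      Ty Q Γ q (P₀ X) → Ty Q Γ (Sx X x R q) (srt c₀) := by
    intro Γ X x R q hX hx hR hq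
    rw [hSx]
    exact R₁.out_ty (cZ hX.wf) (hZe ▸ Zr.inn_ty (cW hX.wf) (Sb_ty hX hR hq)) (hU ▸ hx)
  obtain ⟨sg, hsg⟩ : ∃ sg : Tm S → Tm S → Tm S → Tm S, sg = fun X R x =>
    R₁.inn (P₀ X) (Sx (lift X) (lift x) (lift R) (var 0)) := ⟨_, rfl⟩
  have sg_sub : ∀ σ X R x, subst σ (sg X R x) = sg (subst σ X) (subst σ R) (subst σ x) := by
    intro σ X R x
    simp [hsg, R₁.inn_sub, Sx_sub, s₀]
  have sgb_ty : ∀ {Γ X R x}, Ty Q Γ X (srt d) → Ty Q Γ R (Rel X) → Ty Q Γ x U →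
      Ty Q (P₀ X :: Γ) (Sx (lift X) (lift x) (lift R) (var 0)) (srt c₀) := by
    intro Γ X R x hX hR hx
    have hw := (h₀.ty hX).wf_cons
    exact Sx_ty (hX.wk_srt hw) (wkU hx hw) (by simpa [sR] using hR.wk hw)
      (by simpa [s₀] using hw.var0)
  have sg_ty : ∀ {Γ X R x}, Ty Q Γ X (srt d) → Ty Q Γ R (Rel X) → Ty Q Γ x U →
      Ty Q Γ (sg X R x) (P₁ (P₀ X)) := by
    intro Γ X R x hX hR hx
    rw [hsg]
    exact R₁.inn_ty (h₀.ty hX) (sgb_ty hX hR hx)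
  have sg_law : ∀ {Γ X R x q}, Ty Q Γ X (srt d) → Ty Q Γ R (Rel X) → Ty Q Γ x U →
      Ty Q Γ q (P₀ X) → (L.Tr Γ (R₁.out (P₀ X) q (sg X R x)) ↔ L.Tr Γ (Sx X x R q)) := by
    intro Γ X R x q hX hR hx hq
    rw [hsg, R₁.law (h₀.ty hX) (sgb_ty hX hR hx) hq]
    simp [Sx_sub]
  obtain ⟨circ, hcirc⟩ : ∃ circ : Tm S → Tm S → Tm S → Tm S, circ = fun X R p =>
    R₀.inn U (Rl.out (lift X) (lift p, sg (lift X) (lift R) (var 0)) (lift R)) := ⟨_, rfl⟩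
  have circ_sub : ∀ σ X R x, subst σ (circ X R x) =
      circ (subst σ X) (subst σ R) (subst σ x) := by
    intro σ X R x
    simp [hcirc, R₀.inn_sub, Rl.out_sub, sg_sub, U_sub]
  have circb_ty : ∀ {Γ X R p}, Ty Q Γ X (srt d) → Ty Q Γ R (Rel X) → Ty Q Γ p (P₀ X) →
      Ty Q (U :: Γ) (Rl.out (lift X) (lift p, sg (lift X) (lift R) (var 0)) (lift R))
        (srt c₀) := by
    intro Γ X R p hX hR hp
    have hw := (cU hX.wf).wf_cons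
    have hR' : Ty Q (U :: Γ) (lift R) (Rel (lift X)) := by simpa [sR] using hR.wk hw
    exact Rl.out_ty (j := (lift p, sg (lift X) (lift R) (var 0))) (hX.wk_srt hw)
      ⟨by simpa [s₀] using hp.wk hw, sg_ty (hX.wk_srt hw) hR' (varU hX.wf)⟩ hR'
  have circ_ty : ∀ {Γ X R p}, Ty Q Γ X (srt d) → Ty Q Γ R (Rel X) → Ty Q Γ p (P₀ X) →
      Ty Q Γ (circ X R p) (P₀ U) := by
    intro Γ X R p hX hR hp
    rw [hcirc]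
    exact R₀.inn_ty (cU hX.wf) (circb_ty hX hR hp)
  have circ_law : ∀ {Γ X R p x}, Ty Q Γ X (srt d) → Ty Q Γ R (Rel X) → Ty Q Γ p (P₀ X) →
      Ty Q Γ x U → (L.Tr Γ (R₀.out U x (circ X R p)) ↔ L.Tr Γ (Rl.out X (p, sg X R x) R)) := by
    intro Γ X R p x hX hR hp hx
    rw [hcirc, R₀.law (cU hX.wf) (circb_ty hX hR hp) hx]
    simp [Rl.out_sub, sg_sub]
  -- building a point of the universe
  obtain ⟨bd, hbd⟩ : ∃ bd : Tm S → Tm S → Tm S, bd = fun X D =>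
    R₁.out (P₀ U) (Q₀.nm U (circ (lift (lift X)) (var 1) (var 0))) (lift (lift D)) := ⟨_, rfl⟩
  have bd_sub : ∀ σ X D, subst (up (up σ)) (bd X D) = bd (subst σ X) (subst σ D) := by
    intro σ X D
    simp [hbd, R₁.out_sub, Q₀.nm_sub, circ_sub, U_sub, s₀, up_eq]
  have bd_ty : ∀ {Γ X D}, Ty Q Γ X (srt d) → Ty Q Γ D (P₁ (P₀ U)) →
      Ty Q (P₀ (lift X) :: Rel X :: Γ) (bd X D) (srt c₀) := by
    intro Γ X D hX hD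
    have w1 := (hRel.ty hX).wf_cons
    have w2 := (h₀.ty (hX.wk_srt w1)).wf_cons
    rw [hbd]
    refine R₁.out_ty (h₀.ty (cU w2)) (Q₀.np_ty (cU w2) (Q₀.np_nm (cU w2)
      (circ_ty ((hX.wk_srt w1).wk_srt w2) ?_ ?_))) ?_
    · simpa [sR] using w1.var0.wk w2
    · simpa [s₀] using w2.var0
    · simpa [s₀, s₁, U_sub] using (hD.wk w1).wk w2
  obtain ⟨pol, hpol⟩ : ∃ pol : Tm S → Tm S, pol = fun D =>
    lam C.κ (St.inn (C.el (var 0)) (bd (C.el (var 0)) (lift D))) := ⟨_, rfl⟩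
  have pol_sub : ∀ σ D, subst σ (pol D) = pol (subst σ D) := by
    intro σ D
    simp [hpol, St.inn_sub, bd_sub, sel, κ_sub]
  have pol_ty : ∀ {Γ D}, Ty Q Γ D (P₁ (P₀ U)) → Ty Q Γ (pol D) W := by
    intro Γ D hD
    have hw := (C.ty.of_closed hD.wf).wf_cons
    rw [hpol, hW]
    exact .lam (St.inn_ty (v0 hD.wf) (bd_ty (v0 hD.wf) (by simpa [s₀, s₁, U_sub] using hD.wk hw)))
      (hW ▸ cW hD.wf)
  have pol_conv : ∀ D X, Conv (app (pol D) (C.cd X)) (St.inn X (bd X D)) := by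
    intro D X
    rw [hpol]
    refine (Conv.beta _ _ _).trans ?_
    have e : ∀ Y, inst (St.inn (var 0) (bd (var 0) (lift D))) Y = St.inn Y (bd Y D) := by
      intro Y; simp [St.inn_sub, bd_sub]
    have e' : inst (St.inn (C.el (var 0)) (bd (C.el (var 0)) (lift D))) (C.cd X) =
        St.inn (C.el (C.cd X)) (bd (C.el (C.cd X)) D) := by
      simp [St.inn_sub, bd_sub, sel]
    rw [e', ← e, ← e]
    exact Conv.inst (.refl _) (C.el_cd X)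
  obtain ⟨τ, hτ⟩ : ∃ τ : Tm S → Tm S, τ = fun D => Q₁.nm Z (R₁.inn Z (Zr.body W (pol D))) :=
    ⟨_, rfl⟩
  have τ_sub : ∀ σ D, subst σ (τ D) = τ (subst σ D) := by
    intro σ D
    simp [hτ, Q₁.nm_sub, R₁.inn_sub, Zr.body_sub, pol_sub, Z_sub, W_sub]
  have τb_ty : ∀ {Γ D}, Ty Q Γ D (P₁ (P₀ U)) → Ty Q (Z :: Γ) (Zr.body W (pol D)) (srt c₀) :=
    fun hD => hZe ▸ Zr.body_ty hZ (cW hD.wf) (pol_ty hD)
  have τ_np : ∀ {Γ D}, Ty Q Γ D (P₁ (P₀ U)) → Q₁.NP Γ Z (τ D) := by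
    intro Γ D hD
    rw [hτ]
    exact Q₁.np_nm (cZ hD.wf) (R₁.inn_ty (cZ hD.wf) (τb_ty hD))
  have τ_ty : ∀ {Γ D}, Ty Q Γ D (P₁ (P₀ U)) → Ty Q Γ (τ D) U :=
    fun hD => hU ▸ Q₁.np_ty (cZ hD.wf) (τ_np hD)
  have τ_law : ∀ {Γ D X R q}, Ty Q Γ D (P₁ (P₀ U)) → Ty Q Γ X (srt d) → Ty Q Γ R (Rel X) →
      Ty Q Γ q (P₀ X) →
      (L.Tr Γ (Sx X (τ D) R q) ↔ L.Tr Γ (R₁.out (P₀ U) (Q₀.nm U (circ X R q)) D)) := by
    intro Γ D X R q hD hX hR hq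
    have hw := hD.wf
    have a1 : Ty Q Γ (Zr.inn W (St.out (lift X) (lift R, lift q) (app (var 0) (C.cd (lift X)))))
        Z := hZe ▸ Zr.inn_ty (cW hw) (Sb_ty hX hR hq)
    rw [hSx, hτ]
    simp only
    rw [Q₁.law (cZ hw) (R₁.inn_ty (cZ hw) (τb_ty hD)) a1, R₁.law (cZ hw) (τb_ty hD) a1,
      Zr.body_inst, Zr.law (cW hw) (Sb_ty hX hR hq) (pol_ty hD)]
    have e : inst (St.out (lift X) (lift R, lift q) (app (var 0) (C.cd (lift X)))) (pol D) =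
        St.out X (R, q) (app (pol D) (C.cd X)) := by simp [St.out_sub, scd]
    rw [e, St.law' (j := (R, q)) hX (bd_ty hX hD) ⟨hR, hq⟩ (app_ty (pol_ty hD) hX) (pol_conv D X)]
    simp [hbd, R₁.out_sub, Q₀.nm_sub, circ_sub, U_sub, s₀]
  -- the structure on the universe
  obtain ⟨Rr, hRr⟩ : ∃ Rr, Rr = Rl.inn U (R₀.out U (τ (var 0)) (var 1)) := ⟨_, rfl⟩
  have Rb_ty : ∀ {Γ}, Wf Q Γ →
      Ty Q (P₁ (P₀ (lift U)) :: P₀ U :: Γ) (R₀.out U (τ (var 0)) (var 1)) (srt c₀) := by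
    intro Γ hw
    have w1 := (h₀.ty (cU hw)).wf_cons
    have w2 := (h₁.ty (h₀.ty ((cU hw).wk_srt w1))).wf_cons
    exact R₀.out_ty (cU w2) (τ_ty (by simpa [s₀, s₁, U_sub] using w2.var0)) (wkP (varP hw) w2)
  have Rr_ty : ∀ {Γ}, Wf Q Γ → Ty Q Γ Rr (Rel U) := fun hw => hRr ▸ Rl.inn_ty (cU hw) (Rb_ty hw)
  have Rr_sub : ∀ σ, subst σ Rr = Rr := (Rr_ty .nil).closed
  have Rr_law : ∀ {Γ p D}, Ty Q Γ p (P₀ U) → Ty Q Γ D (P₁ (P₀ U)) →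
      (L.Tr Γ (Rl.out U (p, D) Rr) ↔ L.Tr Γ (R₀.out U (τ D) p)) := by
    intro Γ p D hp hD
    rw [hRr, Rl.law (j := (p, D)) (cU hp.wf) (Rb_ty hp.wf) ⟨hp, hD⟩]
    simp [R₀.out_sub, τ_sub, U_sub]
  -- the paradox
  have I1 : ∀ {Γ}, Wf Q Γ → Ty Q (P₁ Z :: P₀ U :: Γ) (Sx U (var 0) Rr (var 1)) (srt c₀) ∧
      Ty Q (P₁ Z :: P₀ U :: Γ) (R₀.out U (var 0) (var 1)) (srt c₀) := by
    intro Γ hw
    have w1 := (h₀.ty (cU hw)).wf_cons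
    have w2 := (cU w1).wf_cons
    rw [← hU]
    exact ⟨Sx_ty (cU w2) (varU w1) (Rr_ty w2) (wkP (varP hw) w2),
      R₀.out_ty (cU w2) (varU w1) (wkP (varP hw) w2)⟩
  have Ib : ∀ {Γ}, Wf Q Γ → Ty Q (P₀ U :: Γ)
      (Q₁.all Z (L.imp (Sx U (var 0) Rr (var 1)) (R₀.out U (var 0) (var 1)))) (srt c₀) :=
    fun hw => Q₁.all_ty (cZ (h₀.ty (cU hw)).wf_cons) (L.imp_ty (I1 hw).1 (I1 hw).2)
  have I_ty : ∀ {Γ}, Wf Q Γ → Ty Q Γ (R₁.inn (P₀ U)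
      (Q₁.all Z (L.imp (Sx U (var 0) Rr (var 1)) (R₀.out U (var 0) (var 1))))) (P₁ (P₀ U)) :=
    fun hw => R₁.inn_ty (h₀.ty (cU hw)) (Ib hw)
  have D1 : ∀ {Γ}, Wf Q Γ → Ty Q (P₀ U :: U :: Γ) (Sx U (var 1) Rr (var 0)) (srt c₀) ∧
      Ty Q (P₀ U :: U :: Γ) (R₀.out U (τ (sg U Rr (var 1))) (var 0)) (srt c₀) := by
    intro Γ hw
    have w1 := (cU hw).wf_cons
    have w2 := (h₀.ty (cU w1)).wf_cons
    exact ⟨Sx_ty (cU w2) (wkU (varU hw) w2) (Rr_ty w2) (varP w1),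
      R₀.out_ty (cU w2) (τ_ty (sg_ty (cU w2) (Rr_ty w2) (wkU (varU hw) w2))) (varP w1)⟩
  have Db : ∀ {Γ}, Wf Q Γ → Ty Q (U :: Γ) (Q₀.all U (L.imp (Sx U (var 1) Rr (var 0))
      (R₀.out U (τ (sg U Rr (var 1))) (var 0)))) (srt c₀) :=
    fun hw => Q₀.all_ty (cU (cU hw).wf_cons) (L.imp_ty (D1 hw).1 (D1 hw).2)
  have D_ty : ∀ {Γ}, Wf Q Γ → Ty Q Γ (R₀.inn U (L.neg (Q₀.all U (L.imp (Sx U (var 1) Rr (var 0))
      (R₀.out U (τ (sg U Rr (var 1))) (var 0)))))) (P₀ U) :=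
    fun hw => R₀.inn_ty (cU hw) (L.neg_ty (Db hw))
  have ptU : ∀ {Γ x}, Wf Q Γ ∧ Q₁.NP Γ Z x → Ty Q Γ x U := fun h => hU ▸ Q₁.np_ty (cZ h.1) h.2
  have prU : ∀ {Γ x}, Wf Q Γ ∧ Q₀.NP Γ U x → Ty Q Γ x (P₀ U) := fun h => Q₀.np_ty (cU h.1) h.2
  have st_np : ∀ {Γ p}, Ty Q Γ p (P₀ U) → Q₀.NP Γ U (Q₀.nm U (circ U Rr p)) :=
    fun hp => Q₀.np_nm (cU hp.wf) (circ_ty (cU hp.wf) (Rr_ty hp.wf) hp)
  refine hurkens_abs L (Sf := fun x p => Sx U x Rr p) (mem := fun x p => R₀.out U x p)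
    (f := fun x => τ (sg U Rr x)) (star := fun p => Q₀.nm U (circ U Rr p))
    (Ω := τ (R₁.inn (P₀ U)
      (Q₁.all Z (L.imp (Sx U (var 0) Rr (var 1)) (R₀.out U (var 0) (var 1))))))
    (D := Q₀.nm U (R₀.inn U (L.neg (Q₀.all U (L.imp (Sx U (var 1) Rr (var 0))
      (R₀.out U (τ (sg U Rr (var 1))) (var 0)))))))
    (PtN := fun Γ x => Wf Q Γ ∧ Q₁.NP Γ Z x) (PrN := fun Γ p => Wf Q Γ ∧ Q₀.NP Γ U p)
    (fun σ x p => by simp [Sx_sub, U_sub, Rr_sub]) (τ_ty (I_ty .nil)).closed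
    (Q₀.np_ty U_ty (Q₀.np_nm U_ty (D_ty .nil))).closed
    (fun h hs => ⟨hs.wf, Z_sub _ ▸ Q₁.np_sub h.2 hs⟩)
    (fun h hs => ⟨hs.wf, U_sub _ ▸ Q₀.np_sub h.2 hs⟩)
    (fun h => ⟨h.1, τ_np (sg_ty (cU h.1) (Rr_ty h.1) (ptU h))⟩) (fun h => ⟨h.1, st_np (prU h)⟩)
    (fun σ p => by simp [Q₀.nm_sub, circ_sub, U_sub, Rr_sub])
    (fun σ p => by simp [τ_sub, sg_sub, U_sub, Rr_sub])
    ⟨.nil, τ_np (I_ty .nil)⟩ ⟨.nil, Q₀.np_nm U_ty (D_ty .nil)⟩ ?_ ?_ ?_ ?_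
  · intro Γ x p hx hp
    rw [τ_law (sg_ty (cU hx.1) (Rr_ty hx.1) (ptU hx)) (cU hx.1) (Rr_ty hx.1) (prU hp),
      sg_law (cU hx.1) (Rr_ty hx.1) (ptU hx) (prU ⟨hx.1, st_np (prU hp)⟩)]
  · intro Γ x p hx hp
    rw [Q₀.law (cU hx.1) (circ_ty (cU hx.1) (Rr_ty hx.1) (prU hp)) (ptU hx),
      circ_law (cU hx.1) (Rr_ty hx.1) (prU hp) (ptU hx),
      Rr_law (prU hp) (sg_ty (cU hx.1) (Rr_ty hx.1) (ptU hx))]
  · intro Γ p hp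
    have hs := prU ⟨hp.1, st_np (prU hp)⟩
    have hs' := hs.sub_inst.upw (I1 hp.1).1.wf
    have a1 := (I1 hp.1).1.subst_srt hs'
    have a2 := (I1 hp.1).2.subst_srt hs'
    rw [s₁, Z_sub] at a1 a2
    rw [τ_law (I_ty hp.1) (cU hp.1) (Rr_ty hp.1) (prU hp), R₁.law (h₀.ty (cU hp.1)) (Ib hp.1) hs,
      inst, Q₁.all_sub, L.imp_sub, Z_sub, Q₁.tr_all_imp h₁.sub (cZ hp.1) a1 a2]
    simp only [Sx_sub, R₀.out_sub, U_sub, Rr_sub, Z_sub, subst_var, up_zero, up_succ,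
      scons_zero, subst_subst, shift_scons, Q₀.nm_sub, circ_sub]
    exact ⟨fun h Δ σ x hs hx => h Δ σ x hs hx.2, fun h Δ σ x hs hx => h Δ σ x hs ⟨hs.wf, hx⟩⟩
  · intro Γ y hy
    have hs := ptU hy
    rw [Q₀.law (cU hy.1) (D_ty hy.1) hs, R₀.law (cU hy.1) (L.neg_ty (Db hy.1)) hs, inst,
      L.neg_sub, L.tr_neg ((Db hy.1).subst_srt hs.sub_inst)]
    refine forall₃_congr fun Δ σ hσ => imp_congr_left ?_
    have hs' := (hs.sub_inst.comp hσ).upw (D1 hy.1).1.wf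
    have a1 := (D1 hy.1).1.subst_srt hs'
    have a2 := (D1 hy.1).2.subst_srt hs'
    rw [s₀, U_sub] at a1 a2
    rw [subst_subst, Q₀.all_sub, L.imp_sub, U_sub, Q₀.tr_all_imp h₀.sub (cU hσ.wf) a1 a2]
    simp only [Sx_sub, R₀.out_sub, U_sub, Rr_sub, subst_var, up_zero, up_succ,
      scons_zero, subst_subst, shift_scons, comp_scons, τ_sub, sg_sub, comp_assoc]
    exact ⟨fun h Δ σ x hs hx => h Δ σ x hs hx.2, fun h Δ σ x hs hx => h Δ σ x hs ⟨hs.wf, hx⟩⟩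

theorem no_impred (L : Logic Q c₀) (hU : Usable Q.toPTS) (h : Impred Q.toPTS c₀) : False := by
  obtain ⟨d, d', dh, k, b, c, q, q', ε₁, ε₂, ha, hk, hr, p1, p2, p3, p4, hq, p5, hq', p6⟩ := h
  obtain ⟨C⟩ := exists_chain L hU hk ha
  obtain ⟨P₀, h₀, R₀, -⟩ := exists_path L hU p4
  obtain ⟨R₀⟩ := R₀ rfl
  obtain ⟨P₁, h₁, R₁, -⟩ := exists_path L hU p3
  obtain ⟨R₁⟩ := R₁ rfl
  obtain ⟨T₀, t₀, -, C₀⟩ := exists_path L hU p5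
  obtain ⟨C₀⟩ := C₀ rfl
  obtain ⟨T₁, t₁, -, C₁⟩ := exists_path L hU p6
  obtain ⟨C₁⟩ := C₁ rfl
  obtain ⟨Q₀⟩ := exists_qt R₀ h₀ C₁ t₁ hq'
  obtain ⟨Q₁⟩ := exists_qt R₁ h₁ C₀ t₀ hq
  obtain ⟨F₀⟩ := exists_flip h₀ h₁ R₀ R₁ Q₀ Q₁
  obtain ⟨F₁⟩ := exists_flip h₁ h₀ R₁ R₀ Q₁ Q₀
  have h₂ := h₁.comp h₀
  have h₃ := h₀.comp h₂
  have h₄ := h₁.comp h₃
  have g₂ := h₀.comp h₁
  have g₃ := h₁.comp g₂
  have g₄ := h₀.comp g₃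
  let E₁ : Code L d' fun Y => P₀ (P₁ Y) := R₁.pf h₁ R₀
  let E₀ : Code L d fun Y => P₁ (P₀ Y) := R₀.pf h₀ R₁
  obtain ⟨A⟩ := exists_bin h₀ h₁ R₀ R₁ h₀ h₂ h₄ ((CodeF.id L d P₀ h₀.sub).code h₀ F₁)
    ((CodeF.id L d _ h₂.sub).code h₂ E₀)
  have h₈ := h₄.comp h₄
  have h₉ := h₀.comp h₈
  obtain ⟨B⟩ := exists_bin h₁ h₀ R₁ R₀ h₉ h₀ h₉ (CodeF.id L d _ h₉.sub)
    (((((CodeF.id L d P₀ h₀.sub).code h₀ E₁).code h₃ E₁).code (g₂.comp h₃) E₁).code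
      (g₂.comp (g₂.comp h₃)) E₁)
  have h₁₃ := g₄.comp h₉
  obtain ⟨T, hT, T1, T2⟩ := exists_path L hU p2
  obtain ⟨T', hT', T1', T2'⟩ := exists_path L hU p1
  have hZ : ∃ Zop, Op Q c d' Zop ∧ Nonempty (PF L c Zop) := by
    cases ε₁
    · exact ⟨_, h₀.comp hT', (T2' rfl).map fun R => R.pf hT' R₀⟩
    · exact ⟨_, h₃.comp hT', (T1' rfl).map fun R => R.code hT' F₀⟩
  obtain ⟨Zop, hZ, ⟨Zr⟩⟩ := hZ
  cases ε₂
  · obtain ⟨R⟩ := T2 rfl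
    exact hurkens_core L C hr h₀ h₁ R₀ R₁ Q₀ Q₁ h₉ (A.pf h₈ R₀) (hT.comp (h₁.comp h₁₃))
      ((B.pf h₁₃ R₁).code (h₁.comp h₁₃) R) hZ Zr
  · obtain ⟨R⟩ := T1 rfl
    exact hurkens_core L C hr h₀ h₁ R₀ R₁ Q₀ Q₁ h₉ (A.pf h₈ R₀) (hT.comp (g₃.comp h₁₃))
      ((B.code h₁₃ F₁).pf (g₃.comp h₁₃) R) hZ Zr

end Tm

end Vale.Agent.P340
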