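import Vale.Agent.P340.Val

/-! Interpretation of terms on stacks of values. -/

namespace Vale.Agent.P340

universe u

namespace Tm

variable {S : Type u} {Q : Sig S} {c₀ : S}

open Classical in
/-- The normal domain of the type of a closed function. -/
noncomputable def dom' (Q : Sig S) (t : Tm S) : Tm S :=
  if h : ∃ A B, CTy Q t (pi A B) then nf h.choose else var 0

noncomputable def dom (Q : Sig S) (t : Tm S) : Tm S := dom' Q (nf t)

theorem Conv.dom_eq {t t' : Tm S} (h : Conv t t') : dom Q t = dom Q t' := by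
  unfold dom; rw [h.nf_eq]

theorem dom_eq (hW : WN Q) {t A B : Tm S} (h : Ty Q [] t (pi A B)) : dom Q t = nf A := by
  have h1 : ∃ A B, CTy Q (nf t) (pi A B) := ⟨A, B, (h.nf hW).cty⟩
  rw [dom, dom', dif_pos h1]
  obtain ⟨B', T, h2, h3⟩ := h1.choose_spec
  have h4 := h.nf hW
  refine Conv.nf_eq ?_
  rcases (nf_normal t).neu_or_lam with hn | ⟨A₀, M, e⟩
  · rcases hn.cases h4 with ⟨s, e⟩ | ⟨A₀, B₀, e⟩ | ⟨x, hx⟩ | hc
    · rw [e] at h4; exact (h4.not_srt_pi (.refl _)).elim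
    · rw [e] at h4; exact (h4.not_pi_pi (.refl _)).elim
    · exact (h3.symm.trans (hx.unique_ty h2 h4)).pi_inj.1
    · exact (h3.symm.trans (hc.unique_ty h2 h4)).pi_inj.1
  · rw [e] at h2 h4
    obtain ⟨_, _, -, -, h5⟩ := h2.gen_lam
    obtain ⟨_, _, -, -, h6⟩ := h4.gen_lam
    exact (h3.symm.trans h5).pi_inj.1.trans h6.pi_inj.1.symm

variable (Q c₀)

noncomputable def ev : Tm S → (ℕ → Tm S) → (ℕ → V S) → Stk S → Set (Tm S)
  | var x, _, η, π => fib (η x) π
  | srt _, _, _, _ => ∅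
  | con _ _, _, _, _ => ∅
  | app t u, σ, η, π => ev t σ η (((nf (subst σ u), dom Q (subst σ t)),
      reify Q c₀ (dom Q (subst σ t)) (ev u σ η)) :: π)
  | lam _ _, _, _, [] => ∅
  | lam _ b, σ, η, q :: π => ev b (scons q.1.1 σ) (scons q.2 η) π
  | pi A B, σ, η, _ => arr (fun N v => CTy Q N (subst σ A) ∧
      N ∈ ov (Safe Q (subst σ A)) (cl (ev A σ η [])) ∧ v ∈ Qv Q c₀ (nf (subst σ A)))
      fun N v => ov (Safe Q (subst (scons N σ) B)) (cl (ev B (scons N σ) (scons v η) []))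

/-- The saturated set of a type. -/
noncomputable def evT (A : Tm S) (σ : ℕ → Tm S) (η : ℕ → V S) : Set (Tm S) :=
  ov (Safe Q (subst σ A)) (cl (ev Q c₀ A σ η []))

variable {Q c₀}

theorem sat_evT (A : Tm S) (σ : ℕ → Tm S) (η : ℕ → V S) : Sat (evT Q c₀ A σ η) :=
  sat_ov _ (sat_cl _)

theorem ev_pi (A B : Tm S) (σ : ℕ → Tm S) (η : ℕ → V S) (π : Stk S) :
    ev Q c₀ (pi A B) σ η π = arr (fun N v => CTy Q N (subst σ A) ∧
      N ∈ evT Q c₀ A σ η ∧ v ∈ Qv Q c₀ (nf (subst σ A)))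
      fun N v => evT Q c₀ B (scons N σ) (scons v η) := by
  simp only [ev, evT]

theorem sat_ev_pi (A B : Tm S) (σ : ℕ → Tm S) (η : ℕ → V S) (π : Stk S) :
    Sat (ev Q c₀ (pi A B) σ η π) := by
  rw [ev_pi]; exact sat_arr (fun _ _ h => (sat_evT _ _ _).sn _ h.2.1) fun _ _ => sat_evT _ _ _

theorem arr_congr {ι : Type (u + 1)} {P P' : Tm S → ι → Prop} {Y Y' : Tm S → ι → Set (Tm S)}
    (h : ∀ N i, P N i ↔ P' N i) (h' : ∀ N i, P N i → Y N i = Y' N i) : arr P Y = arr P' Y' := by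
  ext M
  refine and_congr_right fun _ => forall_congr' fun N => forall_congr' fun i => ?_
  exact ⟨fun h1 h2 => h' N i ((h N i).2 h2) ▸ h1 ((h N i).2 h2),
    fun h1 h2 => h' N i h2 ▸ h1 ((h N i).1 h2)⟩

theorem evT_congr {A A' : Tm S} {σ σ' : ℕ → Tm S} {η η' : ℕ → V S}
    (hc : Conv (subst σ A) (subst σ' A'))
    (h : ¬ Safe Q (subst σ A) → ev Q c₀ A σ η [] = ev Q c₀ A' σ' η' []) :
    evT Q c₀ A σ η = evT Q c₀ A' σ' η' := by
  unfold evT
  by_cases hs : Safe Q (subst σ A)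
  · rw [ov_pos hs, ov_pos (hs.conv hc)]
  · rw [h hs, safe_congr hc]

theorem ev_pi_congr {A B A' B' : Tm S} {σ σ' : ℕ → Tm S} {η η' : ℕ → V S} {π π' : Stk S}
    (hA : Conv (subst σ A) (subst σ' A'))
    (hB : ∀ N, Conv (subst (scons N σ) B) (subst (scons N σ') B'))
    (h1 : ¬ Safe Q (subst σ A) → ev Q c₀ A σ η [] = ev Q c₀ A' σ' η' [])
    (h2 : ∀ N v, CTy Q N (subst σ A) → v ∈ Qv Q c₀ (nf (subst σ A)) →
      ¬ Safe Q (subst (scons N σ) B) →
      ev Q c₀ B (scons N σ) (scons v η) [] = ev Q c₀ B' (scons N σ') (scons v η') []) :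
    ev Q c₀ (pi A B) σ η π = ev Q c₀ (pi A' B') σ' η' π' := by
  rw [ev_pi, ev_pi]
  refine arr_congr (fun N v => ?_) fun N v h => evT_congr (hB N) (h2 N v h.1 h.2.2)
  rw [cty_congr hA, evT_congr hA h1, hA.nf_eq]

def rn (ξ : ℕ → ℕ) : ℕ → Tm S := fun n => var (ξ n)

theorem up_rn (ξ : ℕ → ℕ) : up (rn ξ : ℕ → Tm S) = rn (upr ξ) := by
  funext n; cases n <;> rfl

theorem comp_rn (ξ : ℕ → ℕ) (σ : ℕ → Tm S) : comp (rn ξ) σ = σ ∘ ξ := rfl

theorem scons_upr {α : Type*} (a : α) (σ : ℕ → α) (ξ : ℕ → ℕ) :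
    scons a σ ∘ upr ξ = scons a (σ ∘ ξ) := by
  funext n; cases n <;> rfl

theorem ev_rn (t : Tm S) (ξ : ℕ → ℕ) (σ : ℕ → Tm S) (η : ℕ → V S) (π : Stk S) :
    ev Q c₀ (subst (rn ξ) t) σ η π = ev Q c₀ t (σ ∘ ξ) (η ∘ ξ) π := by
  induction t generalizing ξ σ η π with
  | var x => rfl
  | srt s => rfl
  | con n A => rfl
  | app t u iht ihu =>
    have : ev Q c₀ (subst (rn ξ) u) σ η = ev Q c₀ u (σ ∘ ξ) (η ∘ ξ) := funext (ihu ξ σ η)
    simp only [subst_app, ev, iht, this, subst_subst, comp_rn]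
  | lam A b _ ih =>
    cases π with
    | nil => rfl
    | cons q π => simp only [subst_lam, ev, up_rn, ih, scons_upr]
  | pi A B ihA ihB =>
    simp only [subst_pi, ev, up_rn, ihA, ihB, scons_upr, subst_subst, comp_rn]

theorem ev_lift (t N : Tm S) (v : V S) (σ : ℕ → Tm S) (η : ℕ → V S) (π : Stk S) :
    ev Q c₀ (lift t) (scons N σ) (scons v η) π = ev Q c₀ t σ η π :=
  ev_rn t (fun n => n + 1) _ _ π

theorem ev_conv (t : Tm S) {σ σ' : ℕ → Tm S} (h : ∀ n, Conv (σ n) (σ' n)) (η : ℕ → V S)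
    (π : Stk S) : ev Q c₀ t σ η π = ev Q c₀ t σ' η π := by
  induction t generalizing σ σ' η π with
  | var x => rfl
  | srt s => rfl
  | con n A => rfl
  | app t u iht ihu =>
    have : ev Q c₀ u σ η = ev Q c₀ u σ' η := funext (ihu h η)
    simp only [ev, iht h, this, (Conv.substs h u).nf_eq, (Conv.substs h t).dom_eq]
  | lam A b _ ih =>
    cases π with
    | nil => rfl
    | cons q π => exact ih (Conv.scons (.refl _) h) _ _
  | pi A B ihA ihB =>
    exact ev_pi_congr (Conv.substs h A) (fun N => Conv.substs (Conv.scons (.refl _) h) B)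
      (fun _ => ihA h _ _) fun N v _ _ _ => ihB (Conv.scons (.refl _) h) _ _

theorem ev_fin (H : HypII Q c₀) (t : Tm S) (m : ℕ) : ∃ n, ∀ (σ : ℕ → Tm S) (η η' : ℕ → V S)
    (π π' : Stk S), (∀ x, Ap m n (η x) (η' x)) → ApS m n π π' →
    ev Q c₀ t σ η π = ev Q c₀ t σ η' π' := by
  have hcons : ∀ {m n : ℕ} {v w : V S} {η η' : ℕ → V S}, Ap m n v w →
      (∀ x, Ap m n (η x) (η' x)) → ∀ x, Ap m n (scons v η x) (scons w η' x) := by
    intro m n v w η η' h h' x
    cases x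
    · exact h
    · exact h' _
  induction t generalizing m with
  | var x => exact ⟨m, fun σ η η' π π' h h' => fib_ap le_rfl (h x) h'⟩
  | srt s => exact ⟨0, fun _ _ _ _ _ _ _ => rfl⟩
  | con n A => exact ⟨0, fun _ _ _ _ _ _ _ => rfl⟩
  | app t u iht ihu =>
    obtain ⟨n₀, h0⟩ := ihu m
    obtain ⟨n₁, h1⟩ := iht (max m (n₀ + 1))
    obtain ⟨n₂, h2⟩ := ihu (max m n₁)
    refine ⟨max n₀ (max n₁ n₂), fun σ η η' π π' h h' => ?_⟩
    refine h1 σ η η' _ _ (fun x => (h x).mono (by omega) (by omega))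
      (.cons ⟨rfl, reify_ap H _ (n₀ := n₀) ?_ ?_ (by omega)⟩ (h'.mono (by omega) (by omega)))
    · exact fun π hπ => h0 σ η η _ _ (fun x => (h x).refl_left.mono le_rfl (by omega)) (apS_trS hπ)
    · exact fun π hπ => h2 σ η η' _ _ (fun x => (h x).mono (by omega) (by omega))
        (apS_refl fun q hq => by have := hπ q hq; omega)
  | lam A b _ ih =>
    obtain ⟨n, h1⟩ := ih m
    refine ⟨n, fun σ η η' π π' h h' => ?_⟩
    cases h' with
    | nil => rfl
    | cons h2 h3 =>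
      simp only [ev, h2.1]
      exact h1 _ _ _ _ _ (hcons h2.2 h) h3
  | pi A B ihA ihB =>
    obtain ⟨n₁, h1⟩ := ihA m
    obtain ⟨n₂, h2⟩ := ihB m
    refine ⟨max n₁ n₂, fun σ η η' π π' h _ => ?_⟩
    exact ev_pi_congr (.refl _) (fun _ => .refl _)
      (fun _ => h1 _ _ _ _ _ (fun x => (h x).mono le_rfl (by omega)) .nil)
      fun N v _ hv _ => h2 _ _ _ _ _ (hcons (.inl ⟨rfl, by have := Qv_tag hv; omega⟩)
        fun x => (h x).mono le_rfl (by omega)) .nil

def Bdd (η : ℕ → V S) : Prop := ∃ m, ∀ x, tag (η x) < m + 2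

theorem Bdd.cons {η : ℕ → V S} (h : Bdd η) (v : V S) : Bdd (scons v η) := by
  obtain ⟨m, h⟩ := h
  refine ⟨max m (tag v), fun x => ?_⟩
  cases x with
  | zero => simp only [scons_zero]; omega
  | succ x => have := h x; simp only [scons_succ]; omega

theorem ev_fnt (H : HypII Q c₀) (t : Tm S) (σ : ℕ → Tm S) {η : ℕ → V S} (h : Bdd η) :
    ∃ n, Fnt (ev Q c₀ t σ η) n := by
  obtain ⟨m, h⟩ := h
  obtain ⟨n, hn⟩ := ev_fin H t m
  exact ⟨n, fun π hπ => hn σ η η _ _ (fun x => .inl ⟨rfl, h x⟩) (apS_trS hπ)⟩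

/-! ### Well sorted evaluations -/

def Hd (L : ℕ → Prop) (t : Tm S) : Prop := CHd t ∨ ∃ x, L x ∧ VHd x t

theorem Hd.app {L : ℕ → Prop} {t : Tm S} (h : Hd L t) (u : Tm S) : Hd L (app t u) :=
  h.imp (.app _) fun ⟨x, h1, h2⟩ => ⟨x, h1, .app _ h2⟩

theorem Hd.step {L : ℕ → Prop} {t t' : Tm S} (h : Hd L t) (hs : Step t t') : Hd L t' :=
  h.imp (·.step hs) fun ⟨x, h1, h2⟩ => ⟨x, h1, h2.step hs⟩

theorem Hd.subst {L L' : ℕ → Prop} {t : Tm S} (h : Hd L' t) {ς : ℕ → Tm S}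
    (hς : ∀ x, L' x → Hd L (ς x)) : Hd L (subst ς t) := by
  rcases h with h | ⟨x, h1, h2⟩
  · exact .inl (h.subst ς)
  · induction h2 with
    | var => exact hς x h1
    | app u _ ih => exact ih.app _

theorem Hd.not_lam {L : ℕ → Prop} {A b : Tm S} : ¬ Hd L (lam A b) := by
  rintro (h | ⟨x, -, h⟩) <;> cases h

theorem Hd.of_app {L : ℕ → Prop} {t u : Tm S} (h : Hd L (Tm.app t u)) : Hd L t := by
  rcases h with h | ⟨x, h1, h⟩
  · cases h with | app _ h => exact .inl h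
  · cases h with | app _ h => exact .inr ⟨x, h1, h⟩

theorem ev_hd {L : ℕ → Prop} {t : Tm S} (h : Hd L t) {η : ℕ → V S}
    (hη : ∀ x, L x → ∀ π, fib (η x) π = ∅) (σ : ℕ → Tm S) (π : Stk S) :
    ev Q c₀ t σ η π = ∅ := by
  rcases h with h | ⟨x, h1, h2⟩
  · induction h generalizing π with
    | con => rfl
    | app u _ ih => exact ih _
  · induction h2 generalizing π with
    | var => exact hη x h1 π
    | app u _ ih => exact ih _

variable (Q c₀)

def K : Tm S → (ℕ → Tm S) → (ℕ → Tm S) → (ℕ → Prop) → List (Tm S × Tm S) → Prop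
  | var x, _, κ, L, π => L x ∨ BSp Q c₀ π (κ x)
  | srt _, _, _, _, _ => True
  | con _ _, _, _, _, _ => True
  | app t u, σ, κ, L, π => Hd L t ∨ (HasNf (subst σ u) ∧ Good Q c₀ (dom Q (subst σ t)) ∧
      K t σ κ L ((nf (subst σ u), dom Q (subst σ t)) :: π) ∧
      ∀ π₁, BSp Q c₀ π₁ (dom Q (subst σ t)) → K u σ κ L π₁)
  | lam _ _, _, _, _, [] => True
  | lam _ b, σ, κ, L, q :: π => K b (scons q.1 σ) (scons q.2 κ) (scons False L) π
  | pi A B, σ, κ, L, _ => (Safe Q (subst σ A) ∨ K A σ κ L []) ∧ ∀ N, CTy Q N (subst σ A) →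
      Safe Q (subst (scons N σ) B) ∨
        K B (scons N σ) (scons (nf (subst σ A)) κ) (scons False L) []

variable {Q c₀}

theorem Hd.k {L : ℕ → Prop} {t : Tm S} (h : Hd L t) (σ κ : ℕ → Tm S) (π : List (Tm S × Tm S)) :
    K Q c₀ t σ κ L π := by
  cases t with
  | var x =>
    rcases h with h | ⟨y, h1, h⟩
    · cases h
    · cases h; exact .inl h1
  | app t u => exact .inl h.of_app
  | lam A b => exact (Hd.not_lam h).elim
  | pi A B => rcases h with h | ⟨y, h1, h⟩ <;> cases h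
  | srt s => trivial
  | con n A => trivial

theorem K.conv {t : Tm S} {σ σ' κ : ℕ → Tm S} {L : ℕ → Prop} {π : List (Tm S × Tm S)}
    (h : K Q c₀ t σ κ L π) (hc : ∀ n, Conv (σ n) (σ' n)) : K Q c₀ t σ' κ L π := by
  induction t generalizing σ σ' κ L π with
  | var x => exact h
  | srt s => trivial
  | con n A => trivial
  | app t u iht ihu =>
    refine h.imp id fun ⟨h1, h2, h3, h4⟩ => ?_
    rw [← (Conv.substs hc u).nf_eq, ← (Conv.substs hc t).dom_eq]
    exact ⟨h1.of_conv (Conv.substs hc u), h2, iht h3 hc, fun π₁ h => ihu (h4 π₁ h) hc⟩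
  | lam A b _ ih =>
    cases π with
    | nil => trivial
    | cons q π => exact ih h (Conv.scons (.refl _) hc)
  | pi A B ihA ihB =>
    refine ⟨h.1.imp (·.conv (Conv.substs hc A)) (ihA · hc), fun N hN => ?_⟩
    rw [← (Conv.substs hc A).nf_eq]
    exact (h.2 N (hN.conv (Conv.substs hc A).symm)).imp
      (·.conv (Conv.substs (Conv.scons (.refl _) hc) B)) (ihB · (Conv.scons (.refl _) hc))

theorem K.rn {t : Tm S} {ξ : ℕ → ℕ} {σ κ : ℕ → Tm S} {L : ℕ → Prop} {π : List (Tm S × Tm S)}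
    (h : K Q c₀ t (σ ∘ ξ) (κ ∘ ξ) (L ∘ ξ) π) : K Q c₀ (subst (rn ξ) t) σ κ L π := by
  induction t generalizing ξ σ κ L π with
  | var x => exact h
  | srt s => trivial
  | con n A => trivial
  | app t u iht ihu =>
    refine h.imp (fun h => h.subst fun x hx => .inr ⟨ξ x, hx, .var⟩) fun ⟨h1, h2, h3, h4⟩ => ?_
    simp only [subst_subst, comp_rn]
    exact ⟨h1, h2, iht h3, fun π₁ h => ihu (h4 π₁ h)⟩
  | lam A b _ ih =>
    cases π with
    | nil => trivial
    | cons q π =>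
      simp only [subst_lam, K, up_rn]
      exact ih (by simpa only [scons_upr, K] using h)
  | pi A B ihA ihB =>
    simp only [subst_pi, K, up_rn, subst_subst, comp_rn, scons_upr]
    exact ⟨h.1.imp id ihA, fun N hN => (h.2 N hN).imp id fun h =>
      ihB (by simpa only [scons_upr] using h)⟩

theorem K.subst {b : Tm S} {ς σ κ κ' : ℕ → Tm S} {L L' : ℕ → Prop} {π : List (Tm S × Tm S)}
    (h : K Q c₀ b (comp ς σ) κ' L' π) (h1 : ∀ x, L' x → Hd L (ς x))
    (h2 : ∀ x, ¬ L' x → ∀ π₁, BSp Q c₀ π₁ (κ' x) → K Q c₀ (ς x) σ κ L π₁) :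
    K Q c₀ (subst ς b) σ κ L π := by
  have u1 : ∀ {ς : ℕ → Tm S} {L L' : ℕ → Prop}, (∀ x, L' x → Hd L (ς x)) →
      ∀ x, scons False L' x → Hd (scons False L) (up ς x) := by
    intro ς L L' h x hx
    cases x with
    | zero => exact hx.elim
    | succ x => rw [up_succ]; exact (h x hx).subst fun y hy => .inr ⟨y + 1, hy, .var⟩
  have u2 : ∀ {ς σ κ κ' : ℕ → Tm S} {L L' : ℕ → Prop} (N D : Tm S),
      (∀ x, ¬ L' x → ∀ π₁, BSp Q c₀ π₁ (κ' x) → K Q c₀ (ς x) σ κ L π₁) →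
      ∀ x, ¬ scons False L' x → ∀ π₁, BSp Q c₀ π₁ (scons D κ' x) →
        K Q c₀ (up ς x) (scons N σ) (scons D κ) (scons False L) π₁ := by
    intro ς σ κ κ' L L' N D h x hx π₁ hπ
    cases x with
    | zero => exact .inr hπ
    | succ x => rw [up_succ]; exact K.rn (ξ := fun n => n + 1) (h x hx π₁ hπ)
  induction b generalizing ς σ κ κ' L L' π with
  | var x =>
    by_cases hx : L' x
    · exact (h1 x hx).k _ _ _
    · exact h2 x hx π (h.resolve_left hx)
  | srt s => trivial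
  | con n A => trivial
  | app t u iht ihu =>
    refine h.imp (fun h => h.subst h1) fun ⟨h3, h4, h5, h6⟩ => ?_
    simp only [subst_subst]
    exact ⟨h3, h4, iht h5 h1 h2, fun π₁ h => ihu (h6 π₁ h) h1 h2⟩
  | lam A b _ ih =>
    cases π with
    | nil => trivial
    | cons q π => exact ih (by simpa only [up_scons, K] using h) (u1 h1) (u2 _ _ h2)
  | pi A B ihA ihB =>
    simp only [subst_pi, K, subst_subst, up_scons]
    exact ⟨h.1.imp id (ihA · h1 h2), fun N hN => (h.2 N hN).imp id fun h =>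
      ihB (by simpa only [up_scons] using h) (u1 h1) (u2 _ _ h2)⟩

theorem ev_subst (H : HypII Q c₀) {b : Tm S} {ς σ κ' : ℕ → Tm S} {η η' : ℕ → V S}
    {L' : ℕ → Prop} {π : Stk S} (h : K Q c₀ b (comp ς σ) κ' L' (π.map Prod.fst))
    (hπ : ∀ q ∈ π, q.2 ∈ E Q c₀ q.1.2)
    (h1 : ∀ x, L' x → ∀ π, fib (η' x) π = ∅ ∧ ev Q c₀ (ς x) σ η π = ∅)
    (h2 : ∀ x, ¬ L' x → ∀ π, Sp Q c₀ (E Q c₀) (κ' x) π → fib (η' x) π = ev Q c₀ (ς x) σ η π) :
    ev Q c₀ (subst ς b) σ η π = ev Q c₀ b (comp ς σ) η' π := by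
  have u1 : ∀ {ς σ : ℕ → Tm S} {η η' : ℕ → V S} {L' : ℕ → Prop} (N : Tm S) (v : V S),
      (∀ x, L' x → ∀ π, fib (η' x) π = ∅ ∧ ev Q c₀ (ς x) σ η π = ∅) →
      ∀ x, scons False L' x → ∀ π, fib (scons v η' x) π = ∅ ∧
        ev Q c₀ (up ς x) (scons N σ) (scons v η) π = ∅ := by
    intro ς σ η η' L' N v h x hx π
    cases x with
    | zero => exact hx.elim
    | succ x => rw [up_succ, ev_lift]; exact h x hx π
  have u2 : ∀ {ς σ κ' : ℕ → Tm S} {η η' : ℕ → V S} {L' : ℕ → Prop} (N D : Tm S) (v : V S),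
      (∀ x, ¬ L' x → ∀ π, Sp Q c₀ (E Q c₀) (κ' x) π → fib (η' x) π = ev Q c₀ (ς x) σ η π) →
      ∀ x, ¬ scons False L' x → ∀ π, Sp Q c₀ (E Q c₀) (scons D κ' x) π →
        fib (scons v η' x) π = ev Q c₀ (up ς x) (scons N σ) (scons v η) π := by
    intro ς σ κ' η η' L' N D v h x hx π hπ
    cases x with
    | zero => rfl
    | succ x => rw [up_succ, ev_lift]; exact h x hx π hπ
  induction b generalizing ς σ κ' η η' L' π with
  | var x =>
    by_cases hx : L' x
    · exact (h1 x hx π).2.trans (h1 x hx π).1.symm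
    · exact (h2 x hx π ⟨h.resolve_left hx, hπ⟩).symm
  | srt s => rfl
  | con n A => rfl
  | app t u iht ihu =>
    rcases h with h | ⟨h3, h4, h5, h6⟩
    · rw [ev_hd (h.app u) fun x hx π => (h1 x hx π).1]
      generalize Tm.app t u = t', h.app u = h' at *
      rcases h' with h' | ⟨x, hx, h'⟩
      · exact ev_hd (L := fun _ => False) (.inl (h'.subst ς)) (fun _ h => h.elim) _ _
      · clear hπ
        induction h' generalizing π with
        | var => exact (h1 x hx π).2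
        | app u _ ih => exact ih
    · simp only [subst_app, ev, subst_subst]
      rw [reify_congr fun π₁ h => ihu (h6 _ h.1) h.2 h1 h2]
      refine iht h5 (fun q hq => ?_) h1 h2
      rcases List.mem_cons.1 hq with rfl | hq
      · exact reify_mem H _ _
      · exact hπ q hq
  | lam A b _ ih =>
    cases π with
    | nil => rfl
    | cons q π =>
      simp only [subst_lam, ev]
      rw [← up_scons]
      exact ih (by simpa only [up_scons, K, List.map_cons] using h) (fun q hq => hπ q (List.mem_cons_of_mem _ hq))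
        (u1 _ _ h1) (u2 _ q.1.2 _ h2)
  | pi A B ihA ihB =>
    refine ev_pi_congr (by simp [Conv.refl]) (fun N => by simp [Conv.refl]) (fun hs => ?_)
      fun N v hN _ hs => ?_
    · exact ihA (π := []) (h.1.resolve_left (by simpa using hs)) (by simp) h1 h2
    · rw [← up_scons]
      exact ihB (π := []) (by
        simpa only [up_scons, List.map_nil] using (h.2 N (by simpa using hN)).resolve_left (by simpa using hs))
        (by simp) (u1 _ _ h1) (u2 _ _ _ h2)

theorem K.step {t t' : Tm S} (hs : Step t t') {σ κ : ℕ → Tm S} {L : ℕ → Prop}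
    {π : List (Tm S × Tm S)} (h : K Q c₀ t σ κ L π) : K Q c₀ t' σ κ L π := by
  induction hs generalizing σ κ L π with
  | beta A b u =>
    obtain ⟨h1, h2, h3, h4⟩ := h.resolve_left Hd.not_lam
    refine K.subst (κ' := scons _ κ) (L' := scons False L)
      (K.conv h3 (by simpa using Conv.scons h1.conv.symm fun _ => .refl _)) ?_ ?_
    · intro x hx
      cases x with
      | zero => exact hx.elim
      | succ x => exact .inr ⟨x, hx, .var⟩
    · intro x hx π₁ hπ
      cases x with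
      | zero => exact h4 π₁ hπ
      | succ x => exact .inr hπ
  | appL u hs ih =>
    refine h.imp (·.step hs) fun ⟨h1, h2, h3, h4⟩ => ?_
    rw [← (hs.conv.subst σ).dom_eq]
    exact ⟨h1, h2, ih h3, h4⟩
  | appR t hs ih =>
    refine h.imp id fun ⟨h1, h2, h3, h4⟩ => ?_
    rw [← (hs.conv.subst σ).nf_eq]
    exact ⟨h1.of_conv (hs.conv.subst σ), h2, h3, fun π₁ h => ih (h4 π₁ h)⟩
  | lamL b hs ih => cases π <;> exact h
  | lamR A hs ih =>
    cases π with
    | nil => trivial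
    | cons q π => exact ih h
  | piL B hs ih =>
    refine ⟨h.1.imp (·.conv (hs.conv.subst σ)) ih, fun N hN => ?_⟩
    rw [← (hs.conv.subst σ).nf_eq]
    exact h.2 N (hN.conv (hs.conv.subst σ).symm)
  | piR A hs ih =>
    exact ⟨h.1, fun N hN => (h.2 N hN).imp (·.conv (hs.conv.subst _)) ih⟩

theorem ev_step (H : HypII Q c₀) {t t' : Tm S} (hs : Step t t') {σ κ : ℕ → Tm S}
    {η : ℕ → V S} {L : ℕ → Prop} {π : Stk S} (h : K Q c₀ t σ κ L (π.map Prod.fst))
    (hπ : ∀ q ∈ π, q.2 ∈ E Q c₀ q.1.2) (hb : Bdd η) (hL : ∀ x, L x → ∀ π, fib (η x) π = ∅) :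
    ev Q c₀ t σ η π = ev Q c₀ t' σ η π := by
  have u1 : ∀ {η : ℕ → V S} {L : ℕ → Prop} (v : V S), (∀ x, L x → ∀ π, fib (η x) π = ∅) →
      ∀ x, scons False L x → ∀ π, fib (scons v η x) π = ∅ := by
    intro η L v h x hx
    cases x with
    | zero => exact hx.elim
    | succ x => exact h x hx
  have u2 : ∀ {π : Stk S} (N D : Tm S) (φ : Stk S → Set (Tm S)), (∀ q ∈ π, q.2 ∈ E Q c₀ q.1.2) →
      ∀ q ∈ ((N, D), reify Q c₀ D φ) :: π, q.2 ∈ E Q c₀ q.1.2 := by
    intro π N D φ hπ q hq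
    rcases List.mem_cons.1 hq with rfl | hq
    · exact reify_mem H _ _
    · exact hπ q hq
  induction hs generalizing σ κ η L π with
  | beta A b u =>
    obtain ⟨h1, h2, h3, h4⟩ := h.resolve_left Hd.not_lam
    have h5 : ∀ n, Conv (scons (nf (subst σ u)) σ n) (comp (scons u var) σ n) := by
      simpa using Conv.scons h1.conv.symm fun _ => .refl _
    simp only [ev]
    rw [ev_conv b h5]
    refine (ev_subst H (κ' := scons _ κ) (L' := scons False L) (K.conv h3 h5) hπ ?_ ?_).symm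
    · intro x hx π
      cases x with
      | zero => exact hx.elim
      | succ x => exact ⟨hL x hx π, hL x hx π⟩
    · intro x hx π₁ hπ₁
      cases x with
      | zero =>
        obtain ⟨n, hn⟩ := ev_fnt H u σ hb
        exact fib_reify H h2 hn hπ₁
      | succ x => rfl
  | appL u hs ih =>
    rcases h with h | ⟨h1, h2, h3, h4⟩
    · rw [ev_hd (h.app u) hL, ev_hd ((h.step hs).app u) hL]
    · simp only [ev]
      rw [← (hs.conv.subst σ).dom_eq]
      exact ih h3 (u2 _ _ _ hπ) hb hL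
  | appR t hs ih =>
    rcases h with h | ⟨h1, h2, h3, h4⟩
    · rw [ev_hd (h.app _) hL, ev_hd (h.app _) hL]
    · simp only [ev]
      rw [← (hs.conv.subst σ).nf_eq, reify_congr fun π₁ h => ih (h4 _ h.1) h.2 hb hL]
  | lamL b hs ih => cases π <;> rfl
  | lamR A hs ih =>
    cases π with
    | nil => rfl
    | cons q π => exact ih h (fun q hq => hπ q (List.mem_cons_of_mem _ hq)) (hb.cons _) (u1 _ hL)
  | piL B hs ih =>
    exact ev_pi_congr (hs.conv.subst σ) (fun _ => .refl _)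
      (fun hn => ih (π := []) (h.1.resolve_left hn) (by simp) hb hL) fun _ _ _ _ _ => rfl
  | piR A hs ih =>
    exact ev_pi_congr (.refl _) (fun _ => hs.conv.subst _) (fun _ => rfl) fun N v hN _ hn =>
      ih (π := []) ((h.2 N hN).resolve_left hn) (by simp) (hb.cons _) (u1 _ hL)

theorem ev_red (H : HypII Q c₀) {t t' : Tm S} (hs : Red t t') {σ κ : ℕ → Tm S}
    {η : ℕ → V S} {L : ℕ → Prop} (h : K Q c₀ t σ κ L []) (hb : Bdd η)
    (hL : ∀ x, L x → ∀ π, fib (η x) π = ∅) : ev Q c₀ t σ η [] = ev Q c₀ t' σ η [] := by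
  induction hs using Relation.ReflTransGen.head_induction_on with
  | refl => rfl
  | head h1 _ ih => exact (ev_step H h1 (π := []) h (by simp) hb hL).trans (ih (K.step h1 h))

end Tm

end Vale.Agent.P340
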