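import Vale.Agent.P340.Graph

/-! Representing points and predicates by kinds built along paths of the graph. -/

namespace Vale.Agent.P340

universe u

namespace Tm

variable {S : Type u} {Q : Sig S} {c₀ : S}

def OpS (F : Tm S → Tm S) : Prop := ∀ σ X, subst σ (F X) = F (subst σ X)

theorem opS_id : OpS (fun X : Tm S => X) := fun _ _ => rfl

theorem OpS.comp {F G : Tm S → Tm S} (hF : OpS F) (hG : OpS G) : OpS fun X => F (G X) :=
  fun σ X => by rw [hF, hG]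

theorem OpS.conv {F : Tm S → Tm S} (hF : OpS F) {X Y : Tm S} (h : Conv X Y) :
    Conv (F X) (F Y) := by
  have : ∀ X, F X = inst (F (var 0)) X := fun X => by rw [inst, hF]; rfl
  rw [this X, this Y]; exact Conv.inst (.refl _) h

structure Op (Q : Sig S) (d g : S) (F : Tm S → Tm S) : Prop where
  sub : OpS F
  ty : ∀ {Γ X}, Ty Q Γ X (srt d) → Ty Q Γ (F X) (srt g)

theorem Op.id (d : S) : Op Q d d fun X => X := ⟨opS_id, fun h => h⟩

theorem Op.comp {d g h : S} {F G : Tm S → Tm S} (hF : Op Q g h F) (hG : Op Q d g G) :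
    Op Q d h fun X => F (G X) := ⟨hF.sub.comp hG.sub, fun h => hF.ty (hG.ty h)⟩

/-- A kind of input depending on a kind parameter. -/
structure Inp (Q : Sig S) where
  α : Type u
  act : (ℕ → Tm S) → α → α
  ok : List (Tm S) → Tm S → α → Prop
  ok_sub : ∀ {Γ Δ σ X i}, ok Γ X i → Sub Q Δ σ Γ → ok Δ (subst σ X) (act σ i)
  act_act : ∀ σ τ i, act τ (act σ i) = act (comp σ τ) i
  act_id : ∀ i, act var i = i

@[reducible] def Pt (Q : Sig S) (F : Tm S → Tm S) (hF : OpS F) : Inp Q where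
  α := Tm S
  act := subst
  ok Γ X x := Ty Q Γ x (F X)
  ok_sub h hs := hF _ _ ▸ h.subst hs
  act_act := subst_subst
  act_id := subst_id

@[reducible] def Bd (Q : Sig S) (c₀ : S) (F : Tm S → Tm S) (hF : OpS F) : Inp Q where
  α := Tm S
  act σ := subst (up σ)
  ok Γ X φ := Ty Q (F X :: Γ) φ (srt c₀)
  ok_sub h hs := hF _ _ ▸ h.subst_srt (hs.upw h.wf)
  act_act := by simp
  act_id := by simp

@[reducible] def Pt2 (Q : Sig S) (F G : Tm S → Tm S) (hF : OpS F) (hG : OpS G) : Inp Q where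
  α := Tm S × Tm S
  act σ p := (subst σ p.1, subst σ p.2)
  ok Γ X p := Ty Q Γ p.1 (F X) ∧ Ty Q Γ p.2 (G X)
  ok_sub h hs := ⟨hF _ _ ▸ h.1.subst hs, hG _ _ ▸ h.2.subst hs⟩
  act_act := by simp
  act_id := by simp

@[reducible] def Bd2 (Q : Sig S) (c₀ : S) (F G : Tm S → Tm S) (hF : OpS F) (hG : OpS G) :
    Inp Q where
  α := Tm S
  act σ := subst (up (up σ))
  ok Γ X φ := Ty Q (G (lift X) :: F X :: Γ) φ (srt c₀)
  ok_sub := by
    intro Γ Δ σ X φ h hs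
    have := h.subst_srt ((hs.upw h.wf.tail).upw h.wf)
    simpa [hF _ _, hG _ _] using this
  act_act := by simp
  act_id := by simp

structure Rep (L : Logic Q c₀) (d : S) (I J : Inp Q) (val : I.α → J.α → Tm S)
    (G : Tm S → Tm S) where
  inn : Tm S → I.α → Tm S
  out : Tm S → J.α → Tm S → Tm S
  inn_sub : ∀ σ X i, subst σ (inn X i) = inn (subst σ X) (I.act σ i)
  out_sub : ∀ σ X j t, subst σ (out X j t) = out (subst σ X) (J.act σ j) (subst σ t)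
  inn_ty : ∀ {Γ X i}, Ty Q Γ X (srt d) → I.ok Γ X i → Ty Q Γ (inn X i) (G X)
  out_ty : ∀ {Γ X j t}, Ty Q Γ X (srt d) → J.ok Γ X j → Ty Q Γ t (G X) →
    Ty Q Γ (out X j t) (srt c₀)
  val_ty : ∀ {Γ X i j}, Ty Q Γ X (srt d) → I.ok Γ X i → J.ok Γ X j → Ty Q Γ (val i j) (srt c₀)
  law : ∀ {Γ X i j}, Ty Q Γ X (srt d) → I.ok Γ X i → J.ok Γ X j →
    (L.Tr Γ (out X j (inn X i)) ↔ L.Tr Γ (val i j))

variable {L : Logic Q c₀}

theorem Logic.conv_iff (L : Logic Q c₀) {Γ : List (Tm S)} {φ ψ : Tm S} (h1 : Ty Q Γ φ (srt c₀))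
    (h2 : Ty Q Γ ψ (srt c₀)) (h : Conv φ ψ) : L.Tr Γ φ ↔ L.Tr Γ ψ :=
  ⟨L.tr_conv h1 h2 h, L.tr_conv h2 h1 h.symm⟩

namespace Rep

variable {d : S} {I J : Inp Q} {val : I.α → J.α → Tm S} {G : Tm S → Tm S}

/-- The body obtained by abstracting the represented element. -/
def body (R : Rep L d I J val G) (X : Tm S) (j : J.α) : Tm S :=
  R.out (lift X) (J.act shift j) (var 0)

theorem body_sub (R : Rep L d I J val G) (σ : ℕ → Tm S) (X : Tm S) (j : J.α) :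
    subst (up σ) (R.body X j) = R.body (subst σ X) (J.act σ j) := by
  simp [body, R.out_sub, J.act_act]

theorem body_inst (R : Rep L d I J val G) (X : Tm S) (j : J.α) (t : Tm S) :
    inst (R.body X j) t = R.out X j t := by
  simp [body, R.out_sub, J.act_act, J.act_id]

theorem body_ty (R : Rep L d I J val G) {g : S} (hG : Op Q d g G) {Γ : List (Tm S)} {X : Tm S}
    {j : J.α} (hX : Ty Q Γ X (srt d)) (hj : J.ok Γ X j) :
    Ty Q (G X :: Γ) (R.body X j) (srt c₀) := by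
  have hw := (hG.ty hX).wf_cons
  exact R.out_ty (hX.wk_srt hw) (J.ok_sub hj hw.sub_shift) (hG.sub _ _ ▸ hw.var0)

theorem out_conv (R : Rep L d I J val G) (X : Tm S) (j : J.α) {t t' : Tm S} (h : Conv t t') :
    Conv (R.out X j t) (R.out X j t') := by
  rw [← R.body_inst, ← R.body_inst]; exact Conv.inst (.refl _) h

theorem law' (R : Rep L d I J val G) {Γ : List (Tm S)} {X : Tm S} {i : I.α} {j : J.α}
    (hX : Ty Q Γ X (srt d)) (hi : I.ok Γ X i) (hj : J.ok Γ X j) {t : Tm S}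
    (ht : Ty Q Γ t (G X)) (hc : Conv t (R.inn X i)) :
    L.Tr Γ (R.out X j t) ↔ L.Tr Γ (val i j) :=
  (L.conv_iff (R.out_ty hX hj ht) (R.out_ty hX hj (R.inn_ty hX hi)) (R.out_conv X j hc)).trans
    (R.law hX hi hj)

end Rep

/-- `G X` codes the points of `F X`. -/
abbrev CodeF (L : Logic Q c₀) (d : S) (F : Tm S → Tm S) (hF : OpS F) (G : Tm S → Tm S) :=
  Rep L d (Pt Q F hF) (Bd Q c₀ F hF) (fun x φ => inst φ x) G

/-- `G X` represents the predicates on `F X`. -/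
abbrev PFF (L : Logic Q c₀) (d : S) (F : Tm S → Tm S) (hF : OpS F) (G : Tm S → Tm S) :=
  Rep L d (Bd Q c₀ F hF) (Pt Q F hF) (fun φ x => inst φ x) G

abbrev Code (L : Logic Q c₀) (d : S) (G : Tm S → Tm S) := CodeF L d (fun X => X) opS_id G

abbrev PF (L : Logic Q c₀) (d : S) (G : Tm S → Tm S) := PFF L d (fun X => X) opS_id G

def CodeF.id (L : Logic Q c₀) (d : S) (F : Tm S → Tm S) (hF : OpS F) : CodeF L d F hF F where
  inn _ x := x
  out _ φ t := inst φ t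
  inn_sub _ _ _ := rfl
  out_sub _ _ _ _ := subst_inst _ _ _
  inn_ty _ h := h
  out_ty _ h ht := Ty.inst_srt h ht
  val_ty _ h ht := Ty.inst_srt ht h
  law _ _ _ := Iff.rfl

def Rep.code {d g : S} {I J : Inp Q} {val : I.α → J.α → Tm S} {G H : Tm S → Tm S}
    (R : Rep L d I J val G) (hG : Op Q d g G) (C : Code L g H) :
    Rep L d I J val fun X => H (G X) where
  inn X i := C.inn (G X) (R.inn X i)
  out X j t := C.out (G X) (R.body X j) t
  inn_sub σ X i := by rw [C.inn_sub, hG.sub]; simp only [R.inn_sub]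
  out_sub σ X j t := by rw [C.out_sub, hG.sub]; simp only [R.body_sub]
  inn_ty hX hi := C.inn_ty (hG.ty hX) (R.inn_ty hX hi)
  out_ty hX hj ht := C.out_ty (hG.ty hX) (R.body_ty hG hX hj) ht
  val_ty := R.val_ty
  law hX hi hj := by
    rw [C.law (hG.ty hX) (R.inn_ty hX hi) (R.body_ty hG hX hj), R.body_inst]
    exact R.law hX hi hj

def Rep.pf {d g : S} {I J : Inp Q} {val : I.α → J.α → Tm S} {G H : Tm S → Tm S}
    (R : Rep L d I J val G) (hG : Op Q d g G) (C : PF L g H) :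
    Rep L d J I (fun j i => val i j) fun X => H (G X) where
  inn X j := C.inn (G X) (R.body X j)
  out X i t := C.out (G X) (R.inn X i) t
  inn_sub σ X i := by rw [C.inn_sub, hG.sub]; simp only [R.body_sub]
  out_sub σ X j t := by rw [C.out_sub, hG.sub]; simp only [R.inn_sub]
  inn_ty hX hj := C.inn_ty (hG.ty hX) (R.body_ty hG hX hj)
  out_ty hX hi ht := C.out_ty (hG.ty hX) (R.inn_ty hX hi) ht
  val_ty hX hj hi := R.val_ty hX hi hj
  law hX hj hi := by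
    rw [C.law (hG.ty hX) (R.body_ty hG hX hj) (R.inn_ty hX hi), R.body_inst]
    exact R.law hX hi hj

/-! ### Kinds ending in a given sort -/

structure Chain (Q : Sig S) (k d : S) where
  κ : Tm S
  el : Tm S → Tm S
  cd : Tm S → Tm S
  ty : Ty Q [] κ (srt k)
  el_sub : OpS el
  cd_sub : OpS cd
  el_ty : ∀ {Γ z}, Ty Q Γ z κ → Ty Q Γ (el z) (srt d)
  cd_ty : ∀ {Γ X}, Ty Q Γ X (srt d) → Ty Q Γ (cd X) κ
  el_cd : ∀ X, Conv (el (cd X)) X

theorem exists_chain (L : Logic Q c₀) (hU : Usable Q.toPTS) {k d t : S} (h : Cod Q.rule k t)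
    (ha : Q.ax d t) : Nonempty (Chain Q k d) := by
  induction h with
  | refl s => exact ⟨⟨srt d, fun z => z, fun z => z, .ax ha, opS_id, opS_id, fun h => h,
      fun h => h, fun _ => .refl _⟩⟩
  | @step a b c t hr _ ih =>
    obtain ⟨C⟩ := ih ha
    obtain ⟨O, o, hO, ho⟩ := L.inh a (hU _ _ _ hr).1
    have hP : Ty Q [] (pi O C.κ) (srt c) := .pi hO (C.ty.of_closed hO.wf_cons) hr
    refine ⟨⟨pi O C.κ, fun z => C.el (app z o), fun X => lam O (lift (C.cd X)), hP, ?_, ?_,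
      ?_, ?_, ?_⟩⟩
    · intro σ z; simp [C.el_sub _ _, ho.closed]
    · intro σ z; simp [C.cd_sub _ _, hO.closed]
    · intro Γ z hz
      have := hz.app (ho.of_closed hz.wf)
      rw [inst, C.ty.closed] at this
      exact C.el_ty this
    · intro Γ X hX
      have := (C.cd_ty hX).wk (hO.of_closed hX.wf).wf_cons
      rw [lift, lift, C.ty.closed] at this
      exact .lam this (hP.of_closed hX.wf)
    · intro X
      exact (C.el_sub.conv (by simpa using Conv.beta O (lift (C.cd X)) o)).trans (C.el_cd X)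

theorem exists_cod (L : Logic Q c₀) (hU : Usable Q.toPTS) {a b c : S} (hr : Q.rule a b c) :
    ∃ H, Op Q b c H ∧ Nonempty (Code L b H) := by
  obtain ⟨O, o, hO, ho⟩ := L.inh a (hU _ _ _ hr).1
  have hH : Op Q b c fun Y => pi O (lift Y) := ⟨fun σ Y => by simp [hO.closed], fun hY =>
    .pi (hO.of_closed hY.wf) (hY.wk_srt (hO.of_closed hY.wf).wf_cons) hr⟩
  have happ : ∀ {Γ Y t}, Ty Q Γ t (pi O (lift Y)) → Ty Q Γ (app t o) Y := by
    intro Γ Y t ht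
    simpa using ht.app (ho.of_closed ht.wf)
  have hlam : ∀ {Γ Y x}, Ty Q Γ Y (srt b) → Ty Q Γ x Y →
      Ty Q Γ (lam O (lift x)) (pi O (lift Y)) := fun hY hx =>
    .lam (hx.wk (hO.of_closed hY.wf).wf_cons) (hH.ty hY)
  refine ⟨_, hH, ⟨⟨fun _ x => lam O (lift x), fun _ φ t => inst φ (app t o), ?_, ?_, hlam,
    fun _ hφ ht => Ty.inst_srt hφ (happ ht), fun _ hx hφ => Ty.inst_srt hφ hx, ?_⟩⟩⟩
  · intro σ Y x; simp [hO.closed]
  · intro σ Y φ t; simp [ho.closed]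
  · intro Γ Y x φ hY hx hφ
    exact L.conv_iff (Ty.inst_srt hφ (happ (hlam hY hx))) (Ty.inst_srt hφ hx)
      (Conv.inst (.refl _) (by simpa using Conv.beta O (lift x) o))

theorem exists_dom (L : Logic Q c₀) (hU : Usable Q.toPTS) {a b c : S}
    (hr : LRule Q.toPTS c₀ a b c) : ∃ H, Op Q a c H ∧ Nonempty (PF L a H) := by
  obtain ⟨hr, s, t, hs, ha, hc⟩ := hr
  obtain ⟨C⟩ := exists_chain L hU hc ha
  obtain ⟨T, T', s1, s2, t1, t2, hT⟩ := L.move s hs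
  have hH : Op Q a c fun Y => pi Y C.κ := ⟨fun σ Y => by simp [C.ty.closed], fun hY =>
    .pi hY (C.ty.of_closed hY.wf_cons) hr⟩
  have happ : ∀ {Γ Y p x}, Ty Q Γ p (pi Y C.κ) → Ty Q Γ x Y →
      Ty Q Γ (T' (C.el (app p x))) (srt c₀) := by
    intro Γ Y p x hp hx
    have := hp.app hx
    rw [inst, C.ty.closed] at this
    exact t2 _ _ (C.el_ty this)
  have hlam : ∀ {Γ Y φ}, Ty Q Γ Y (srt a) → Ty Q (Y :: Γ) φ (srt c₀) →
      Ty Q Γ (lam Y (C.cd (T φ))) (pi Y C.κ) := fun hY hφ =>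
    .lam (C.cd_ty (t1 _ _ hφ)) (hH.ty hY)
  refine ⟨_, hH, ⟨⟨fun Y φ => lam Y (C.cd (T φ)), fun _ x p => T' (C.el (app p x)), ?_, ?_, hlam,
    fun _ hx hp => happ hp hx, fun _ hφ hx => Ty.inst_srt hφ hx, ?_⟩⟩⟩
  · intro σ Y φ; simp [C.cd_sub _ _, s1]
  · intro σ Y x p; simp [C.el_sub _ _, s2]
  · intro Γ Y φ x hY hφ hx
    have h1 := Ty.inst_srt hφ hx
    rw [← hT _ _ h1]
    refine L.conv_iff (happ (hlam hY hφ) hx) (t2 _ _ (t1 _ _ h1)) (OpS.conv s2 ?_)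
    refine (C.el_sub.conv ?_).trans (C.el_cd _)
    simpa [C.cd_sub _ _, s1] using Conv.beta Y (C.cd (T φ)) x

theorem exists_path (L : Logic Q c₀) (hU : Usable Q.toPTS) {w g : S} {ε : Bool}
    (h : Path (LRule Q.toPTS c₀) w g ε) :
    ∃ T, Op Q g w T ∧ (ε = true → Nonempty (PF L g T)) ∧ (ε = false → Nonempty (Code L g T)) := by
  induction h with
  | refl s => exact ⟨_, Op.id s, by simp, fun _ => ⟨CodeF.id L s _ _⟩⟩
  | cod hr _ ih =>
    obtain ⟨T, h1, h2, h3⟩ := ih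
    obtain ⟨H, h4, ⟨C⟩⟩ := exists_cod L hU hr.1
    exact ⟨_, h4.comp h1, fun h => (h2 h).map fun R => R.code h1 C,
      fun h => (h3 h).map fun R => R.code h1 C⟩
  | dom hr _ ih =>
    obtain ⟨T, h1, h2, h3⟩ := ih
    obtain ⟨H, h4, ⟨C⟩⟩ := exists_dom L hU hr
    exact ⟨_, h4.comp h1, fun h => (h3 (by simpa using h)).map fun R => R.pf h1 C,
      fun h => (h2 (by simpa using h)).map fun R => R.pf h1 C⟩

/-! ### Quantifying over predicates -/

structure Qt {z : S} {H : Tm S → Tm S} (R : PF L z H) where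
  all : Tm S → Tm S → Tm S
  nm : Tm S → Tm S → Tm S
  NP : List (Tm S) → Tm S → Tm S → Prop
  all_sub : ∀ σ Z φ, subst σ (all Z φ) = all (subst σ Z) (subst (up σ) φ)
  nm_sub : ∀ σ Z p, subst σ (nm Z p) = nm (subst σ Z) (subst σ p)
  all_ty : ∀ {Γ Z φ}, Ty Q Γ Z (srt z) → Ty Q (H Z :: Γ) φ (srt c₀) → Ty Q Γ (all Z φ) (srt c₀)
  np_ty : ∀ {Γ Z p}, Ty Q Γ Z (srt z) → NP Γ Z p → Ty Q Γ p (H Z)
  np_sub : ∀ {Γ Δ σ Z p}, NP Γ Z p → Sub Q Δ σ Γ → NP Δ (subst σ Z) (subst σ p)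
  np_nm : ∀ {Γ Z p}, Ty Q Γ Z (srt z) → Ty Q Γ p (H Z) → NP Γ Z (nm Z p)
  tr_all : ∀ {Γ Z φ}, Ty Q Γ Z (srt z) → Ty Q (H Z :: Γ) φ (srt c₀) → (L.Tr Γ (all Z φ) ↔
    ∀ Δ σ p, Sub Q Δ σ Γ → NP Δ (subst σ Z) p → L.Tr Δ (subst (scons p σ) φ))
  law : ∀ {Γ Z p x}, Ty Q Γ Z (srt z) → Ty Q Γ p (H Z) → Ty Q Γ x Z →
    (L.Tr Γ (R.out Z x (nm Z p)) ↔ L.Tr Γ (R.out Z x p))

theorem exists_qt {z y q : S} {H T : Tm S → Tm S} (R : PF L z H) (hH : Op Q z y H)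
    (C : Code L y T) (hT : Op Q y q T) (hq : Quantif Q.toPTS c₀ q) : Nonempty (Qt R) := by
  let e : Tm S → Tm S → Tm S := fun Z t =>
    R.inn Z (C.out (H (lift Z)) (R.body (lift Z) (var 0)) (lift t))
  have e_sub : ∀ σ Z t, subst σ (e Z t) = e (subst σ Z) (subst σ t) := by
    intro σ Z t
    simp [e, R.inn_sub, C.out_sub, R.body_sub, hH.sub _ _]
  have b_ty : ∀ {Γ Z t}, Ty Q Γ Z (srt z) → Ty Q Γ t (T (H Z)) → Ty Q (Z :: Γ)
      (C.out (H (lift Z)) (R.body (lift Z) (var 0)) (lift t)) (srt c₀) := by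
    intro Γ Z t hZ ht
    have hw := hZ.wf_cons
    refine C.out_ty (hH.ty (hZ.wk_srt hw)) (R.body_ty hH (hZ.wk_srt hw) hw.var0) ?_
    simpa [hT.sub _ _, hH.sub _ _] using ht.wk hw
  have e_ty : ∀ {Γ Z t}, Ty Q Γ Z (srt z) → Ty Q Γ t (T (H Z)) → Ty Q Γ (e Z t) (H Z) :=
    fun hZ ht => R.inn_ty hZ (b_ty hZ ht)
  have a_ty : ∀ {Γ Z φ}, Ty Q Γ Z (srt z) → Ty Q (H Z :: Γ) φ (srt c₀) →
      Ty Q (T (H Z) :: Γ) (subst (scons (e (lift Z) (var 0)) shift) φ) (srt c₀) := by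
    intro Γ Z φ hZ hφ
    have hw := (hT.ty (hH.ty hZ)).wf_cons
    refine hφ.subst_srt (hw.sub_shift.cons ?_)
    rw [hH.sub]
    exact e_ty (hZ.wk_srt hw) (by simpa [hT.sub _ _, hH.sub _ _] using hw.var0)
  refine ⟨⟨fun Z φ => L.all q (T (H Z)) (subst (scons (e (lift Z) (var 0)) shift) φ),
    fun Z p => e Z (C.inn (H Z) p), fun Γ Z p => ∃ t, Ty Q Γ t (T (H Z)) ∧ p = e Z t,
    ?_, ?_, fun hZ hφ => L.all_ty hq (hT.ty (hH.ty hZ)) (a_ty hZ hφ), ?_, ?_,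
    fun hZ hp => ⟨_, C.inn_ty (hH.ty hZ) hp, rfl⟩, ?_, ?_⟩⟩
  · intro σ Z φ
    simp [L.all_sub, e_sub, hT.sub _ _, hH.sub _ _]
  · intro σ Z p
    simp [e_sub, C.inn_sub, hH.sub _ _]
  · rintro Γ Z p hZ ⟨t, ht, rfl⟩
    exact e_ty hZ ht
  · rintro Γ Δ σ Z p ⟨t, ht, rfl⟩ hs
    exact ⟨_, by simpa [hT.sub _ _, hH.sub _ _] using ht.subst hs, e_sub _ _ _⟩
  · intro Γ Z φ hZ hφ
    rw [L.tr_all hq (hT.ty (hH.ty hZ)) (a_ty hZ hφ)]
    simp only [hT.sub _ _, hH.sub _ _, subst_subst, comp_scons, e_sub, shift_scons, subst_var,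
      scons_zero]
    exact ⟨fun h Δ σ p hs ⟨t, ht, hp⟩ => hp ▸ h Δ σ t hs ht, fun h Δ σ t hs ht =>
      h Δ σ _ hs ⟨t, ht, rfl⟩⟩
  · intro Γ Z p x hZ hp hx
    rw [R.law hZ (b_ty hZ (C.inn_ty (hH.ty hZ) hp)) hx]
    have : inst (C.out (H (lift Z)) (R.body (lift Z) (var 0)) (lift (C.inn (H Z) p))) x =
        C.out (H Z) (R.body Z x) (C.inn (H Z) p) := by
      simp [C.out_sub, R.body_sub, hH.sub _ _]
    rw [this, C.law (hH.ty hZ) hp (R.body_ty hH hZ hx), R.body_inst]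

end Tm

end Vale.Agent.P340
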