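import Vale.Agent.P340.Graph

/-! Classical logic inside a strongly connected component with a binary rule and an odd cycle. -/

namespace Vale.Agent.P340

universe u

namespace Tm

variable {S : Type u}

namespace LogicAux

/-- Inhabited closed types. -/
inductive OT (P : PTS S) : S → Tm S → Prop
  | base {s t : S} : P.ax s t ∨ P.ax t s → OT P s (con 0 (srt s))
  | pi {a b c : S} {O O' : Tm S} : P.rule a b c → OT P a O → OT P b O' → OT P c (pi O O')

/-- Answer types. -/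
inductive RT (P : PTS S) : S → Tm S → Prop
  | base {s t : S} : P.ax s t ∨ P.ax t s → RT P s (con 1 (srt s))
  | pi {a b c : S} {O R : Tm S} : P.rule a b c → OT P a O → RT P b R → RT P c (pi O R)

/-- The allowed constants. -/
def KK (P : PTS S) (_ : ℕ) (A : Tm S) : Prop :=
  (∃ s, A = srt s) ∨ (∃ s, OT P s A) ∨ ∃ a b R R', RT P a R ∧ RT P b R' ∧ A = Tm.pi R R'

abbrev Q2 (P : PTS S) : Sig S := ⟨P, KK P⟩

variable {P : PTS S} {G D : List (Tm S)} {s t a b c c₀ : S} {O R A B f g m : Tm S}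
  {σ : ℕ → Tm S}

theorem base_ty (n : ℕ) (h : P.ax s t ∨ P.ax t s) : Ty (Q2 P) [] (con n (srt s)) (srt s) := by
  rcases h with h | h
  · exact .con (.inl ⟨s, rfl⟩) (.ax h)
  · exact .conO (.inl ⟨s, rfl⟩) h

theorem OT.ty (h : OT P s O) : Ty (Q2 P) [] O (srt s) := by
  induction h with
  | base h => exact base_ty 0 h
  | pi hr _ _ ih ih' => exact .pi ih (ih'.of_closed ih.wf_cons) hr

theorem RT.ty (h : RT P s R) : Ty (Q2 P) [] R (srt s) := by
  induction h with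
  | base h => exact base_ty 1 h
  | pi hr hO _ ih => exact .pi hO.ty (ih.of_closed hO.ty.wf_cons) hr

theorem OT.sub (h : OT P s O) (σ : ℕ → Tm S) : subst σ O = O := h.ty.closed σ

theorem RT.sub (h : RT P s R) (σ : ℕ → Tm S) : subst σ R = R := h.ty.closed σ

theorem OT.normal (h : OT P s O) : Normal O := by
  induction h with
  | base => exact normal_con _ _
  | pi _ _ _ ih ih' => exact normal_pi.2 ⟨ih, ih'⟩

theorem RT.normal (h : RT P s R) : Normal R := by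
  induction h with
  | base => exact normal_con _ _
  | pi _ hO _ ih => exact normal_pi.2 ⟨hO.normal, ih⟩

theorem OT.inh (h : OT P s O) : Ty (Q2 P) [] (con 0 O) O := .con (.inr (.inl ⟨s, h⟩)) h.ty

theorem OT.not_RT (h : OT P s A) (h' : RT P t A) : False := by
  induction h generalizing t with
  | base => cases h'
  | pi _ _ _ _ ih => cases h' with | pi _ _ h' => exact ih h'

theorem exists_OT (h : Gen P s) : ∃ O, OT P s O := by
  induction h with
  | src h => exact ⟨_, .base (.inl h)⟩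
  | tgt h => exact ⟨_, .base (.inr h)⟩
  | rule hr _ _ ih ih' =>
    obtain ⟨O, hO⟩ := ih
    obtain ⟨O', hO'⟩ := ih'
    exact ⟨_, .pi hr hO hO'⟩

theorem exists_RT (h : Gen P s) : ∃ R, RT P s R := by
  induction h with
  | src h => exact ⟨_, .base (.inl h)⟩
  | tgt h => exact ⟨_, .base (.inr h)⟩
  | rule hr ha _ _ ih' =>
    obtain ⟨O, hO⟩ := exists_OT ha
    obtain ⟨R, hR⟩ := ih'
    exact ⟨_, .pi hr hO hR⟩

/-! ### Consistency -/

def OCtx (P : PTS S) (G : List (Tm S)) : Prop := ∀ A ∈ G, ∃ s, OT P s A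

theorem OCtx.look {n : ℕ} (hG : OCtx P G) (h : Look G n A) : ∃ s, OT P s A := by
  induction h with
  | zero A Γ =>
    obtain ⟨s, hs⟩ := hG A (by simp)
    exact ⟨s, by rwa [lift, hs.sub]⟩
  | succ B _ ih =>
    obtain ⟨s, hs⟩ := ih fun A hA => hG A (by simp [hA])
    exact ⟨s, by rwa [lift, hs.sub]⟩

def Shape (P : PTS S) (T : Tm S) : Prop :=
  (∃ s, Conv T (srt s)) ∨ (∃ s O, OT P s O ∧ Conv T O) ∨
    ∃ a b R R', RT P a R ∧ RT P b R' ∧ Conv T (Tm.pi R R')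

def NotR (P : PTS S) (T : Tm S) : Prop := ∀ s R, RT P s R → ¬ Conv T R

theorem Shape.notR {T : Tm S} (h : Shape P T) : NotR P T := by
  intro s R hR hc
  rcases h with ⟨t, h⟩ | ⟨t, O, hO, h⟩ | ⟨a, b, R1, R2, h1, h2, h⟩
  · have := (hc.symm.trans h).normal_eq hR.normal (normal_srt t)
    cases hR <;> cases this
  · obtain rfl := (hc.symm.trans h).normal_eq hR.normal hO.normal
    exact hO.not_RT hR
  · obtain rfl := (hc.symm.trans h).normal_eq hR.normal (normal_pi.2 ⟨h1.normal, h2.normal⟩)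
    cases hR with | pi _ hO _ => exact hO.not_RT h1

theorem key (m : Tm S) : ∀ {G : List (Tm S)} {T : Tm S}, OCtx P G → Normal m →
    Ty (Q2 P) G m T → ((∀ A B, m ≠ lam A B) → Shape P T) ∧ NotR P T := by
  have aux : ∀ {m T : Tm S}, Shape P T → ((∀ A B, m ≠ lam A B) → Shape P T) ∧ NotR P T :=
    fun h => ⟨fun _ => h, h.notR⟩
  induction m with
  | var n =>
    intro G T hG _ h
    obtain ⟨A, h1, h2⟩ := h.gen_var
    obtain ⟨s, hs⟩ := hG.look h1
    exact aux (.inr (.inl ⟨s, A, hs, h2⟩))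
  | srt s =>
    intro G T _ _ h
    obtain ⟨t, -, h2⟩ := h.gen_srt
    exact aux (.inl ⟨t, h2⟩)
  | pi A B =>
    intro G T _ _ h
    obtain ⟨a, b, c, -, -, -, h2⟩ := h.gen_pi
    exact aux (.inl ⟨c, h2⟩)
  | con n A =>
    intro G T _ _ h
    obtain ⟨h1, h2, -⟩ := h.gen_con
    rcases h1 with ⟨s, rfl⟩ | ⟨s, hs⟩ | ⟨a, b, R, R', h3, h4, rfl⟩
    · exact aux (.inl ⟨s, h2⟩)
    · exact aux (.inr (.inl ⟨s, A, hs, h2⟩))
    · exact aux (.inr (.inr ⟨a, b, R, R', h3, h4, h2⟩))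
  | app M N ihM ihN =>
    intro G T hG hn h
    obtain ⟨hM, hN, hl⟩ := normal_app.1 hn
    obtain ⟨A, B, h1, h2, h3⟩ := h.gen_app
    refine aux ?_
    rcases (ihM hG hM h1).1 hl with ⟨t, h⟩ | ⟨t, O, hO, h⟩ | ⟨a, b, R1, R2, h4, h5, h⟩
    · exact (not_conv_pi_srt h).elim
    · cases hO with
      | base => exact ((CHd.con _ _).not_conv_pi h.symm).elim
      | pi _ _ hO' =>
        refine .inr (.inl ⟨_, _, hO', h3.trans ?_⟩)
        have := Conv.inst h.pi_inj.2 (.refl N)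
        rwa [inst, inst, hO'.sub] at this
    · exact ((ihN hG hN h2).2 _ _ h4 h.pi_inj.1).elim
  | lam A M _ ihM =>
    intro G T hG hn h
    refine ⟨fun h' => (h' _ _ rfl).elim, fun s R hR hc => ?_⟩
    obtain ⟨B, t, h1, h2, h3⟩ := h.gen_lam
    have h4 := h3.symm.trans hc
    cases hR with
    | base => exact (CHd.con _ _).not_conv_pi h4.symm
    | @pi a b c O R' _ hO hR' =>
      have hG' : OCtx P (O :: G) := by
        intro X hX
        rcases List.mem_cons.1 hX with rfl | hX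
        · exact ⟨a, hO⟩
        · exact hG X hX
      have h5 := h1.ctx_conv (hO.ty.of_closed h.wf).wf_cons h4.pi_inj.1
      exact (ihM hG' (normal_lam.1 hn).2 h5).2 _ _ hR' h4.pi_inj.2

/-! ### Proofs, refutations and commands -/

def Prf (P : PTS S) (G : List (Tm S)) (A : Tm S) : Prop := ∃ m, Ty (Q2 P) G m A

def InhR (P : PTS S) (G : List (Tm S)) (s : S) : Prop := ∃ R, RT P s R ∧ Prf P G R

def Ref (P : PTS S) (c₀ : S) (G : List (Tm S)) (f : Tm S) : Prop := InhR P (f :: G) c₀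

def Tr (P : PTS S) (c₀ : S) (G : List (Tm S)) (f : Tm S) : Prop :=
  ∀ D σ, Sub (Q2 P) D σ G → Ref P c₀ D (subst σ f) → InhR P D c₀

theorem Prf.sub (h : Prf P G A) (hs : Sub (Q2 P) D σ G) : Prf P D (subst σ A) := by
  obtain ⟨m, hm⟩ := h
  exact ⟨_, hm.subst hs⟩

theorem InhR.sub (h : InhR P G s) (hs : Sub (Q2 P) D σ G) : InhR P D s := by
  obtain ⟨R, hR, h⟩ := h
  exact ⟨R, hR, by simpa only [hR.sub] using h.sub hs⟩

theorem InhR.wf (h : InhR P G s) : Wf (Q2 P) G := by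
  obtain ⟨R, -, m, h⟩ := h
  exact h.wf

theorem Ref.sub (h : Ref P c₀ G f) (hs : Sub (Q2 P) D σ G) : Ref P c₀ D (subst σ f) :=
  InhR.sub h (hs.upw (InhR.wf h))

theorem Tr.sub (h : Tr P c₀ G f) (hs : Sub (Q2 P) D σ G) : Tr P c₀ D (subst σ f) :=
  fun D' τ hτ hr => h D' _ (hs.comp hτ) (by simpa using hr)

theorem Prf.cut (h : Prf P G f) (h' : Ref P c₀ G f) : InhR P G c₀ := by
  obtain ⟨m, hm⟩ := h
  exact InhR.sub h' hm.sub_inst

theorem Prf.tr (h : Prf P G f) : Tr P c₀ G f := fun _ _ hs hr => (h.sub hs).cut hr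

theorem Tr.cut (h : Tr P c₀ G f) (h' : Ref P c₀ G f) : InhR P G c₀ :=
  h G var (InhR.wf h').tail.sub_id (by simpa using h')

theorem prf_var (h : Wf (Q2 P) (f :: G)) : Prf P (f :: G) (lift f) := ⟨_, h.var0⟩

theorem Prf.lam (h : Prf P (A :: G) B) (h' : Ty (Q2 P) G (Tm.pi A B) (srt s)) :
    Prf P G (Tm.pi A B) := by
  obtain ⟨m, hm⟩ := h
  exact ⟨_, .lam hm h'⟩

theorem Ref.pi (h : Ty (Q2 P) G (Tm.pi A B) (srt s)) (hm : Ty (Q2 P) G m A)
    (hr : Ref P c₀ G (inst B m)) : Ref P c₀ G (Tm.pi A B) := by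
  have hw := h.wf_cons
  have h1 : Ty (Q2 P) (Tm.pi A B :: G) (var 0) (Tm.pi (lift A) (subst (up shift) B)) := hw.var0
  have h2 := Ty.app h1 (hm.wk hw)
  rw [← subst_inst] at h2
  exact Prf.cut ⟨_, h2⟩ (hr.sub hw.sub_shift)

theorem Tr.pi_elim (h : Ty (Q2 P) G (Tm.pi A B) (srt s)) (hm : Ty (Q2 P) G m A)
    (ht : Tr P c₀ G (Tm.pi A B)) : Tr P c₀ G (inst B m) := fun D σ hs hr =>
  ht D σ hs (Ref.pi (h.subst_srt hs) (hm.subst hs) (by rwa [← subst_inst]))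

theorem Tr.bind (hw : Wf (Q2 P) (f :: G)) (h : Tr P c₀ G f) (h' : Tr P c₀ (f :: G) (lift g)) :
    Tr P c₀ G g := fun D σ hs hr => by
  refine h D σ hs (h' _ _ (hs.upw hw) ?_)
  rw [subst_lift]
  exact hr.sub (hs.upw hw).wf.sub_shift

theorem ref_iff (hw : Wf (Q2 P) (f :: G)) : Ref P c₀ G f ↔
    ∀ D σ, Sub (Q2 P) D σ G → Tr P c₀ D (subst σ f) → InhR P D c₀ :=
  ⟨fun h _ _ hs ht => ht.cut (h.sub hs), fun h => h _ _ hw.sub_shift (prf_var hw).tr⟩

section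

variable (hU : Usable P)

include hU

theorem InhR.cod (hr : P.rule a b c) (h : InhR P G b) : InhR P G c := by
  obtain ⟨O, hO⟩ := exists_OT (hU a b c hr).1
  have hw := h.wf
  obtain ⟨R, hR, h⟩ := h
  refine ⟨_, .pi hr hO hR, Prf.lam ?_ ((RT.pi hr hO hR).ty.of_closed hw)⟩
  simpa only [hR.sub] using h.sub (hO.ty.of_closed hw).wf_cons.sub_shift

omit hU in
theorem InhR.out (hr : P.rule a b c) (h : InhR P G a) (hR : RT P b R) : Prf P G R := by
  obtain ⟨R', hR', m, hm⟩ := h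
  have h1 : Ty (Q2 P) [] (Tm.pi R' R) (srt c) := .pi hR'.ty (hR.ty.of_closed hR'.ty.wf_cons) hr
  have h2 : Ty (Q2 P) [] (con 0 (Tm.pi R' R)) (Tm.pi R' R) :=
    .con (.inr (.inr ⟨a, b, R', R, hR', hR, rfl⟩)) h1
  have h3 := Ty.app (h2.of_closed hm.wf) hm
  rw [inst, hR.sub] at h3
  exact ⟨_, h3⟩

theorem InhR.back (hp : Reach P.rule s t) (h : InhR P G t) : InhR P G s := by
  obtain ⟨ε, hp⟩ := hp
  induction hp with
  | refl => exact h
  | cod hr _ ih => exact (ih h).cod hU hr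
  | @dom a b c t ε hr _ ih =>
    obtain ⟨R, hR⟩ := exists_RT (hU a b c hr).2
    exact InhR.cod hU hr ⟨R, hR, (ih h).out hr hR⟩

theorem gen_of_reach (hp : Reach P.rule s t) (h : Gen P t) : Gen P s := by
  obtain ⟨ε, hp⟩ := hp
  cases hp with
  | refl => exact h
  | cod hr _ => exact .rule hr (hU _ _ _ hr).1 (hU _ _ _ hr).2
  | dom hr _ => exact .rule hr (hU _ _ _ hr).1 (hU _ _ _ hr).2

end

/-! ### Signed contexts -/

def PR (P : PTS S) (c₀ : S) : Bool → List (Tm S) → Tm S → Prop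
  | false, G, f => Prf P G f
  | true, G, f => Ref P c₀ G f

structure Sg (P : PTS S) (c₀ : S) (ε : Bool) (s t : S) (T : Tm S → Tm S) : Prop where
  sub : ∀ σ f, subst σ (T f) = T (subst σ f)
  ty : ∀ {G f}, Ty (Q2 P) G f (srt t) → Ty (Q2 P) G (T f) (srt s)
  prf : ∀ {G f}, Ty (Q2 P) G f (srt t) → PR P c₀ ε G f → Prf P G (T f)
  ref : ∀ {G f}, Ty (Q2 P) G f (srt t) → PR P c₀ (!ε) G f → Ref P c₀ G (T f)

theorem exists_Sg (hU : Usable P) {ε : Bool} (hp : Path P.rule s t ε) (h1 : Reach P.rule c₀ s)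
    (h2 : Reach P.rule t c₀) : ∃ T, Sg P c₀ ε s t T := by
  induction hp with
  | refl s => exact ⟨id, fun _ _ => rfl, id, fun _ h => h, fun _ h => h⟩
  | @cod a b c t ε hr _ ih =>
    obtain ⟨T, hT⟩ := ih (h1.trans (.cod hr)) h2
    obtain ⟨O, hO⟩ := exists_OT (hU a b c hr).1
    have hty : ∀ {G f}, Ty (Q2 P) G f (srt t) → Ty (Q2 P) G (Tm.pi O (lift (T f))) (srt c) :=
      fun h => .pi (hO.ty.of_closed h.wf)
        ((hT.ty h).wk_srt (hO.ty.of_closed h.wf).wf_cons) hr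
    refine ⟨fun f => Tm.pi O (lift (T f)), fun σ f => ?_, hty, fun h h' => ?_, fun h h' => ?_⟩
    · rw [subst_pi, hO.sub, subst_lift, hT.sub]
    · exact Prf.lam ((hT.prf h h').sub (hO.ty.of_closed h.wf).wf_cons.sub_shift) (hty h)
    · exact Ref.pi (hty h) (hO.inh.of_closed h.wf) (by simpa using hT.ref h h')
  | @dom a b c t ε hr hp ih =>
    obtain ⟨T, hT⟩ := ih (h1.trans (.dom hr)) h2
    obtain ⟨R, hR⟩ := exists_RT (hU a b c hr).2
    have hty : ∀ {G f}, Ty (Q2 P) G f (srt t) → Ty (Q2 P) G (Tm.pi (T f) R) (srt c) :=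
      fun h => .pi (hT.ty h) (hR.ty.of_closed (hT.ty h).wf_cons) hr
    refine ⟨fun f => Tm.pi (T f) R, fun σ f => ?_, hty, fun h h' => ?_, fun {G f} h h' => ?_⟩
    · rw [subst_pi, hR.sub, hT.sub]
    · exact Prf.lam ((InhR.back hU (Reach.trans ⟨_, hp⟩ h2) (hT.ref h h')).out hr hR) (hty h)
    · obtain ⟨m, hm⟩ := hT.prf h (by simpa using h')
      refine Ref.pi (hty h) hm ?_
      rw [inst, hR.sub]
      have h3 := prf_var (hR.ty.of_closed h.wf).wf_cons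
      rw [lift, hR.sub] at h3
      exact InhR.back hU h1 (InhR.cod hU hr ⟨R, hR, h3⟩)

theorem Sg.tr_even {T : Tm S → Tm S} (hT : Sg P c₀ false s t T) (h : Ty (Q2 P) G f (srt t)) :
    Tr P c₀ G (T f) ↔ Tr P c₀ G f := by
  constructor
  · intro ht D σ hs hr
    refine ht D σ hs ?_
    rw [hT.sub]
    exact hT.ref (h.subst_srt hs) hr
  · intro ht D σ hs hr
    refine ht D σ hs ?_
    have hw := (h.subst_srt hs).wf_cons
    have h1 := hT.prf ((h.subst_srt hs).wk_srt hw) (prf_var hw)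
    have h2 := hr.sub hw.sub_shift
    rw [hT.sub, hT.sub] at h2
    exact h1.cut h2

theorem Sg.tr_odd {T : Tm S → Tm S} (hT : Sg P c₀ true s t T) (h : Ty (Q2 P) G f (srt t)) :
    Tr P c₀ G (T f) ↔ Ref P c₀ G f := by
  refine ⟨fun ht => ?_, fun hr => (hT.prf h hr).tr⟩
  have hw := h.wf_cons
  refine ht _ _ hw.sub_shift ?_
  rw [hT.sub]
  exact hT.ref (h.wk_srt hw) (prf_var hw)

theorem Sg.tr_nn {N N' : Tm S → Tm S} (hN : Sg P c₀ true s t N) (hN' : Sg P c₀ true t a N')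
    (h : Ty (Q2 P) G f (srt a)) : Tr P c₀ G (N (N' f)) ↔ Tr P c₀ G f := by
  rw [hN.tr_odd (hN'.ty h), ref_iff (hN'.ty h).wf_cons]
  refine forall_congr' fun D => forall_congr' fun σ => forall_congr' fun hs => ?_
  rw [hN'.sub, hN'.tr_odd (h.subst_srt hs)]

/-- The universal quantifier. -/
theorem tr_all {T N N' : Tm S → Tm S} {q : S} {κ : Tm S} (hr : P.rule q b c)
    (hT : Sg P c₀ false c₀ c T) (hN : Sg P c₀ true b c₀ N) (hN' : Sg P c₀ true c₀ c₀ N')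
    (hκ : Ty (Q2 P) G κ (srt q)) (h : Ty (Q2 P) (κ :: G) f (srt c₀)) :
    Tr P c₀ G (T (Tm.pi κ (N (N' f)))) ↔ ∀ D σ m, Sub (Q2 P) D σ G →
      Ty (Q2 P) D m (subst σ κ) → Tr P c₀ D (subst (scons m σ) f) := by
  have hp : Ty (Q2 P) G (Tm.pi κ (N (N' f))) (srt c) := .pi hκ (hN.ty (hN'.ty h)) hr
  rw [hT.tr_even hp]
  constructor
  · intro ht D σ m hs hm
    have h1 := Tr.pi_elim (hp.subst_srt hs) hm (ht.sub hs)
    rw [inst, subst_subst, up_scons, comp_var, hN.sub, hN'.sub] at h1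
    exact (hN.tr_nn hN' (h.subst_srt (hs.cons hm))).1 h1
  · intro ht
    have h1 := ht _ _ _ hκ.wf_cons.sub_shift hκ.wf_cons.var0
    rw [scons_shift, subst_id, ← hN.tr_nn hN' h, hN.tr_odd (hN'.ty h)] at h1
    exact (Prf.lam (hN.prf (hN'.ty h) h1) hp).tr

end LogicAux

open LogicAux

theorem exists_logic {Q : Sig S} {c₀ : S} (hU : Usable Q.toPTS) (hF : Full Q) (hW : WN Q)
    (hC : Classic Q.toPTS c₀) :
    ∃ K : ℕ → Tm S → Prop, Nonempty (Logic ⟨Q.toPTS, K⟩ c₀) := by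
  classical
  set P := Q.toPTS with hP
  have hW2 : WN (Q2 P) := fun G M A h =>
    hW G M A (Ty.mono (Q := Q2 P) (Q' := Q) (fun _ _ h => h) (fun _ _ _ h => h)
      (fun n A _ => hF n A) h)
  have hsg : ∀ s t, InC P c₀ s → InC P c₀ t → ∀ ε, ∃ T, Sg P c₀ ε s t T := fun s t hs ht ε =>
    exists_Sg hU (hC.par s t hs ht ε) hs.1 ht.2
  have h0 := InC.refl P c₀
  obtain ⟨N', hN'⟩ := hsg c₀ c₀ h0 h0 true
  have hq : ∀ q, ∃ T N : Tm S → Tm S, (∀ σ f, subst σ (T f) = T (subst σ f)) ∧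
      (∀ σ f, subst σ (N f) = N (subst σ f)) ∧ (Quantif P c₀ q → ∃ b c, P.rule q b c ∧
        Sg P c₀ false c₀ c T ∧ Sg P c₀ true b c₀ N) := fun q => by
    by_cases h : Quantif P c₀ q
    · obtain ⟨b, c, hb, hc, hr⟩ := h
      obtain ⟨T, hT⟩ := hsg c₀ c h0 hc false
      obtain ⟨N, hN⟩ := hsg b c₀ hb h0 true
      exact ⟨T, N, hT.sub, hN.sub, fun _ => ⟨b, c, hr, hT, hN⟩⟩
    · exact ⟨id, id, fun _ _ => rfl, fun _ _ => rfl, fun h' => (h h').elim⟩
  choose T N hTs hNs hTN using hq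
  obtain ⟨a, b, c, ha, hb, hc, hr⟩ := hC.bin
  obtain ⟨Pa, hPa⟩ := hsg a c₀ ha h0 false
  have hqa : Quantif P c₀ a := ⟨b, c, hb, hc, hr⟩
  obtain ⟨O, hO⟩ := exists_OT (gen_of_reach hU ha.1 (hU a b c hr).1)
  let all : S → Tm S → Tm S → Tm S := fun q κ f => T q (Tm.pi κ (N q (N' f)))
  have all_sub : ∀ q σ κ φ, subst σ (all q κ φ) = all q (subst σ κ) (subst (up σ) φ) :=
    fun q σ κ φ => by simp only [all]; rw [hTs, subst_pi, hNs, hN'.sub]
  have all_ty : ∀ {q Γ κ φ}, Quantif P c₀ q → Ty (Q2 P) Γ κ (srt q) →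
      Ty (Q2 P) (κ :: Γ) φ (srt c₀) → Ty (Q2 P) Γ (all q κ φ) (srt c₀) := fun {q _ _ _} h h1 h2 => by
    obtain ⟨b, c, hr, hT, hN⟩ := hTN q h
    exact hT.ty (.pi h1 (hN.ty (hN'.ty h2)) hr)
  have all_tr : ∀ {q Γ κ φ}, Quantif P c₀ q → Ty (Q2 P) Γ κ (srt q) →
      Ty (Q2 P) (κ :: Γ) φ (srt c₀) → (Tr P c₀ Γ (all q κ φ) ↔ ∀ Δ σ t, Sub (Q2 P) Δ σ Γ →
        Ty (Q2 P) Δ t (subst σ κ) → Tr P c₀ Δ (subst (scons t σ) φ)) := fun {q _ _ _} h h1 h2 => by
    obtain ⟨b, c, hr, hT, hN⟩ := hTN q h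
    exact tr_all hr hT hN hN' h1 h2
  refine ⟨KK P, ⟨{
    Cmd := fun G => InhR P G c₀
    Tr := Tr P c₀
    neg := N'
    imp := fun f g => all a (Pa f) (lift g)
    all := all
    top := O
    cons := ?_
    cmd_sub := InhR.sub
    tr_sub := Tr.sub
    tr_conv := fun h1 _ h3 ht D σ hs hr => ht D σ hs ?_
    raa := fun h1 h D σ hs hr => h D σ hs ((hN'.tr_odd (h1.subst_srt hs)).2 hr)
    neg_sub := hN'.sub
    neg_ty := hN'.ty
    tr_neg := fun h => (hN'.tr_odd h).trans (ref_iff h.wf_cons)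
    imp_sub := fun σ f g => by rw [all_sub, hPa.sub, subst_lift]
    imp_ty := fun h1 h2 => all_ty hqa (hPa.ty h1) (h2.wk_srt (hPa.ty h1).wf_cons)
    tr_imp := fun {G f g} h1 h2 => ?_
    all_sub := all_sub
    all_ty := all_ty
    tr_all := all_tr
    top_ty := hO.ty
    tr_top := fun h => Prf.tr ⟨_, hO.inh.of_closed h⟩
    inh := fun s hs => ?_
    move := fun s hs => ?_ }⟩⟩
  · rintro ⟨R, hR, m, hm⟩
    exact (key (nf m) (fun _ h => by simp at h) (nf_normal m) (hm.nf hW2)).2 _ _ hR (.refl _)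
  · obtain ⟨R, hR, m, hm⟩ := hr
    exact ⟨R, hR, m, hm.ctx_conv (h1.subst_srt hs).wf_cons (h3.symm.subst σ)⟩
  · rw [all_tr hqa (hPa.ty h1) (h2.wk_srt (hPa.ty h1).wf_cons)]
    constructor
    · intro h D σ hs ht
      have h3 := h1.subst_srt hs
      have hw := (hPa.ty h3).wf_cons
      refine Tr.bind hw ((hPa.tr_even h3).2 ht) ?_
      have h4 := h _ _ (var 0) (hs.wk hw) (by simpa [hPa.sub] using hw.var0)
      simpa using h4
    · intro h D σ m hs hm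
      rw [hPa.sub] at hm
      have h4 := h D σ hs ((hPa.tr_even (h1.subst_srt hs)).1 (Prf.tr ⟨m, hm⟩))
      simpa using h4
  · obtain ⟨O', hO'⟩ := exists_OT hs
    exact ⟨O', _, hO'.ty, hO'.inh⟩
  · obtain ⟨T1, hT1⟩ := hsg s c₀ hs h0 false
    obtain ⟨T2, hT2⟩ := hsg c₀ s h0 hs false
    exact ⟨T1, T2, hT1.sub, hT2.sub, fun _ _ => hT1.ty, fun _ _ => hT2.ty,
      fun _ _ h => (hT2.tr_even (hT1.ty h)).trans (hT1.tr_even h)⟩

end Tm

end Vale.Agent.P340
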