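import Vale.Agent.P340.Transfer
import Vale.Agent.P340.Logic
import Vale.Agent.P340.CaseI
import Vale.Agent.P340.CaseII
import Vale.Agent.P340.Extract
import Vale.Agent.P340.Hurkens

/-! The Barendregt-Geuvers-Klop conjecture. -/

namespace Vale.Agent.P340

universe u

variable {S : Type u}

theorem all_safe (Q : Sig S) (hF : Full Q) (hfin : FinRules Q.rule) (hU : Usable Q.toPTS)
    (hW : Tm.WN Q) (c₀ : S) : Tm.SafeSort Q c₀ := by
  induction c₀ using hfin.wf.induction with
  | _ c₀ ih =>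
    have hL : Tm.Low Q c₀ := by
      intro s hs
      by_cases h : Reach Q.rule s c₀
      · exact .inl ⟨hs, h⟩
      · exact .inr (ih s ⟨hs, h⟩)
    by_cases h1 : Unary Q.toPTS c₀
    · exact Tm.caseI hF hW hL (fun _ => true) (.inl ⟨h1, fun _ => rfl⟩)
    by_cases h2 : ∃ col, Colouring Q.toPTS c₀ col
    · obtain ⟨col, h2⟩ := h2
      exact Tm.caseI hF hW hL col (.inr h2)
    by_cases h3 : Tm.HypII Q c₀
    · exact Tm.caseII hF hW hL h3
    obtain ⟨K, ⟨L⟩⟩ := Tm.exists_logic hU hF hW (classical_of h1 h2)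
    exact (Tm.no_impred L hU (Tm.impred_of (Q := Q) hW hfin h3)).elim

theorem bgk (P : PTS S) (h : WeaklyNormalizing P) : StronglyNormalizing P :=
  transfer (fun Q hF hfin hU hW _ _ _ hM => Tm.sn_of_safe hF (all_safe Q hF hfin hU hW) hM) P h

end Vale.Agent.P340
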