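import Vale.Agent.P340.Kinds

/-! Changing the parity of a code, and coding pairs. -/

namespace Vale.Agent.P340

universe u

namespace Tm

variable {S : Type u} {Q : Sig S} {c₀ : S} {L : Logic Q c₀}

theorem Logic.imp_elim (L : Logic Q c₀) {Γ : List (Tm S)} {φ ψ : Tm S} (h1 : Ty Q Γ φ (srt c₀))
    (h2 : Ty Q Γ ψ (srt c₀)) (h : L.Tr Γ (L.imp φ ψ)) (h' : L.Tr Γ φ) : L.Tr Γ ψ := by
  simpa using (L.tr_imp h1 h2).1 h Γ var h1.wf.sub_id (by simpa using h')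

theorem Logic.neg_elim (L : Logic Q c₀) {Γ : List (Tm S)} {φ : Tm S} (h1 : Ty Q Γ φ (srt c₀))
    (h : L.Tr Γ (L.neg φ)) (h' : L.Tr Γ φ) : L.Cmd Γ :=
  (L.tr_neg h1).1 h Γ var h1.wf.sub_id (by simpa using h')

theorem Logic.cmd_tr (L : Logic Q c₀) {Γ : List (Tm S)} {φ : Tm S} (h1 : Ty Q Γ φ (srt c₀))
    (h : L.Cmd Γ) : L.Tr Γ φ := L.raa h1 fun _ _ hs _ => L.cmd_sub h hs

theorem Logic.neg_neg (L : Logic Q c₀) {Γ : List (Tm S)} {φ : Tm S} (h1 : Ty Q Γ φ (srt c₀)) :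
    L.Tr Γ (L.neg (L.neg φ)) ↔ L.Tr Γ φ := by
  rw [L.tr_neg (L.neg_ty h1)]
  simp only [L.neg_sub]
  exact ⟨L.raa h1, fun h Δ σ hs hn => L.neg_elim (h1.subst_srt hs) hn (L.tr_sub h hs)⟩

theorem Qt.tr_all_imp {z : S} {H : Tm S → Tm S} {R : PF L z H} (q : Qt R) (hH : OpS H)
    {Γ : List (Tm S)} {Z φ ψ : Tm S} (hZ : Ty Q Γ Z (srt z)) (hφ : Ty Q (H Z :: Γ) φ (srt c₀))
    (hψ : Ty Q (H Z :: Γ) ψ (srt c₀)) : L.Tr Γ (q.all Z (L.imp φ ψ)) ↔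
      ∀ Δ σ p, Sub Q Δ σ Γ → q.NP Δ (subst σ Z) p → L.Tr Δ (subst (scons p σ) φ) →
        L.Tr Δ (subst (scons p σ) ψ) := by
  rw [q.tr_all hZ (L.imp_ty hφ hψ)]
  simp only [L.imp_sub]
  refine ⟨fun h Δ σ p hs hp => ?_, fun h Δ σ p hs hp => ?_⟩
  · have := hs.cons (A := H Z) (hH _ _ ▸ q.np_ty (hZ.subst_srt hs) hp)
    exact L.imp_elim (hφ.subst_srt this) (hψ.subst_srt this) (h Δ σ p hs hp)
  · have := hs.cons (A := H Z) (hH _ _ ▸ q.np_ty (hZ.subst_srt hs) hp)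
    rw [L.tr_imp (hφ.subst_srt this) (hψ.subst_srt this)]
    intro Δ' σ' hs'
    simpa using h Δ' (comp σ σ') (subst σ' p) (hs.comp hs') (by simpa using q.np_sub hp hs')

theorem exists_flip {y₀ y₁ : S} {P₀ P₁ : Tm S → Tm S} (h₀ : Op Q y₀ y₁ P₀) (h₁ : Op Q y₁ y₀ P₁)
    (R₀ : PF L y₀ P₀) (R₁ : PF L y₁ P₁) (Q₀ : Qt R₀) (Q₁ : Qt R₁) :
    Nonempty (Code L y₀ fun Y => P₀ (P₁ (P₀ Y))) := by
  have s₀ := h₀.sub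
  have s₁ := h₁.sub
  unfold OpS at s₀ s₁
  let sup : Tm S → Tm S → Tm S → Tm S := fun Y x a =>
    Q₀.all Y (L.imp (R₀.body Y x) (R₁.out (P₀ (lift Y)) (var 0) (lift a)))
  have sup_sub : ∀ σ Y x a, subst σ (sup Y x a) = sup (subst σ Y) (subst σ x) (subst σ a) := by
    intro σ Y x a
    simp [sup, Q₀.all_sub, L.imp_sub, R₀.body_sub, R₁.out_sub, s₀]
  have t1 : ∀ {Γ Y a}, Ty Q Γ Y (srt y₀) → Ty Q Γ a (P₁ (P₀ Y)) →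
      Ty Q (P₀ Y :: Γ) (R₁.out (P₀ (lift Y)) (var 0) (lift a)) (srt c₀) := by
    intro Γ Y a hY ha
    have hw := (h₀.ty hY).wf_cons
    exact R₁.out_ty (h₀.ty (hY.wk_srt hw)) (by simpa [s₀] using hw.var0)
      (by simpa [s₀, s₁] using ha.wk hw)
  have sup_ty : ∀ {Γ Y x a}, Ty Q Γ Y (srt y₀) → Ty Q Γ x Y → Ty Q Γ a (P₁ (P₀ Y)) →
      Ty Q Γ (sup Y x a) (srt c₀) := fun hY hx ha =>
    Q₀.all_ty hY (L.imp_ty (R₀.body_ty h₀ hY hx) (t1 hY ha))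
  have tr_sup : ∀ {Γ Y x a}, Ty Q Γ Y (srt y₀) → Ty Q Γ x Y → Ty Q Γ a (P₁ (P₀ Y)) →
      (L.Tr Γ (sup Y x a) ↔ ∀ Δ σ p, Sub Q Δ σ Γ → Q₀.NP Δ (subst σ Y) p →
        L.Tr Δ (R₀.out (subst σ Y) (subst σ x) p) →
        L.Tr Δ (R₁.out (P₀ (subst σ Y)) p (subst σ a))) := by
    intro Γ Y x a hY hx ha
    rw [Q₀.tr_all_imp h₀.sub hY (R₀.body_ty h₀ hY hx) (t1 hY ha)]
    simp [Rep.body, R₀.out_sub, R₁.out_sub, s₀]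
  have b_ty : ∀ {Γ Y x}, Ty Q Γ Y (srt y₀) → Ty Q Γ x Y →
      Ty Q (P₁ (P₀ Y) :: Γ) (sup (lift Y) (lift x) (var 0)) (srt c₀) := by
    intro Γ Y x hY hx
    have hw := (h₁.ty (h₀.ty hY)).wf_cons
    exact sup_ty (hY.wk_srt hw) (hx.wk hw) (by simpa [s₀, s₁] using hw.var0)
  have t2 : ∀ {Γ Y w}, Ty Q Γ Y (srt y₀) → Ty Q Γ w (P₀ (P₁ (P₀ Y))) →
      Ty Q (P₁ (P₀ Y) :: Γ) (R₀.out (P₁ (P₀ (lift Y))) (var 0) (lift w)) (srt c₀) := by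
    intro Γ Y w hY ha
    have hw := (h₁.ty (h₀.ty hY)).wf_cons
    exact R₀.out_ty (h₁.ty (h₀.ty (hY.wk_srt hw))) (by simpa [s₀, s₁] using hw.var0)
      (by simpa [s₀, s₁] using ha.wk hw)
  have n_np : ∀ {Γ Y φ}, Ty Q Γ Y (srt y₀) → Ty Q (Y :: Γ) φ (srt c₀) →
      Q₀.NP Γ Y (Q₀.nm Y (R₀.inn Y φ)) := fun hY hφ => Q₀.np_nm hY (R₀.inn_ty hY hφ)
  have n_law : ∀ {Γ Y φ x}, Ty Q Γ Y (srt y₀) → Ty Q (Y :: Γ) φ (srt c₀) → Ty Q Γ x Y →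
      (L.Tr Γ (R₀.out Y x (Q₀.nm Y (R₀.inn Y φ))) ↔ L.Tr Γ (inst φ x)) := fun hY hφ hx =>
    (Q₀.law hY (R₀.inn_ty hY hφ) hx).trans (R₀.law hY hφ hx)
  have η_law : ∀ {Γ Y x p}, Ty Q Γ Y (srt y₀) → Ty Q Γ x Y → Ty Q Γ p (P₀ Y) →
      (L.Tr Γ (R₁.out (P₀ Y) p (Q₁.nm (P₀ Y) (R₁.inn (P₀ Y) (R₀.body Y x)))) ↔
        L.Tr Γ (R₀.out Y x p)) := by
    intro Γ Y x p hY hx hp
    rw [Q₁.law (h₀.ty hY) (R₁.inn_ty (h₀.ty hY) (R₀.body_ty h₀ hY hx)) hp,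
      R₁.law (h₀.ty hY) (R₀.body_ty h₀ hY hx) hp, R₀.body_inst]
  let ι : Tm S → Tm S → Tm S := fun Y x => R₀.inn (P₁ (P₀ Y)) (sup (lift Y) (lift x) (var 0))
  have ι_sub : ∀ σ Y x, subst σ (ι Y x) = ι (subst σ Y) (subst σ x) := by
    intro σ Y x
    simp [ι, R₀.inn_sub, sup_sub, s₀, s₁]
  have i_law : ∀ {Γ Y x a}, Ty Q Γ Y (srt y₀) → Ty Q Γ x Y → Ty Q Γ a (P₁ (P₀ Y)) →
      (L.Tr Γ (R₀.out (P₁ (P₀ Y)) a (ι Y x)) ↔ L.Tr Γ (sup Y x a)) := by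
    intro Γ Y x a hY hx ha
    rw [R₀.law (h₁.ty (h₀.ty hY)) (b_ty hY hx) ha]
    simp [sup_sub]
  have ι_ty : ∀ {Γ Y x}, Ty Q Γ Y (srt y₀) → Ty Q Γ x Y → Ty Q Γ (ι Y x) (P₀ (P₁ (P₀ Y))) :=
    fun hY hx => R₀.inn_ty (h₁.ty (h₀.ty hY)) (b_ty hY hx)
  refine ⟨⟨ι,
    fun Y φ w => Q₁.all (P₀ Y) (L.imp (R₀.out (P₁ (P₀ (lift Y))) (var 0) (lift w))
      (R₁.body (P₀ Y) (Q₀.nm Y (R₀.inn Y φ)))), ι_sub, ?_, ι_ty,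
    fun hY hφ hw => Q₁.all_ty (h₀.ty hY) (L.imp_ty (t2 hY hw)
      (R₁.body_ty h₁ (h₀.ty hY) (Q₀.np_ty hY (n_np hY hφ)))),
    fun _ hx hφ => Ty.inst_srt hφ hx, ?_⟩⟩
  · intro σ Y φ w
    simp [Q₁.all_sub, L.imp_sub, R₀.out_sub, R₁.body_sub, Q₀.nm_sub, R₀.inn_sub, s₀, s₁]
  · intro Γ Y x φ hY hx hφ
    rw [Q₁.tr_all_imp h₁.sub (h₀.ty hY) (t2 hY (ι_ty hY hx))
      (R₁.body_ty h₁ (h₀.ty hY) (Q₀.np_ty hY (n_np hY hφ)))]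
    simp only [Rep.body, R₀.out_sub, R₁.out_sub, s₀, s₁, subst_subst, shift_scons, subst_var,
      scons_zero, R₀.inn_sub, ι_sub, Q₀.nm_sub, up_up]
    constructor
    · intro h
      have ha := R₁.inn_ty (h₀.ty hY) (R₀.body_ty h₀ hY hx)
      have hn := Q₁.np_nm (h₀.ty hY) ha
      have h1 := h Γ var _ hY.wf.sub_id (by simpa using hn) (by
        simp only [subst_id]
        rw [i_law hY hx (Q₁.np_ty (h₀.ty hY) hn), tr_sup hY hx (Q₁.np_ty (h₀.ty hY) hn)]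
        intro Δ σ p hs hp h2
        simp only [Q₁.nm_sub, R₁.inn_sub, R₀.body_sub, s₀]
        exact (η_law (hY.subst_srt hs) (hx.subst hs) (Q₀.np_ty (hY.subst_srt hs) hp)).2 h2)
      simp only [subst_id, up_var] at h1
      rwa [η_law hY hx (Q₀.np_ty hY (n_np hY hφ)), n_law hY hφ hx] at h1
    · intro h Δ σ a hs ha h1
      have hY' := hY.subst_srt hs
      have hx' := hx.subst hs
      have hφ' := hφ.subst_srt (hs.up' hY)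
      have ha' := Q₁.np_ty (h₀.ty hY') ha
      rw [i_law hY' hx' ha', tr_sup hY' hx' ha'] at h1
      have := h1 Δ var _ hs.wf.sub_id (by simpa using n_np hY' hφ') (by
        simp only [subst_id]
        rw [n_law hY' hφ' hx', ← subst_inst]
        exact L.tr_sub h hs)
      simpa using this

theorem exists_pair {y₀ y₁ : S} {P₀ P₁ : Tm S → Tm S} (h₀ : Op Q y₀ y₁ P₀) (h₁ : Op Q y₁ y₀ P₁)
    (R₀ : PF L y₀ P₀) (R₁ : PF L y₁ P₁) :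
    ∃ (A : Rep L y₀ (Pt2 Q _ _ opS_id opS_id) (Bd Q c₀ _ opS_id) (fun p ψ => inst ψ p.1)
        fun Y => P₁ (P₀ (P₁ (P₀ Y))))
      (B : Rep L y₀ (Pt2 Q _ _ opS_id opS_id) (Bd Q c₀ _ opS_id) (fun p ψ => inst ψ p.2)
        fun Y => P₁ (P₀ (P₁ (P₀ Y)))), A.inn = B.inn := by
  have s₀ := h₀.sub
  have s₁ := h₁.sub
  unfold OpS at s₀ s₁
  have h₂ := h₁.comp h₀
  have top_sub : ∀ σ, subst σ L.top = L.top := L.top_ty.closed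
  -- the two injections
  let η : Tm S → Tm S → Tm S := fun Y x => R₁.inn (P₀ Y) (R₀.body Y x)
  let ν : Tm S → Tm S → Tm S := fun Y x => R₁.inn (P₀ Y) (L.neg (R₀.body Y x))
  have η_sub : ∀ σ Y x, subst σ (η Y x) = η (subst σ Y) (subst σ x) := by
    intro σ Y x; simp [η, R₁.inn_sub, R₀.body_sub, s₀]
  have ν_sub : ∀ σ Y x, subst σ (ν Y x) = ν (subst σ Y) (subst σ x) := by
    intro σ Y x; simp [ν, R₁.inn_sub, R₀.body_sub, s₀, L.neg_sub]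
  have η_ty : ∀ {Γ Y x}, Ty Q Γ Y (srt y₀) → Ty Q Γ x Y → Ty Q Γ (η Y x) (P₁ (P₀ Y)) :=
    fun hY hx => R₁.inn_ty (h₀.ty hY) (R₀.body_ty h₀ hY hx)
  have ν_ty : ∀ {Γ Y x}, Ty Q Γ Y (srt y₀) → Ty Q Γ x Y → Ty Q Γ (ν Y x) (P₁ (P₀ Y)) :=
    fun hY hx => R₁.inn_ty (h₀.ty hY) (L.neg_ty (R₀.body_ty h₀ hY hx))
  have η_law : ∀ {Γ Y x φ}, Ty Q Γ Y (srt y₀) → Ty Q Γ x Y → Ty Q (Y :: Γ) φ (srt c₀) →
      (L.Tr Γ (R₁.out (P₀ Y) (R₀.inn Y φ) (η Y x)) ↔ L.Tr Γ (inst φ x)) := by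
    intro Γ Y x φ hY hx hφ
    rw [R₁.law (h₀.ty hY) (R₀.body_ty h₀ hY hx) (R₀.inn_ty hY hφ), R₀.body_inst, R₀.law hY hφ hx]
  have ν_law : ∀ {Γ Y x φ}, Ty Q Γ Y (srt y₀) → Ty Q Γ x Y → Ty Q (Y :: Γ) φ (srt c₀) →
      (L.Tr Γ (R₁.out (P₀ Y) (R₀.inn Y φ) (ν Y x)) ↔ L.Tr Γ (L.neg (inst φ x))) := by
    intro Γ Y x φ hY hx hφ
    rw [R₁.law (h₀.ty hY) (L.neg_ty (R₀.body_ty h₀ hY hx)) (R₀.inn_ty hY hφ), inst, L.neg_sub,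
      ← inst, R₀.body_inst, L.tr_neg (R₀.out_ty hY hx (R₀.inn_ty hY hφ)),
      L.tr_neg (Ty.inst_srt hφ hx)]
    refine forall₃_congr fun Δ σ hs => ?_
    rw [R₀.out_sub, R₀.inn_sub,
      R₀.law (hY.subst_srt hs) (hφ.subst_srt (hs.up' hY)) (hx.subst hs), subst_inst]
  -- the tests
  let T : Tm S → Tm S → Tm S → Tm S := fun Y ψ χ => R₀.inn (P₁ (P₀ Y))
    (L.imp (R₁.body (P₀ Y) (R₀.inn Y ψ)) (R₁.body (P₀ Y) (R₀.inn Y χ)))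
  have T_sub : ∀ σ Y ψ χ, subst σ (T Y ψ χ) =
      T (subst σ Y) (subst (up σ) ψ) (subst (up σ) χ) := by
    intro σ Y ψ χ; simp [T, R₀.inn_sub, R₁.body_sub, s₀, s₁, L.imp_sub]
  have Tb_ty : ∀ {Γ Y ψ χ}, Ty Q Γ Y (srt y₀) → Ty Q (Y :: Γ) ψ (srt c₀) →
      Ty Q (Y :: Γ) χ (srt c₀) → Ty Q (P₁ (P₀ Y) :: Γ)
        (L.imp (R₁.body (P₀ Y) (R₀.inn Y ψ)) (R₁.body (P₀ Y) (R₀.inn Y χ))) (srt c₀) :=
    fun hY hψ hχ => L.imp_ty (R₁.body_ty h₁ (h₀.ty hY) (R₀.inn_ty hY hψ))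
      (R₁.body_ty h₁ (h₀.ty hY) (R₀.inn_ty hY hχ))
  have T_ty : ∀ {Γ Y ψ χ}, Ty Q Γ Y (srt y₀) → Ty Q (Y :: Γ) ψ (srt c₀) →
      Ty Q (Y :: Γ) χ (srt c₀) → Ty Q Γ (T Y ψ χ) (P₀ (P₁ (P₀ Y))) :=
    fun hY hψ hχ => R₀.inn_ty (h₂.ty hY) (Tb_ty hY hψ hχ)
  have T_law : ∀ {Γ Y ψ χ z}, Ty Q Γ Y (srt y₀) → Ty Q (Y :: Γ) ψ (srt c₀) →
      Ty Q (Y :: Γ) χ (srt c₀) → Ty Q Γ z (P₁ (P₀ Y)) →
      (L.Tr Γ (R₀.out (P₁ (P₀ Y)) z (T Y ψ χ)) ↔ ∀ Δ σ, Sub Q Δ σ Γ →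
        L.Tr Δ (R₁.out (P₀ (subst σ Y)) (R₀.inn (subst σ Y) (subst (up σ) ψ)) (subst σ z)) →
        L.Tr Δ (R₁.out (P₀ (subst σ Y)) (R₀.inn (subst σ Y) (subst (up σ) χ)) (subst σ z))) := by
    intro Γ Y ψ χ z hY hψ hχ hz
    rw [R₀.law (h₂.ty hY) (Tb_ty hY hψ hχ) hz, inst, L.imp_sub, ← inst, ← inst, R₁.body_inst,
      R₁.body_inst, L.tr_imp (R₁.out_ty (h₀.ty hY) (R₀.inn_ty hY hψ) hz)
        (R₁.out_ty (h₀.ty hY) (R₀.inn_ty hY hχ) hz)]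
    simp only [R₁.out_sub, R₀.inn_sub, s₀]
  have T_η : ∀ {Γ Y ψ χ x}, Ty Q Γ Y (srt y₀) → Ty Q (Y :: Γ) ψ (srt c₀) →
      Ty Q (Y :: Γ) χ (srt c₀) → Ty Q Γ x Y →
      (L.Tr Γ (R₀.out (P₁ (P₀ Y)) (η Y x) (T Y ψ χ)) ↔ ∀ Δ σ, Sub Q Δ σ Γ →
        L.Tr Δ (subst σ (inst ψ x)) → L.Tr Δ (subst σ (inst χ x))) := by
    intro Γ Y ψ χ x hY hψ hχ hx
    rw [T_law hY hψ hχ (η_ty hY hx)]
    refine forall₃_congr fun Δ σ hs => ?_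
    rw [η_sub, η_law (hY.subst_srt hs) (hx.subst hs) (hψ.subst_srt (hs.up' hY)),
      η_law (hY.subst_srt hs) (hx.subst hs) (hχ.subst_srt (hs.up' hY)), subst_inst, subst_inst]
  have T_ν : ∀ {Γ Y ψ χ x}, Ty Q Γ Y (srt y₀) → Ty Q (Y :: Γ) ψ (srt c₀) →
      Ty Q (Y :: Γ) χ (srt c₀) → Ty Q Γ x Y →
      (L.Tr Γ (R₀.out (P₁ (P₀ Y)) (ν Y x) (T Y ψ χ)) ↔ ∀ Δ σ, Sub Q Δ σ Γ →
        L.Tr Δ (L.neg (subst σ (inst ψ x))) → L.Tr Δ (L.neg (subst σ (inst χ x)))) := by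
    intro Γ Y ψ χ x hY hψ hχ hx
    rw [T_law hY hψ hχ (ν_ty hY hx)]
    refine forall₃_congr fun Δ σ hs => ?_
    rw [ν_sub, ν_law (hY.subst_srt hs) (hx.subst hs) (hψ.subst_srt (hs.up' hY)),
      ν_law (hY.subst_srt hs) (hx.subst hs) (hχ.subst_srt (hs.up' hY)), subst_inst, subst_inst]
  -- the pair
  let pr : Tm S → Tm S × Tm S → Tm S := fun Y p => R₁.inn (P₀ (P₁ (P₀ Y)))
    (L.imp (R₀.body (P₁ (P₀ Y)) (η Y p.1)) (L.neg (R₀.body (P₁ (P₀ Y)) (ν Y p.2))))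
  have pr_sub : ∀ σ Y p, subst σ (pr Y p) = pr (subst σ Y) (subst σ p.1, subst σ p.2) := by
    intro σ Y p; simp [pr, R₁.inn_sub, R₀.body_sub, s₀, s₁, L.imp_sub, L.neg_sub, η_sub, ν_sub]
  have prb_ty : ∀ {Γ Y} {p : Tm S × Tm S}, Ty Q Γ Y (srt y₀) → Ty Q Γ p.1 Y ∧ Ty Q Γ p.2 Y →
      Ty Q (P₀ (P₁ (P₀ Y)) :: Γ) (L.imp (R₀.body (P₁ (P₀ Y)) (η Y p.1))
        (L.neg (R₀.body (P₁ (P₀ Y)) (ν Y p.2)))) (srt c₀) := fun hY hp =>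
    L.imp_ty (R₀.body_ty h₀ (h₂.ty hY) (η_ty hY hp.1))
      (L.neg_ty (R₀.body_ty h₀ (h₂.ty hY) (ν_ty hY hp.2)))
  have pr_ty : ∀ {Γ Y} {p : Tm S × Tm S}, Ty Q Γ Y (srt y₀) → Ty Q Γ p.1 Y ∧ Ty Q Γ p.2 Y →
      Ty Q Γ (pr Y p) (P₁ (P₀ (P₁ (P₀ Y)))) :=
    fun hY hp => R₁.inn_ty (h₀.ty (h₂.ty hY)) (prb_ty hY hp)
  have pr_law : ∀ {Γ Y ψ χ} {p : Tm S × Tm S}, Ty Q Γ Y (srt y₀) →
      Ty Q Γ p.1 Y ∧ Ty Q Γ p.2 Y → Ty Q (Y :: Γ) ψ (srt c₀) → Ty Q (Y :: Γ) χ (srt c₀) →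
      (L.Tr Γ (R₁.out (P₀ (P₁ (P₀ Y))) (T Y ψ χ) (pr Y p)) ↔ ∀ Δ σ, Sub Q Δ σ Γ →
        (∀ Δ' σ', Sub Q Δ' σ' Δ → L.Tr Δ' (subst (comp σ σ') (inst ψ p.1)) →
          L.Tr Δ' (subst (comp σ σ') (inst χ p.1))) →
        (∀ Δ' σ', Sub Q Δ' σ' Δ → L.Tr Δ' (L.neg (subst (comp σ σ') (inst ψ p.2))) →
          L.Tr Δ' (L.neg (subst (comp σ σ') (inst χ p.2)))) → L.Cmd Δ) := by
    intro Γ Y ψ χ p hY hp hψ hχ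
    have hT := T_ty hY hψ hχ
    have a1 := R₀.out_ty (h₂.ty hY) (η_ty hY hp.1) hT
    have a2 := R₀.out_ty (h₂.ty hY) (ν_ty hY hp.2) hT
    rw [R₁.law (h₀.ty (h₂.ty hY)) (prb_ty hY hp) hT, inst, L.imp_sub, L.neg_sub, ← inst, ← inst,
      R₀.body_inst, R₀.body_inst, L.tr_imp a1 (L.neg_ty a2)]
    have e1 : ∀ {Δ σ}, Sub Q Δ σ Γ → (L.Tr Δ (subst σ (R₀.out (P₁ (P₀ Y)) (η Y p.1) (T Y ψ χ))) ↔
        ∀ Δ' σ', Sub Q Δ' σ' Δ → L.Tr Δ' (subst (comp σ σ') (inst ψ p.1)) →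
          L.Tr Δ' (subst (comp σ σ') (inst χ p.1))) := by
      intro Δ σ hs
      simp only [R₀.out_sub, s₀, s₁, η_sub, T_sub]
      rw [T_η (hY.subst_srt hs) (hψ.subst_srt (hs.up' hY)) (hχ.subst_srt (hs.up' hY))
        (hp.1.subst hs)]
      simp
    have e2 : ∀ {Δ σ}, Sub Q Δ σ Γ → (L.Tr Δ (subst σ (R₀.out (P₁ (P₀ Y)) (ν Y p.2) (T Y ψ χ))) ↔
        ∀ Δ' σ', Sub Q Δ' σ' Δ → L.Tr Δ' (L.neg (subst (comp σ σ') (inst ψ p.2))) →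
          L.Tr Δ' (L.neg (subst (comp σ σ') (inst χ p.2)))) := by
      intro Δ σ hs
      simp only [R₀.out_sub, s₀, s₁, ν_sub, T_sub]
      rw [T_ν (hY.subst_srt hs) (hψ.subst_srt (hs.up' hY)) (hχ.subst_srt (hs.up' hY))
        (hp.2.subst hs)]
      simp
    refine ⟨fun h Δ σ hs h1 h2 => ?_, fun h Δ σ hs h1 => ?_⟩
    · have := h Δ σ hs ((e1 hs).2 h1)
      rw [L.neg_sub] at this
      exact L.neg_elim (a2.subst_srt hs) this ((e2 hs).2 h2)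
    · rw [L.neg_sub, L.tr_neg (a2.subst_srt hs)]
      intro Δ' σ' hs' h2
      rw [subst_subst] at h2
      refine h Δ' _ (hs.comp hs') ((e1 (hs.comp hs')).1 ?_) ((e2 (hs.comp hs')).1 h2)
      simpa using L.tr_sub h1 hs'
  have top_ty : ∀ {Γ}, Wf Q Γ → Ty Q Γ L.top (srt c₀) := L.top_ty.of_closed
  refine ⟨⟨pr, fun Y ψ w => R₁.out (P₀ (P₁ (P₀ Y))) (T Y ψ (L.neg L.top)) w, pr_sub, ?_, pr_ty,
      fun hY hψ hw => R₁.out_ty (h₀.ty (h₂.ty hY)) (T_ty hY hψ (L.neg_ty (top_ty hψ.wf))) hw,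
      fun _ hp hψ => Ty.inst_srt hψ hp.1, ?_⟩,
    ⟨pr, fun Y ψ w => L.neg (R₁.out (P₀ (P₁ (P₀ Y))) (T Y ψ L.top) w), pr_sub, ?_, pr_ty,
      fun hY hψ hw => L.neg_ty (R₁.out_ty (h₀.ty (h₂.ty hY)) (T_ty hY hψ (top_ty hψ.wf)) hw),
      fun _ hp hψ => Ty.inst_srt hψ hp.2, ?_⟩, rfl⟩
  · intro σ Y ψ w; simp [R₁.out_sub, T_sub, s₀, s₁, L.neg_sub, top_sub]
  · intro Γ Y p ψ hY hp hψ
    have hf := Ty.inst_srt hψ hp.1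
    rw [pr_law hY hp hψ (L.neg_ty (top_ty hψ.wf))]
    simp only [inst, L.neg_sub, top_sub]
    constructor
    · intro h
      refine L.raa hf fun Δ σ hs hn => h Δ σ hs (fun Δ' σ' hs' h1 => ?_) fun Δ' σ' hs' _ => ?_
      · refine L.cmd_tr (L.neg_ty (top_ty hs'.wf))
          (L.neg_elim (hf.subst_srt (hs.comp hs')) ?_ h1)
        simpa [L.neg_sub] using L.tr_sub hn hs'
      · exact (L.neg_neg (top_ty hs'.wf)).2 (L.tr_top hs'.wf)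
    · intro h Δ σ hs h1 _
      exact L.neg_elim (top_ty hs.wf)
        (h1 Δ var hs.wf.sub_id (by simpa using L.tr_sub h hs)) (L.tr_top hs.wf)
  · intro σ Y ψ w; simp [R₁.out_sub, T_sub, s₀, s₁, L.neg_sub, top_sub]
  · intro Γ Y p ψ hY hp hψ
    have hf := Ty.inst_srt hψ hp.2
    rw [L.tr_neg (R₁.out_ty (h₀.ty (h₂.ty hY)) (T_ty hY hψ (top_ty hψ.wf)) (pr_ty hY hp))]
    have e : ∀ {Δ σ}, Sub Q Δ σ Γ →
        (L.Tr Δ (subst σ (R₁.out (P₀ (P₁ (P₀ Y))) (T Y ψ L.top) (pr Y p))) ↔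
          L.Tr Δ (L.neg (subst σ (inst ψ p.2)))) := by
      intro Δ σ hs
      simp only [R₁.out_sub, T_sub, pr_sub, s₀, s₁, top_sub]
      have hψ' := hψ.subst_srt (hs.up' hY)
      rw [pr_law (hY.subst_srt hs) ⟨hp.1.subst hs, hp.2.subst hs⟩ hψ' (top_ty hψ'.wf)]
      simp only [inst, top_sub, subst_subst, up_scons, comp_scons, var_comp, comp_var]
      constructor
      · intro h
        refine (L.tr_neg (by simpa using hf.subst_srt hs)).2 fun Δ' σ' hs' h1 =>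
          h Δ' σ' hs' (fun _ _ h _ => L.tr_top h.wf) fun Δ'' σ'' hs'' h2 => ?_
        refine L.cmd_tr (L.neg_ty (top_ty hs''.wf))
          (L.neg_elim (hf.subst_srt ((hs.comp hs').comp hs'')) (by simpa using h2) ?_)
        simpa using L.tr_sub h1 hs''
      · intro h Δ' σ' hs' _ h2
        refine L.neg_elim (top_ty hs'.wf) (h2 Δ' var hs'.wf.sub_id ?_) (L.tr_top hs'.wf)
        simpa [L.neg_sub] using L.tr_sub h hs'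
    refine ⟨fun h => L.raa hf fun Δ σ hs hn => h Δ σ hs ((e hs).2 hn), fun h Δ σ hs h1 =>
      L.neg_elim (hf.subst_srt hs) ((e hs).1 h1) (L.tr_sub h hs)⟩

/-- Pairs of points of two kinds with a common code. -/
theorem exists_bin {d y₀ y₁ : S} {P₀ P₁ : Tm S → Tm S} (h₀ : Op Q y₀ y₁ P₀) (h₁ : Op Q y₁ y₀ P₁)
    (R₀ : PF L y₀ P₀) (R₁ : PF L y₁ P₁) {F₁ F₂ G : Tm S → Tm S} {f₁ f₂ : S} (hF₁ : Op Q d f₁ F₁)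
    (hF₂ : Op Q d f₂ F₂) (hG : Op Q d y₀ G) (C₁ : CodeF L d F₁ hF₁.sub G)
    (C₂ : CodeF L d F₂ hF₂.sub G) :
    Nonempty (Rep L d (Pt2 Q F₁ F₂ hF₁.sub hF₂.sub) (Bd2 Q c₀ F₁ F₂ hF₁.sub hF₂.sub)
      (fun p φ => subst (scons p.2 (scons p.1 var)) φ) fun X => P₁ (P₀ (P₁ (P₀ (G X))))) := by
  obtain ⟨A, B, hAB⟩ := exists_pair h₀ h₁ R₀ R₁
  have s₀ := h₀.sub
  have s₁ := h₁.sub
  have sG := hG.sub
  have t₁ := hF₁.sub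
  have t₂ := hF₂.sub
  unfold OpS at s₀ s₁ sG t₁ t₂
  have o_ty : ∀ {Γ X φ w}, Ty Q Γ X (srt d) → Ty Q (F₂ (lift X) :: F₁ X :: Γ) φ (srt c₀) →
      Ty Q Γ w (P₁ (P₀ (P₁ (P₀ (G X))))) →
      Ty Q (F₁ X :: Γ) (B.out (G (lift X)) (C₂.body (lift X) φ) (lift w)) (srt c₀) := by
    intro Γ X φ w hX hφ hw
    have h := hφ.wf.tail
    exact B.out_ty (hG.ty (hX.wk_srt h)) (C₂.body_ty hG (hX.wk_srt h) hφ)
      (by simpa [s₀, s₁, sG] using hw.wk h)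
  have v_ty : ∀ {Γ X φ} {p : Tm S × Tm S}, Ty Q Γ p.1 (F₁ X) ∧ Ty Q Γ p.2 (F₂ X) →
      Ty Q (F₂ (lift X) :: F₁ X :: Γ) φ (srt c₀) →
      Ty Q (F₂ X :: Γ) (subst (up (scons p.1 var)) φ) (srt c₀) := by
    intro Γ X φ p hp hφ
    simpa [t₂] using hφ.subst_srt (hp.1.sub_inst.upw hφ.wf)
  refine ⟨⟨fun X p => A.inn (G X) (C₁.inn X p.1, C₂.inn X p.2),
    fun X φ w => A.out (G X) (C₁.body X (B.out (G (lift X)) (C₂.body (lift X) φ) (lift w))) w,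
    ?_, ?_, fun hX hp => A.inn_ty (hG.ty hX) ⟨C₁.inn_ty hX hp.1, C₂.inn_ty hX hp.2⟩,
    fun hX hφ hw => A.out_ty (hG.ty hX) (C₁.body_ty hG hX (o_ty hX hφ hw)) hw,
    fun _ hp hφ => by simpa using Ty.inst_srt (v_ty hp hφ) hp.2, ?_⟩⟩
  · intro σ X p; simp [A.inn_sub, C₁.inn_sub, C₂.inn_sub, sG]
  · intro σ X φ w; simp [A.out_sub, B.out_sub, C₁.body_sub, C₂.body_sub, sG]
  · intro Γ X p φ hX hp hφ
    have hi : Ty Q Γ (C₁.inn X p.1) (G X) ∧ Ty Q Γ (C₂.inn X p.2) (G X) :=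
      ⟨C₁.inn_ty hX hp.1, C₂.inn_ty hX hp.2⟩
    have hw := A.inn_ty (i := (C₁.inn X p.1, C₂.inn X p.2)) (hG.ty hX) hi
    rw [A.law (i := (C₁.inn X p.1, C₂.inn X p.2)) (hG.ty hX) hi (C₁.body_ty hG hX (o_ty hX hφ hw)),
      C₁.body_inst, C₁.law hX hp.1 (o_ty hX hφ hw)]
    have e : inst (B.out (G (lift X)) (C₂.body (lift X) φ)
        (lift (A.inn (G X) (C₁.inn X p.1, C₂.inn X p.2)))) p.1 =
        B.out (G X) (C₂.body X (subst (up (scons p.1 var)) φ))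
          (B.inn (G X) (C₁.inn X p.1, C₂.inn X p.2)) := by
      simp [B.out_sub, C₂.body_sub, sG, hAB]
    rw [e, B.law (i := (C₁.inn X p.1, C₂.inn X p.2)) (hG.ty hX) hi
      (C₂.body_ty hG hX (v_ty hp hφ)), C₂.body_inst, C₂.law hX hp.2 (v_ty hp hφ)]
    simp

end Tm

end Vale.Agent.P340
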