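import Vale.Agent.P340.Graph

/-! Safe types, saturated sets, abstract models and their soundness. -/

namespace Vale.Agent.P340

universe u v

namespace Tm

variable {S : Type u} {Q : Sig S} {Γ Δ : List (Tm S)} {M N A B D T X : Tm S} {σ : ℕ → Tm S}

inductive Along (Q : Sig S) (A : Tm S) : Tm S → Prop
  | base {A' : Tm S} : Conv A A' → Along Q A A'
  | step {B D N A' : Tm S} : Along Q A (pi B D) → CTy Q N B → SN N → Conv (inst D N) A' →
      Along Q A A'

def Safe (Q : Sig S) (A : Tm S) : Prop :=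
  ∀ B D, Along Q A (pi B D) → ∀ M N, CTy Q M (pi B D) → CTy Q N B → SN M → SN N → SN (app M N)

theorem Along.conv_left {A' : Tm S} (h : Along Q A X) (hc : Conv A' A) : Along Q A' X := by
  induction h with
  | base h => exact .base (hc.trans h)
  | step _ h1 h2 h3 ih => exact .step ih h1 h2 h3

theorem Safe.conv {A' : Tm S} (h : Safe Q A) (hc : Conv A A') : Safe Q A' :=
  fun B D ha => h B D (ha.conv_left hc)

theorem safe_congr {A' : Tm S} (hc : Conv A A') : Safe Q A ↔ Safe Q A' :=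
  ⟨fun h => h.conv hc, fun h => h.conv hc.symm⟩

theorem Safe.app (h : Safe Q (pi B D)) (hM : CTy Q M (pi B D)) (hN : CTy Q N B) (sM : SN M)
    (sN : SN N) : SN (app M N) := h B D (.base (.refl _)) M N hM hN sM sN

theorem Safe.cod (h : Safe Q (pi B D)) (hN : CTy Q N B) (sN : SN N) : Safe Q (inst D N) := by
  have : ∀ X, Along Q (inst D N) X → Along Q (pi B D) X := by
    intro X hX
    induction hX with
    | base h => exact .step (.base (.refl _)) hN sN h
    | step _ h1 h2 h3 ih => exact .step ih h1 h2 h3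
  exact fun B' D' ha => h B' D' (this _ ha)

theorem safe_of_not_pi (h : ∀ B D, ¬ Conv A (pi B D)) : Safe Q A := by
  have : ∀ X, Along Q A X → Conv A X := by
    intro X hX
    induction hX with
    | base h => exact h
    | step _ _ _ _ ih => exact (h _ _ ih).elim
  exact fun B D ha => (h _ _ (this _ ha)).elim

theorem safe_srt (s : S) : Safe Q (srt s) :=
  safe_of_not_pi fun _ _ h => not_conv_pi_srt h.symm

theorem CHd.safe (h : CHd A) : Safe Q A := safe_of_not_pi fun _ _ => h.not_conv_pi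

theorem safe_pi_intro (h1 : ∀ M N, CTy Q M (pi B D) → CTy Q N B → SN M → SN N → SN (app M N))
    (h2 : ∀ N, CTy Q N B → SN N → Safe Q (inst D N)) : Safe Q (pi B D) := by
  have : ∀ X, Along Q (pi B D) X →
      Conv (pi B D) X ∨ ∃ N, CTy Q N B ∧ SN N ∧ Along Q (inst D N) X := by
    intro X hX
    induction hX with
    | base h => exact .inl h
    | step _ h1 h2 h3 ih =>
      rcases ih with h | ⟨N', h4, h5, h6⟩
      · exact .inr ⟨_, h1.conv h.pi_inj.1.symm, h2,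
          .base ((Conv.inst h.pi_inj.2 (.refl _)).trans h3)⟩
      · exact .inr ⟨N', h4, h5, .step h6 h1 h2 h3⟩
  intro B' D' ha M N hM hN sM sN
  rcases this _ ha with h | ⟨N', h4, h5, h6⟩
  · exact h1 M N (hM.conv h.symm) (hN.conv h.pi_inj.1.symm) sM sN
  · exact h2 N' h4 h5 B' D' h6 M N hM hN sM sN

def SafeSort (Q : Sig S) (s : S) : Prop := ∀ A, Ty Q [] A (srt s) → Safe Q A

/-! ### Saturated sets -/

structure Sat (X : Set (Tm S)) : Prop where
  sn : ∀ M ∈ X, SN M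
  neu : ∀ M, Neu M → SN M → M ∈ X
  wh : ∀ A N M M', SN A → SN N → WH A N M M' → M' ∈ X → M ∈ X

theorem sat_sn : Sat {M : Tm S | SN M} :=
  ⟨fun _ h => h, fun _ _ h => h, fun _ _ _ _ h1 h2 h3 h4 => h3.sn h1 h2 h4⟩

inductive Cl (X : Set (Tm S)) : Tm S → Prop
  | base {M : Tm S} : M ∈ X → SN M → Cl X M
  | neu {M : Tm S} : Neu M → SN M → Cl X M
  | wh {A N M M' : Tm S} : SN A → SN N → WH A N M M' → Cl X M' → Cl X M

/-- The least saturated set containing the strongly normalizing members of `X`. -/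
def cl (X : Set (Tm S)) : Set (Tm S) := {M | Cl X M}

theorem sat_cl (X : Set (Tm S)) : Sat (cl X) := by
  refine ⟨fun M h => ?_, fun M h1 h2 => Cl.neu h1 h2, fun A N M M' h1 h2 h3 h4 => Cl.wh h1 h2 h3 h4⟩
  induction h with
  | base _ h => exact h
  | neu _ h => exact h
  | wh h1 h2 h3 _ ih => exact h3.sn h1 h2 ih

theorem cl_subset {X Y : Set (Tm S)} (hY : Sat Y) (h : X ⊆ Y) : cl X ⊆ Y := by
  intro M hM
  induction hM with
  | base h' _ => exact h h'
  | neu h1 h2 => exact hY.neu _ h1 h2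
  | wh h1 h2 h3 _ ih => exact hY.wh _ _ _ _ h1 h2 h3 ih

theorem Sat.cl_eq {X : Set (Tm S)} (h : Sat X) : cl X = X :=
  Set.Subset.antisymm (cl_subset h le_rfl) fun M hM => Cl.base hM (h.sn M hM)

/-- Override by the set of all strongly normalizing terms when `p` holds. -/
def ov (p : Prop) (X : Set (Tm S)) : Set (Tm S) := {M | SN M ∧ (¬ p → M ∈ X)}

theorem ov_pos {p : Prop} (hp : p) (X : Set (Tm S)) : ov p X = {M | SN M} := by
  ext M; simp [ov, hp]

theorem ov_neg {p : Prop} (hp : ¬ p) {X : Set (Tm S)} (hX : Sat X) : ov p X = X := by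
  ext M; exact ⟨fun h => h.2 hp, fun h => ⟨hX.sn M h, fun _ => h⟩⟩

theorem sat_ov (p : Prop) {X : Set (Tm S)} (hX : Sat X) : Sat (ov p X) := by
  by_cases hp : p
  · rw [ov_pos hp]; exact sat_sn
  · rwa [ov_neg hp hX]

/-- The function space: a family of codomains indexed by the argument and an index. -/
def arr {ι : Sort v} (P : Tm S → ι → Prop) (Y : Tm S → ι → Set (Tm S)) : Set (Tm S) :=
  {M | SN M ∧ ∀ N i, P N i → app M N ∈ Y N i}

theorem sat_arr {ι : Sort v} {P : Tm S → ι → Prop} {Y : Tm S → ι → Set (Tm S)}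
    (hP : ∀ N i, P N i → SN N) (hY : ∀ N i, Sat (Y N i)) : Sat (arr P Y) :=
  ⟨fun _ h => h.1,
    fun _ h1 h2 => ⟨h2, fun N i h => (hY N i).neu _ (.app _ h1) (h2.app_neu (hP N i h) h1)⟩,
    fun _ _ _ _ h1 h2 h3 h4 => ⟨h3.sn h1 h2 h4.1,
      fun N i h => (hY N i).wh _ _ _ _ h1 h2 (.app _ h3) (h4.2 N i h)⟩⟩

/-! ### Abstract models -/

structure Model (Q : Sig S) where
  Env : Type v
  real : Env → ℕ → Tm S
  Valid : List (Tm S) → Env → Prop
  Rel : List (Tm S) → Env → Tm S → Prop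
  I : Env → Tm S → Set (Tm S)
  Ext : Env → Tm S → Tm S → Env → Prop
  valid_sub : ∀ {Γ e}, Valid Γ e → Sub Q [] (real e) Γ
  sat : ∀ e A, Sat (I e A)
  safe : ∀ {Γ e A s}, Valid Γ e → Ty Q Γ A (srt s) → Safe Q (subst (real e) A) →
    I e A = {M | SN M}
  conv_rel : ∀ {Γ e A A'}, Conv A A' → Rel Γ e A → Rel Γ e A'
  conv_I : ∀ {e A A'}, Conv A A' → I e A = I e A'
  ext_ex : ∀ e A N, ∃ e', Ext e A N e'
  ext_real : ∀ {e A N e'}, Ext e A N e' → real e' = scons N (real e)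
  ext_valid : ∀ {Γ e A N e'}, Valid Γ e → Ext e A N e' → Wf Q (A :: Γ) →
    Ty Q [] N (subst (real e) A) → Valid (A :: Γ) e'
  wk_rel : ∀ {Γ e A N e' B s}, Ext e A N e' → Wf Q (A :: Γ) → Ty Q Γ B (srt s) → Rel Γ e B →
    Rel (A :: Γ) e' (lift B)
  wk_I : ∀ {Γ e A N e' B s}, Ext e A N e' → Ty Q Γ B (srt s) → I e' (lift B) = I e B
  rel_dom : ∀ {Γ e A B s}, Valid Γ e → Ty Q Γ (pi A B) (srt s) → Rel Γ e (pi A B) →
    Rel Γ e A ∨ Safe Q (subst (real e) A)
  rel_cod : ∀ {Γ e A B s N e'}, Valid Γ e → Ty Q Γ (pi A B) (srt s) → Rel Γ e (pi A B) →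
    Ext e A N e' → Ty Q [] N (subst (real e) A) → SN N →
    Rel (A :: Γ) e' B ∨ Safe Q (subst (scons N (real e)) B)
  rel_inst : ∀ {Γ e A B s N}, Valid Γ e → Ty Q Γ (pi A B) (srt s) → Rel Γ e (pi A B) →
    Ty Q Γ N A → SN (subst (real e) N) →
    Rel Γ e (inst B N) ∨ Safe Q (subst (real e) (inst B N))
  pi_intro : ∀ {Γ e A B s M}, Valid Γ e → Ty Q Γ (pi A B) (srt s) → Rel Γ e (pi A B) → SN M →
    (∀ N e', Ty Q [] N (subst (real e) A) → N ∈ I e A → Ext e A N e' → app M N ∈ I e' B) →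
    M ∈ I e (pi A B)
  pi_elim : ∀ {Γ e A B s M N}, Valid Γ e → Ty Q Γ (pi A B) (srt s) → Rel Γ e (pi A B) →
    ¬ Safe Q (subst (real e) (pi A B)) → Ty Q Γ N A → M ∈ I e (pi A B) →
    subst (real e) N ∈ I e A → app M (subst (real e) N) ∈ I e (inst B N)

namespace Model

variable (m : Model.{u, v} Q)

def RS (Γ : List (Tm S)) (e : m.Env) (T : Tm S) : Prop :=
  m.Rel Γ e T ∨ Safe Q (subst (m.real e) T)

theorem RS.conv {m : Model.{u, v} Q} {e : m.Env} {T' : Tm S} (h : m.RS Γ e T) (hc : Conv T T') :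
    m.RS Γ e T' := h.imp (m.conv_rel hc) fun h => h.conv (hc.subst _)

def Good (Γ : List (Tm S)) (e : m.Env) : Prop :=
  m.Valid Γ e ∧ ∀ n A, Look Γ n A →
    SN (m.real e n) ∧ (Neu (m.real e n) ∨ (m.RS Γ e A ∧ m.real e n ∈ m.I e A))

theorem Good.ext {m : Model.{u, v} Q} {e e' : m.Env} (h : m.Good Γ e) (hx : m.Ext e A N e')
    (hA : Wf Q (A :: Γ)) (hN : Ty Q [] N (subst (m.real e) A)) (sN : SN N)
    (h' : Neu N ∨ (m.RS Γ e A ∧ N ∈ m.I e A)) : m.Good (A :: Γ) e' := by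
  have key : ∀ {B K s}, Ty Q Γ B (srt s) → m.RS Γ e B ∧ K ∈ m.I e B →
      m.RS (A :: Γ) e' (lift B) ∧ K ∈ m.I e' (lift B) := by
    intro B K s hB h
    refine ⟨h.1.imp (m.wk_rel hx hA hB) fun h => ?_, by rw [m.wk_I hx hB]; exact h.2⟩
    rw [m.ext_real hx]; simpa using h
  refine ⟨m.ext_valid h.1 hx hA hN, fun n B hl => ?_⟩
  rw [m.ext_real hx]
  cases hl with
  | zero =>
    obtain ⟨s, hs⟩ := hA.inv
    exact ⟨sN, h'.imp id (key hs)⟩
  | succ _ hl =>
    obtain ⟨s, hs⟩ := hl.srt hA.tail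
    exact ⟨(h.2 _ _ hl).1, (h.2 _ _ hl).2.imp id (key hs)⟩

theorem sound (hF : Full Q) (hM : SN M) : ∀ Γ T e, Ty Q Γ M T → m.Good Γ e →
    SN (subst (m.real e) M) ∧ (m.RS Γ e T → subst (m.real e) M ∈ m.I e T) ∧
      (Neu M → Neu (subst (m.real e) M) ∨ (m.RS Γ e T ∧ subst (m.real e) M ∈ m.I e T)) := by
  refine SN.ind (P := fun M => ∀ Γ T e, Ty Q Γ M T → m.Good Γ e →
    SN (subst (m.real e) M) ∧ (m.RS Γ e T → subst (m.real e) M ∈ m.I e T) ∧
      (Neu M → Neu (subst (m.real e) M) ∨ (m.RS Γ e T ∧ subst (m.real e) M ∈ m.I e T))) ?_ hM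
  clear hM
  intro M ihs ihp Γ T e hT hg
  have hσ := m.valid_sub hg.1
  have dead : ∀ {A B T' : Tm S}, PSub B M → Ty Q (A :: Γ) B T' → SN (subst (up (m.real e)) B) := by
    intro A B T' hB hB'
    obtain ⟨s, hs⟩ := hB'.wf.inv
    obtain ⟨e', he⟩ := m.ext_ex e A (con 0 (subst (m.real e) A))
    have := (ihp B hB _ _ e' hB' (hg.ext he hB'.wf (.con (hF _ _) (hs.subst_srt hσ))
      (normal_con _ _).sn (.inl (.con _ _)))).1
    rw [m.ext_real he] at this
    exact SN.of_subst (σ := scons (con 0 (subst (m.real e) A)) var) (by simpa using this)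
  have fin : SN (subst (m.real e) M) →
      (Neu (subst (m.real e) M) ∨ (m.RS Γ e T ∧ subst (m.real e) M ∈ m.I e T)) →
      SN (subst (m.real e) M) ∧ (m.RS Γ e T → subst (m.real e) M ∈ m.I e T) ∧
      (Neu M → Neu (subst (m.real e) M) ∨ (m.RS Γ e T ∧ subst (m.real e) M ∈ m.I e T)) := by
    intro h1 h2
    refine ⟨h1, fun _ => ?_, fun _ => h2⟩
    rcases h2 with h2 | h2
    · exact (m.sat _ _).neu _ h2 h1
    · exact h2.2
  rcases shape M with hn | ⟨A, B, rfl⟩ | ⟨A, N, M', hw⟩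
  · cases hn with
    | srt s => exact fin (normal_srt s).sn (.inl (.srt s))
    | con n A => exact fin (normal_con n A).sn (.inl (.con n A))
    | var n =>
      obtain ⟨A, h1, h2⟩ := hT.gen_var
      obtain ⟨h3, h4⟩ := hg.2 n A h1
      exact fin h3 (h4.imp id fun h => ⟨h.1.conv h2.symm, by rw [m.conv_I h2]; exact h.2⟩)
    | pi A B =>
      obtain ⟨a, b, c, -, h1, h2, -⟩ := hT.gen_pi
      exact fin (SN.pi (ihp A (.single (.piL _ _)) _ _ e h1 hg).1 (dead (.single (.piR _ _)) h2))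
        (.inl (.pi _ _))
    | @app M₁ N hn =>
      obtain ⟨A, B, h1, h2, h3⟩ := hT.gen_app
      obtain ⟨s, h4⟩ := h1.pi_srt
      obtain ⟨a, b, -, h4a, h4b⟩ := h4.gen_pi'
      obtain ⟨s1, -, h5⟩ := ihp M₁ (.single (.appL _ _)) _ _ e h1 hg
      obtain ⟨s2, h6, -⟩ := ihp N (.single (.appR _ _)) _ _ e h2 hg
      rcases h5 hn with h5 | ⟨h5, h7⟩
      · exact fin (s1.app_neu s2 h5) (.inl (.app _ h5))
      · have : m.RS Γ e (inst B N) ∧ app (subst (m.real e) M₁) (subst (m.real e) N) ∈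
            m.I e (inst B N) := by
          by_cases hs : Safe Q (subst (m.real e) (pi A B))
          · have h8 : Safe Q (subst (m.real e) (inst B N)) := by
              rw [subst_inst]; exact Safe.cod hs (h2.subst hσ).cty s2
            refine ⟨.inr h8, ?_⟩
            rw [m.safe hg.1 (h4b.inst_srt h2) h8]
            exact Safe.app hs (h1.subst hσ).cty (h2.subst hσ).cty s1 s2
          · have hr := h5.resolve_right hs
            exact ⟨m.rel_inst hg.1 h4 hr h2 s2,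
              m.pi_elim hg.1 h4 hr hs h2 h7 (h6 (m.rel_dom hg.1 h4 hr))⟩
        refine fin ((m.sat _ _).sn _ this.2) (.inr ⟨this.1.conv h3.symm, ?_⟩)
        rw [m.conv_I h3]; exact this.2
  · obtain ⟨D, s, h1, h2, h3⟩ := hT.gen_lam
    obtain ⟨a, h4⟩ := h2.pi_dom
    have sA := (ihp A (.single (.lamL _ _)) _ _ e h4 hg).1
    have sn : SN (subst (m.real e) (lam A B)) := SN.lam sA (dead (.single (.lamR _ _)) h1)
    refine ⟨sn, fun hr => ?_, fun h => by cases h⟩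
    rw [m.conv_I h3]
    rcases hr.conv h3 with hr | hr
    · refine m.pi_intro hg.1 h2 hr sn fun N e' hN hI he => ?_
      have sN := (m.sat _ _).sn _ hI
      have hg' := hg.ext he h1.wf hN sN (.inr ⟨m.rel_dom hg.1 h2 hr, hI⟩)
      have := (ihp B (.single (.lamR _ _)) _ _ e' h1 hg').2.1
        ((m.rel_cod hg.1 h2 hr he hN sN).imp id fun h => by rwa [m.ext_real he])
      refine (m.sat _ _).wh _ _ _ _ sA sN (.beta _) ?_
      rw [m.ext_real he] at this
      simpa using this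
    · rw [m.safe hg.1 h2 hr]; exact sn
  · obtain ⟨⟨T₁, h1⟩, ⟨T₂, h2⟩⟩ := hw.ty hT
    have sA := (ihp A hw.psub.1 _ _ e h1 hg).1
    have sN := (ihp N hw.psub.2 _ _ e h2 hg).1
    obtain ⟨h3, h4, -⟩ := ihs M' hw.step _ _ e (hT.step hw.step) hg
    exact ⟨(hw.subst _).sn sA sN h3,
      fun hr => (m.sat _ _).wh _ _ _ _ sA sN (hw.subst _) (h4 hr), fun h => (hw.not_neu h).elim⟩

/-- The consequence of soundness for a closed relevant product. -/
theorem closed_app (hF : Full Q) {e : m.Env} (he : m.Valid [] e) {s : S}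
    (hP : Ty Q [] (pi B D) (srt s)) (hr : m.Rel [] e (pi B D)) (hM : CTy Q M (pi B D))
    (hN : CTy Q N B) (sM : SN M) (sN : SN N) : SN (app M N) := by
  have hg : m.Good [] e := ⟨he, fun n A h => by cases h⟩
  obtain ⟨a, ha⟩ := hP.pi_dom
  have hM' := hM.ty hP
  have hN' := hN.ty ha
  by_cases hs : Safe Q (subst (m.real e) (pi B D))
  · rw [hP.closed] at hs
    exact hs.app hM hN sM sN
  · have h1 := (m.sound hF sM _ _ e hM' hg).2.1 (.inl hr)
    have h2 := (m.sound hF sN _ _ e hN' hg).2.1 (m.rel_dom he hP hr)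
    have := (m.sat _ _).sn _ (m.pi_elim he hP hr hs hN' h1 h2)
    rwa [hM'.closed, hN'.closed] at this

end Model

/-- The model behind the closure of safe types under products. -/
def safeModel (Q : Sig S) : Model.{u, u} Q where
  Env := ℕ → Tm S
  real σ := σ
  Valid Γ σ := Sub Q [] σ Γ
  Rel _ σ T := ∃ A B, Conv (subst σ T) (pi A B) ∧ Safe Q A ∧
    ∀ N, CTy Q N A → SN N → Safe Q (inst B N)
  I σ T := ov (Safe Q (subst σ T)) (arr (fun N (_ : Unit) =>
    SN N ∧ ∃ A B, Conv (subst σ T) (pi A B) ∧ CTy Q N A) fun _ _ => {M | SN M})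
  Ext σ _ N σ' := σ' = scons N σ
  valid_sub h := h
  sat _ _ := sat_ov _ (sat_arr (fun _ _ h => h.1) fun _ _ => sat_sn)
  safe _ _ h := ov_pos h _
  conv_rel := fun hc ⟨A, B, h1, h2⟩ => ⟨A, B, (hc.subst _).symm.trans h1, h2⟩
  conv_I := by
    intro σ A A' hc
    have h1 := hc.subst σ
    have : ∀ X, Conv (subst σ A) X ↔ Conv (subst σ A') X :=
      fun X => ⟨fun h => h1.symm.trans h, fun h => h1.trans h⟩
    simp only [safe_congr h1, this]
  ext_ex _ _ _ := ⟨_, rfl⟩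
  ext_real h := h
  ext_valid h he _ hN := he ▸ h.cons hN
  wk_rel := by
    rintro Γ σ A N _ B s rfl _ _ h
    simpa using h
  wk_I := by
    rintro Γ σ A N _ B s rfl _
    simp
  rel_dom := fun _ _ ⟨_, _, h1, h2, _⟩ => .inr (h2.conv h1.pi_inj.1.symm)
  rel_cod := by
    rintro Γ σ A B s N _ _ _ ⟨A', B', h1, h2, h3⟩ rfl hN sN
    refine .inr ((h3 N (hN.cty.conv h1.pi_inj.1) sN).conv ?_)
    simpa using Conv.inst h1.pi_inj.2.symm (Conv.refl N)
  rel_inst := by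
    rintro Γ σ A B s N hv _ ⟨A', B', h1, h2, h3⟩ hN sN
    refine .inr ((h3 _ ((hN.subst hv).cty.conv h1.pi_inj.1) sN).conv ?_)
    simpa using Conv.inst h1.pi_inj.2.symm (Conv.refl (subst σ N))
  pi_intro := by
    rintro Γ σ A B s M hv hP ⟨A', B', h1, h2, h3⟩ sM h
    refine ⟨sM, fun _ => ⟨sM, ?_⟩⟩
    rintro N _ ⟨sN, A₂, B₂, h4, h5⟩
    obtain ⟨a, ha⟩ := hP.pi_dom
    refine (h N _ ((h5.conv h4.pi_inj.1.symm).ty (ha.subst_srt hv)) ?_ rfl).1
    rw [ov_pos (h2.conv h1.pi_inj.1.symm)]; exact sN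
  pi_elim := by
    rintro Γ σ A B s M N hv hP ⟨A', B', h1, h2, h3⟩ hs hN hM hI
    have h4 : Safe Q (subst σ (inst B N)) := by
      refine (h3 _ ((hN.subst hv).cty.conv h1.pi_inj.1) hI.1).conv ?_
      simpa using Conv.inst h1.pi_inj.2.symm (Conv.refl (subst σ N))
    rw [ov_pos h4]
    exact (hM.2 hs).2 _ () ⟨hI.1, _, _, .refl _, (hN.subst hv).cty⟩

/-- Lemma S: a product of a safe domain and safe codomains is safe. -/
theorem safe_pi (hF : Full Q) {s : S} (hP : Ty Q [] (pi B D) (srt s)) (h1 : Safe Q B)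
    (h2 : ∀ N, CTy Q N B → SN N → Safe Q (inst D N)) : Safe Q (pi B D) :=
  safe_pi_intro (fun _ _ hM hN sM sN => (safeModel Q).closed_app hF (e := var) Wf.nil hP
    ⟨B, D, by simp [Conv.refl], h1, h2⟩ hM hN sM sN) h2

theorem Wf.closing (hF : Full Q) (h : Wf Q Γ) : ∃ σ, Sub Q [] σ Γ ∧ ∀ n, SN (σ n) := by
  induction h with
  | nil => exact ⟨var, Wf.nil, fun n => (normal_var n).sn⟩
  | @cons Γ A s _ h ih =>
    obtain ⟨σ, h1, h2⟩ := ih
    refine ⟨scons (con 0 (subst σ A)) σ, h1.cons (.con (hF _ _) (h.subst_srt h1)), fun n => ?_⟩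
    cases n
    · exact (normal_con _ _).sn
    · exact h2 _

theorem sn_of_safe (hF : Full Q) (hs : ∀ s, SafeSort Q s) (h : Ty Q Γ M T) : SN M := by
  have key : ∀ (M : Tm S) {Γ T σ}, Ty Q Γ M T → Sub Q [] σ Γ → (∀ n, SN (σ n)) →
      SN (subst σ M) := by
    intro M
    have dead : ∀ {B : Tm S}, (∀ {Γ T σ}, Ty Q Γ B T → Sub Q [] σ Γ → (∀ n, SN (σ n)) →
        SN (subst σ B)) → ∀ {A Γ T σ}, Ty Q (A :: Γ) B T → Sub Q [] σ Γ → (∀ n, SN (σ n)) →
        SN (subst (up σ) B) := by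
      intro B ih A Γ T σ h h1 h2
      obtain ⟨s, h3⟩ := h.wf.inv
      have := ih h (h1.cons (.con (hF 0 _) (h3.subst_srt h1)))
        (fun n => by cases n; exacts [(normal_con _ _).sn, h2 _])
      exact SN.of_subst (σ := scons (con 0 (subst σ A)) var) (by simpa using this)
    induction M with
    | var n => exact fun _ _ h => h n
    | srt s => exact fun _ _ _ => (normal_srt s).sn
    | con n A => exact fun _ _ _ => (normal_con n A).sn
    | app M N ihM ihN =>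
      intro Γ T σ h h1 h2
      obtain ⟨A, B, h3, h4, -⟩ := h.gen_app
      obtain ⟨s, h5⟩ := h3.pi_srt
      exact Safe.app (hs s _ (h5.subst_srt h1)) (h3.subst h1).cty (h4.subst h1).cty
        (ihM h3 h1 h2) (ihN h4 h1 h2)
    | lam A B ihA ihB =>
      intro Γ T σ h h1 h2
      obtain ⟨D, s, h3, h4, -⟩ := h.gen_lam
      obtain ⟨a, h5⟩ := h4.pi_dom
      exact SN.lam (ihA h5 h1 h2) (dead ihB h3 h1 h2)
    | pi A B ihA ihB =>
      intro Γ T σ h h1 h2
      obtain ⟨a, b, c, -, h3, h4, -⟩ := h.gen_pi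
      exact SN.pi (ihA h3 h1 h2) (dead ihB h4 h1 h2)
  obtain ⟨σ, h1, h2⟩ := h.wf.closing hF
  exact (key M h h1 h2).of_subst

/-! ### Models of a component -/

/-- All sorts below the component of `c₀` are safe. -/
def Low (Q : Sig S) (c₀ : S) : Prop :=
  ∀ s, Reach Q.rule c₀ s → InC Q.toPTS c₀ s ∨ SafeSort Q s

theorem Low.dom {c₀ a b c : S} (h : Low Q c₀) (hr : Q.rule a b c) (hc : InC Q.toPTS c₀ c) :
    InC Q.toPTS c₀ a ∨ SafeSort Q a := h a (hc.1.trans (.dom hr))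

theorem Low.cod {c₀ a b c : S} (h : Low Q c₀) (hr : Q.rule a b c) (hc : InC Q.toPTS c₀ c) :
    InC Q.toPTS c₀ b ∨ SafeSort Q b := h b (hc.1.trans (.cod hr))

/-- Relevant types: the normal form has a sort in the component. -/
def CRel (Q : Sig S) (c₀ : S) (Γ : List (Tm S)) (A : Tm S) : Prop :=
  ∃ c, InC Q.toPTS c₀ c ∧ Ty Q Γ (nf A) (srt c)

theorem CRel.pi {c₀ s : S} (hW : WN Q) (hP : Ty Q Γ (pi A B) (srt s))
    (h : CRel Q c₀ Γ (pi A B)) : ∃ a b c, InC Q.toPTS c₀ c ∧ Q.rule a b c ∧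
      Ty Q Γ (nf A) (srt a) ∧ Ty Q (nf A :: Γ) (nf B) (srt b) := by
  obtain ⟨c, h1, h2⟩ := h
  rw [nf_pi (hP.hasNf hW)] at h2
  obtain ⟨a, b, h3, h4, h5⟩ := h2.gen_pi'
  exact ⟨a, b, c, h1, h3, h4, h5⟩

structure CModel (Q : Sig S) (c₀ : S) where
  Env : Type v
  real : Env → ℕ → Tm S
  Valid : List (Tm S) → Env → Prop
  /-- interpretation of normal types -/
  J : Env → Tm S → Set (Tm S)
  Ext : Env → Tm S → Tm S → Env → Prop
  e₀ : Env
  valid₀ : Valid [] e₀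
  valid_sub : ∀ {Γ e}, Valid Γ e → Sub Q [] (real e) Γ
  sat : ∀ e A, Sat (J e A)
  safe : ∀ {e A}, Safe Q (subst (real e) A) → J e A = {M | SN M}
  ext_ex : ∀ e A N, ∃ e', Ext e A N e'
  ext_real : ∀ {e A N e'}, Ext e A N e' → real e' = scons N (real e)
  ext_valid : ∀ {Γ e A N e'}, Valid Γ e → Ext e A N e' → Wf Q (A :: Γ) →
    Ty Q [] N (subst (real e) A) → Valid (A :: Γ) e'
  wk : ∀ {e A N e' B}, Ext e A N e' → J e' (lift B) = J e B
  pi_intro : ∀ {Γ e A B s M}, Valid Γ e → Ty Q Γ (pi A B) (srt s) → SN M →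
    (∀ N e', Ty Q [] N (subst (real e) A) → N ∈ J e (nf A) → Ext e A N e' →
      app M N ∈ J e' (nf B)) → M ∈ J e (pi (nf A) (nf B))
  pi_elim : ∀ {Γ e A B s a b c M N}, Valid Γ e → Ty Q Γ (pi A B) (srt s) → Q.rule a b c →
    InC Q.toPTS c₀ b → InC Q.toPTS c₀ c → Ty Q Γ (nf A) (srt a) →
    Ty Q (nf A :: Γ) (nf B) (srt b) → ¬ Safe Q (subst (real e) (pi A B)) → Ty Q Γ N A →
    M ∈ J e (pi (nf A) (nf B)) → subst (real e) N ∈ J e (nf A) →
    app M (subst (real e) N) ∈ J e (nf (inst B N))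
  pi_sn : ∀ {Γ e A B s M N}, Valid Γ e → Ty Q Γ (pi A B) (srt s) →
    ¬ Safe Q (subst (real e) (pi A B)) → Ty Q [] N (subst (real e) A) →
    M ∈ J e (pi (nf A) (nf B)) → N ∈ J e (nf A) → SN (app M N)

theorem nf_inst_ty (hW : WN Q) {s b : S} (hP : Ty Q Γ (pi A B) (srt s))
    (h : Ty Q (nf A :: Γ) (nf B) (srt b)) (hN : Ty Q Γ N A) :
    Ty Q Γ (nf (inst B N)) (srt b) := by
  have h1 := (h.inst_srt (hN.nf_ty hW)).nf hW
  rwa [← (Conv.inst (hP.hasNf hW).pi_inv.2.conv (.refl N)).nf_eq] at h1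

def CModel.model {c₀ : S} (hW : WN Q) (hL : Low Q c₀) (m : CModel.{u, v} Q c₀) :
    Model.{u, v} Q where
  Env := m.Env
  real := m.real
  Valid := m.Valid
  Rel Γ _ A := CRel Q c₀ Γ A
  I e A := m.J e (nf A)
  Ext := m.Ext
  valid_sub := m.valid_sub
  sat _ _ := m.sat _ _
  safe _ hA hs := m.safe (hs.conv ((hA.hasNf hW).conv.subst _))
  conv_rel hc h := by rwa [CRel, ← hc.nf_eq]
  conv_I hc := by rw [hc.nf_eq]
  ext_ex := m.ext_ex
  ext_real := m.ext_real
  ext_valid := m.ext_valid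
  wk_rel := by
    rintro Γ e A N e' B s - hA hB ⟨c, h1, h2⟩
    refine ⟨c, h1, ?_⟩
    rw [nf_ren isRen_shift (hB.hasNf hW)]
    exact h2.wk_srt hA
  wk_I he hB := by rw [nf_ren isRen_shift (hB.hasNf hW), m.wk he]
  rel_dom := by
    intro Γ e A B s hv hP hr
    obtain ⟨a, b, c, h1, h2, h3, -⟩ := hr.pi hW hP
    refine (hL.dom h2 h1).imp (fun h => ⟨a, h, h3⟩) fun h => ?_
    exact (h _ (h3.subst_srt (m.valid_sub hv))).conv ((hP.hasNf hW).pi_inv.1.conv.symm.subst _)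
  rel_cod := by
    intro Γ e A B s N e' hv hP hr he hN _
    obtain ⟨a, b, c, h1, h2, h3, h4⟩ := hr.pi hW hP
    obtain ⟨a', ha⟩ := hP.pi_dom
    have h5 := h4.ctx_conv ha.wf_cons (hP.hasNf hW).pi_inv.1.conv.symm
    refine (hL.cod h2 h1).imp (fun h => ⟨b, h, h5⟩) fun h => ?_
    exact (h _ (h5.subst_srt ((m.valid_sub hv).cons hN))).conv
      ((hP.hasNf hW).pi_inv.2.conv.symm.subst _)
  rel_inst := by
    intro Γ e A B s N hv hP hr hN _
    obtain ⟨a, b, c, h1, h2, h3, h4⟩ := hr.pi hW hP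
    obtain ⟨a', b', -, -, hb⟩ := hP.gen_pi'
    have h5 := nf_inst_ty hW hP h4 hN
    refine (hL.cod h2 h1).imp (fun h => ⟨b, h, h5⟩) fun h => ?_
    exact (h _ (h5.subst_srt (m.valid_sub hv))).conv
      (((hb.inst_srt hN).hasNf hW).conv.symm.subst _)
  pi_intro hv hP _ sM h := by
    rw [nf_pi (hP.hasNf hW)]; exact m.pi_intro hv hP sM h
  pi_elim := by
    intro Γ e A B s M N hv hP hr hs hN hM hI
    obtain ⟨a, b, c, h1, h2, h3, h4⟩ := hr.pi hW hP
    rw [nf_pi (hP.hasNf hW)] at hM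
    rcases hL.cod h2 h1 with h | h
    · exact m.pi_elim hv hP h2 h h1 h3 h4 hs hN hM hI
    · rw [m.safe (h _ ((nf_inst_ty hW hP h4 hN).subst_srt (m.valid_sub hv)))]
      exact m.pi_sn hv hP hs (hN.subst (m.valid_sub hv)) hM hI

theorem CModel.safeSort {c₀ : S} (hF : Full Q) (hW : WN Q) (hL : Low Q c₀)
    (m : CModel.{u, v} Q c₀) : SafeSort Q c₀ := by
  intro A hA
  have key : ∀ X, Along Q A X →
      Safe Q X ∨ ∃ X' c, InC Q.toPTS c₀ c ∧ Ty Q [] X' (srt c) ∧ Conv X X' := by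
    intro X hX
    induction hX with
    | base h => exact .inr ⟨A, c₀, .refl _ _, hA, h.symm⟩
    | step _ h1 h2 h3 ih =>
      rcases ih with h | ⟨X', c, h4, h5, h6⟩
      · exact .inl ((h.cod h1 h2).conv h3)
      · obtain ⟨B', D', h7, h8, h9⟩ := h6.symm.red_pi
        obtain ⟨a, b, h10, h11, h12⟩ := (h5.red h7).gen_pi'
        have h13 := h12.inst_srt ((h1.conv h8.conv).ty h11)
        have h14 := h3.symm.trans (Conv.inst h9.conv (.refl _))
        rcases hL.cod h10 h4 with h | h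
        · exact .inr ⟨_, b, h, h13, h14⟩
        · exact .inl ((h _ h13).conv h14.symm)
  intro B D ha M N hM hN sM sN
  rcases key _ ha with h | ⟨X', c, h4, h5, h6⟩
  · exact h.app hM hN sM sN
  · obtain ⟨B', D', h7, h8, h9⟩ := h6.symm.red_pi
    have h10 := h5.red h7
    exact (m.model hW hL).closed_app hF m.valid₀ h10 ⟨c, h4, h10.nf hW⟩
      (hM.conv (Conv.pi h8.conv h9.conv)) (hN.conv h8.conv) sM sN

end Tm

end Vale.Agent.P340
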