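import Vale.Agent.P340.Safe

/-! Complete spines of closed kinds and signed kinds. -/

namespace Vale.Agent.P340

universe u

namespace Tm

variable {S : Type u} {Q : Sig S} {c₀ : S}

/-- Complete spines of a closed kind ending in a sort of the component; every argument is
recorded together with its domain. -/
def BSp (Q : Sig S) (c₀ : S) : List (Tm S × Tm S) → Tm S → Prop
  | [], W => ∃ s, InC Q.toPTS c₀ s ∧ nf W = srt s
  | p :: π, W => ∃ W₂, nf W = pi p.2 W₂ ∧ Normal p.1 ∧ CTy Q p.1 p.2 ∧ BSp Q c₀ π (inst W₂ p.1)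

theorem BSp.conv {π : List (Tm S × Tm S)} {W W' : Tm S} (h : BSp Q c₀ π W) (hc : Conv W W') :
    BSp Q c₀ π W' := by
  cases π <;> simpa only [BSp, hc.nf_eq] using h

theorem bsp_nf {π : List (Tm S × Tm S)} {W : Tm S} : BSp Q c₀ π (nf W) ↔ BSp Q c₀ π W := by
  cases π <;> simp only [BSp, nf_nf]

/-- `D` is a domain along a complete spine of `W`. -/
def Succ (Q : Sig S) (c₀ : S) (W D : Tm S) : Prop := ∃ π N, BSp Q c₀ π W ∧ (N, D) ∈ π

theorem Succ.conv {W W' D : Tm S} (h : Succ Q c₀ W D) (hc : Conv W W') : Succ Q c₀ W' D := by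
  obtain ⟨π, N, h1, h2⟩ := h
  exact ⟨π, N, h1.conv hc, h2⟩

def AccK (Q : Sig S) (c₀ : S) (W : Tm S) : Prop := Acc (fun D W => Succ Q c₀ W D) W

theorem AccK.succ {W D : Tm S} (h : AccK Q c₀ W) (hs : Succ Q c₀ W D) : AccK Q c₀ D := h.inv hs

theorem AccK.intro {W : Tm S} (h : ∀ D, Succ Q c₀ W D → AccK Q c₀ D) : AccK Q c₀ W :=
  Acc.intro _ h

theorem AccK.conv {W W' : Tm S} (h : AccK Q c₀ W) (hc : Conv W W') : AccK Q c₀ W' :=
  AccK.intro fun _ hD => h.succ (hD.conv hc.symm)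

/-- Kinds reachable from a quantified kind; the sign flips at every step. -/
inductive Sgn (Q : Sig S) (c₀ : S) : Bool → Tm S → Prop
  | base {W : Tm S} {q : S} : Normal W → Ty Q [] W (srt q) → Quantif Q.toPTS c₀ q →
      Sgn Q c₀ true W
  | step {ε : Bool} {W D : Tm S} : Sgn Q c₀ ε W → Succ Q c₀ W D → Sgn Q c₀ (!ε) D

def HypII (Q : Sig S) (c₀ : S) : Prop :=
  ∀ W, Sgn Q c₀ true W → Sgn Q c₀ false W → AccK Q c₀ W

end Tm

end Vale.Agent.P340
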