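import Mathlib.Tactic
import Vale.Agent.P340.Defs

/-! Internal terms with inert typed constants; substitution calculus, Church-Rosser,
normal forms, strong normalization. -/

namespace Vale.Agent.P340

universe u

inductive Tm (S : Type u) : Type u
  | var : ℕ → Tm S
  | srt : S → Tm S
  | app : Tm S → Tm S → Tm S
  | lam : Tm S → Tm S → Tm S
  | pi : Tm S → Tm S → Tm S
  | con : ℕ → Tm S → Tm S

namespace Tm

variable {S : Type u}

def upr (ξ : ℕ → ℕ) : ℕ → ℕ
  | 0 => 0
  | n + 1 => ξ n + 1

def ren (ξ : ℕ → ℕ) : Tm S → Tm S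
  | var n => var (ξ n)
  | srt s => srt s
  | app M N => app (ren ξ M) (ren ξ N)
  | lam A M => lam (ren ξ A) (ren (upr ξ) M)
  | pi A B => pi (ren ξ A) (ren (upr ξ) B)
  | con n A => con n A

def up (σ : ℕ → Tm S) : ℕ → Tm S
  | 0 => var 0
  | n + 1 => ren (fun n => n + 1) (σ n)

def subst (σ : ℕ → Tm S) : Tm S → Tm S
  | var n => σ n
  | srt s => srt s
  | app M N => app (subst σ M) (subst σ N)
  | lam A M => lam (subst σ A) (subst (up σ) M)
  | pi A B => pi (subst σ A) (subst (up σ) B)
  | con n A => con n A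

def scons {α : Type*} (a : α) (σ : ℕ → α) : ℕ → α
  | 0 => a
  | n + 1 => σ n

def shift : ℕ → Tm S := fun n => var (n + 1)

def comp (σ τ : ℕ → Tm S) : ℕ → Tm S := fun n => subst τ (σ n)

abbrev lift (M : Tm S) : Tm S := subst shift M

abbrev inst (M N : Tm S) : Tm S := subst (scons N var) M

@[simp] theorem scons_zero {α : Type*} (a : α) (σ : ℕ → α) : scons a σ 0 = a := rfl
@[simp] theorem scons_succ {α : Type*} (a : α) (σ : ℕ → α) (n : ℕ) :
    scons a σ (n + 1) = σ n := rfl
@[simp] theorem shift_apply (n : ℕ) : (shift n : Tm S) = var (n + 1) := rfl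
theorem comp_apply (σ τ : ℕ → Tm S) (n : ℕ) : comp σ τ n = subst τ (σ n) := rfl

@[simp] theorem subst_var (σ : ℕ → Tm S) (n : ℕ) : subst σ (var n) = σ n := rfl
@[simp] theorem subst_srt (σ : ℕ → Tm S) (s : S) : subst σ (srt s) = srt s := rfl
@[simp] theorem subst_app (σ : ℕ → Tm S) (M N : Tm S) :
    subst σ (app M N) = app (subst σ M) (subst σ N) := rfl
@[simp] theorem subst_lam (σ : ℕ → Tm S) (A M : Tm S) :
    subst σ (lam A M) = lam (subst σ A) (subst (up σ) M) := rfl
@[simp] theorem subst_pi (σ : ℕ → Tm S) (A M : Tm S) :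
    subst σ (pi A M) = pi (subst σ A) (subst (up σ) M) := rfl
@[simp] theorem subst_con (σ : ℕ → Tm S) (n : ℕ) (A : Tm S) : subst σ (con n A) = con n A := rfl

theorem ren_ren (ξ ζ : ℕ → ℕ) (M : Tm S) : ren ζ (ren ξ M) = ren (fun n => ζ (ξ n)) M := by
  induction M generalizing ξ ζ with
  | var n => rfl
  | srt s => rfl
  | con n A => rfl
  | app M N ihM ihN => simp [ren, ihM, ihN]
  | lam A M ihA ihM =>
    simp only [ren, ihA, ihM]; congr 2; funext n; cases n <;> rfl
  | pi A M ihA ihM =>
    simp only [ren, ihA, ihM]; congr 2; funext n; cases n <;> rfl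

theorem subst_ren (ξ : ℕ → ℕ) (σ : ℕ → Tm S) (M : Tm S) :
    subst σ (ren ξ M) = subst (fun n => σ (ξ n)) M := by
  induction M generalizing ξ σ with
  | var n => rfl
  | srt s => rfl
  | con n A => rfl
  | app M N ihM ihN => simp [ren, ihM, ihN]
  | lam A M ihA ihM =>
    simp only [ren, subst, ihA, ihM]; congr 2; funext n; cases n <;> rfl
  | pi A M ihA ihM =>
    simp only [ren, subst, ihA, ihM]; congr 2; funext n; cases n <;> rfl

theorem ren_subst (ξ : ℕ → ℕ) (σ : ℕ → Tm S) (M : Tm S) :
    ren ξ (subst σ M) = subst (fun n => ren ξ (σ n)) M := by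
  induction M generalizing ξ σ with
  | var n => rfl
  | srt s => rfl
  | con n A => rfl
  | app M N ihM ihN => simp [ren, ihM, ihN]
  | lam A M ihA ihM =>
    simp only [ren, subst, ihA, ihM]; congr 2; funext n
    cases n with
    | zero => rfl
    | succ n => simp only [up, ren_ren]; rfl
  | pi A M ihA ihM =>
    simp only [ren, subst, ihA, ihM]; congr 2; funext n
    cases n with
    | zero => rfl
    | succ n => simp only [up, ren_ren]; rfl

@[simp] theorem subst_subst (σ τ : ℕ → Tm S) (M : Tm S) :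
    subst τ (subst σ M) = subst (comp σ τ) M := by
  induction M generalizing σ τ with
  | var n => rfl
  | srt s => rfl
  | con n A => rfl
  | app M N ihM ihN => simp [ihM, ihN]
  | lam A M ihA ihM =>
    simp only [subst, ihA, ihM]; congr 2; funext n
    cases n with
    | zero => rfl
    | succ n => simp only [comp, up, subst_ren, ren_subst]
  | pi A M ihA ihM =>
    simp only [subst, ihA, ihM]; congr 2; funext n
    cases n with
    | zero => rfl
    | succ n => simp only [comp, up, subst_ren, ren_subst]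

theorem ren_eq (ξ : ℕ → ℕ) (M : Tm S) : ren ξ M = subst (fun n => var (ξ n)) M := by
  induction M generalizing ξ with
  | var n => rfl
  | srt s => rfl
  | con n A => rfl
  | app M N ihM ihN => simp [ren, ihM, ihN]
  | lam A M ihA ihM =>
    simp only [ren, subst, ihA, ihM]; congr 2; funext n; cases n <;> rfl
  | pi A M ihA ihM =>
    simp only [ren, subst, ihA, ihM]; congr 2; funext n; cases n <;> rfl

theorem up_eq (σ : ℕ → Tm S) : up σ = scons (var 0) (comp σ shift) := by
  funext n
  cases n with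
  | zero => rfl
  | succ n => simp only [up, ren_eq]; rfl

@[simp] theorem up_zero (σ : ℕ → Tm S) : up σ 0 = var 0 := rfl
@[simp] theorem up_succ (σ : ℕ → Tm S) (n : ℕ) : up σ (n + 1) = lift (σ n) := by
  rw [up_eq]; rfl

@[simp] theorem up_var : up (var : ℕ → Tm S) = var := by
  funext n; cases n <;> rfl

@[simp] theorem subst_id (M : Tm S) : subst var M = M := by
  induction M with
  | var n => rfl
  | srt s => rfl
  | con n A => rfl
  | app M N ihM ihN => simp [ihM, ihN]
  | lam A M ihA ihM => simp [ihA, ihM]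
  | pi A M ihA ihM => simp [ihA, ihM]

@[simp] theorem comp_scons (a : Tm S) (σ τ : ℕ → Tm S) :
    comp (scons a σ) τ = scons (subst τ a) (comp σ τ) := by
  funext n; cases n <;> rfl
@[simp] theorem shift_scons (a : Tm S) (σ : ℕ → Tm S) : comp shift (scons a σ) = σ := by
  funext n; rfl
@[simp] theorem var_comp (σ : ℕ → Tm S) : comp var σ = σ := by funext n; rfl
@[simp] theorem comp_var (σ : ℕ → Tm S) : comp σ var = σ := by funext n; simp [comp]
@[simp] theorem comp_assoc (σ τ ρ : ℕ → Tm S) : comp (comp σ τ) ρ = comp σ (comp τ ρ) := by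
  funext n; simp [comp_apply]
@[simp] theorem scons_shift : scons (var 0) (shift : ℕ → Tm S) = var := by
  funext n; cases n <;> rfl
@[simp] theorem scons_eta (σ : ℕ → Tm S) : scons (σ 0) (comp shift σ) = σ := by
  funext n; cases n <;> rfl
@[simp] theorem shift_up (σ : ℕ → Tm S) : comp shift (up σ) = comp σ shift := by
  simp [up_eq]
@[simp] theorem shift_up' (σ τ : ℕ → Tm S) :
    comp shift (comp (up σ) τ) = comp σ (comp shift τ) := by
  simp [up_eq]
@[simp] theorem up_scons (σ τ : ℕ → Tm S) (a : Tm S) :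
    comp (up σ) (scons a τ) = scons a (comp σ τ) := by
  simp [up_eq]
@[simp] theorem up_up (σ τ : ℕ → Tm S) : comp (up σ) (up τ) = up (comp σ τ) := by
  simp [up_eq]

theorem subst_inst (σ : ℕ → Tm S) (M N : Tm S) :
    subst σ (inst M N) = inst (subst (up σ) M) (subst σ N) := by simp

theorem subst_lift (σ : ℕ → Tm S) (M : Tm S) : subst (up σ) (lift M) = lift (subst σ M) := by simp

/-! ### Reduction -/

inductive Step : Tm S → Tm S → Prop
  | beta (A M N : Tm S) : Step (app (lam A M) N) (inst M N)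
  | appL {M M' : Tm S} (N : Tm S) : Step M M' → Step (app M N) (app M' N)
  | appR (M : Tm S) {N N' : Tm S} : Step N N' → Step (app M N) (app M N')
  | lamL {A A' : Tm S} (M : Tm S) : Step A A' → Step (lam A M) (lam A' M)
  | lamR (A : Tm S) {M M' : Tm S} : Step M M' → Step (lam A M) (lam A M')
  | piL {A A' : Tm S} (B : Tm S) : Step A A' → Step (pi A B) (pi A' B)
  | piR (A : Tm S) {B B' : Tm S} : Step B B' → Step (pi A B) (pi A B')

abbrev Red (M N : Tm S) : Prop := Relation.ReflTransGen Step M N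

def Conv (M N : Tm S) : Prop := Relation.EqvGen Step M N

def Normal (M : Tm S) : Prop := ∀ N, ¬ Step M N

@[refl] theorem Conv.refl (M : Tm S) : Conv M M := Relation.EqvGen.refl M
@[symm] theorem Conv.symm {M N : Tm S} (h : Conv M N) : Conv N M := Relation.EqvGen.symm _ _ h
@[trans] theorem Conv.trans {M N L : Tm S} (h : Conv M N) (h' : Conv N L) : Conv M L :=
  Relation.EqvGen.trans _ _ _ h h'
theorem Step.conv {M N : Tm S} (h : Step M N) : Conv M N := Relation.EqvGen.rel _ _ h
theorem Conv.of_eq {M N : Tm S} (h : M = N) : Conv M N := h ▸ Conv.refl M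
theorem Red.conv {M N : Tm S} (h : Red M N) : Conv M N := by
  induction h with
  | refl => rfl
  | tail _ h ih => exact ih.trans h.conv

theorem Step.subst {M N : Tm S} (h : Step M N) (σ : ℕ → Tm S) :
    Step (subst σ M) (subst σ N) := by
  induction h generalizing σ with
  | beta A M N => rw [subst_inst]; exact Step.beta _ _ _
  | appL N _ ih => exact .appL _ (ih σ)
  | appR M _ ih => exact .appR _ (ih σ)
  | lamL M _ ih => exact .lamL _ (ih σ)
  | lamR A _ ih => exact .lamR _ (ih _)
  | piL B _ ih => exact .piL _ (ih σ)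
  | piR A _ ih => exact .piR _ (ih _)

theorem Red.map {f : Tm S → Tm S} (hf : ∀ {a b}, Step a b → Step (f a) (f b)) {M N : Tm S}
    (h : Red M N) : Red (f M) (f N) := by
  induction h with
  | refl => rfl
  | tail _ h ih => exact ih.tail (hf h)

theorem Conv.map {f : Tm S → Tm S} (hf : ∀ {a b}, Step a b → Step (f a) (f b)) {M N : Tm S}
    (h : Conv M N) : Conv (f M) (f N) := by
  induction h with
  | rel _ _ h => exact (hf h).conv
  | refl => rfl
  | symm _ _ _ ih => exact ih.symm
  | trans _ _ _ _ _ ih ih' => exact ih.trans ih'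

theorem Red.subst {M N : Tm S} (h : Red M N) (σ : ℕ → Tm S) : Red (subst σ M) (subst σ N) :=
  Red.map (fun h => h.subst σ) h
theorem Conv.subst {M N : Tm S} (h : Conv M N) (σ : ℕ → Tm S) : Conv (subst σ M) (subst σ N) :=
  Conv.map (fun h => h.subst σ) h

theorem Red.app {M M' N N' : Tm S} (h : Red M M') (h' : Red N N') : Red (app M N) (app M' N') :=
  (Red.map (f := fun x => Tm.app x N) (Step.appL N) h).trans (Red.map (Step.appR M') h')
theorem Red.lam {M M' N N' : Tm S} (h : Red M M') (h' : Red N N') : Red (lam M N) (lam M' N') :=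
  (Red.map (f := fun x => Tm.lam x N) (Step.lamL N) h).trans (Red.map (Step.lamR M') h')
theorem Red.pi {M M' N N' : Tm S} (h : Red M M') (h' : Red N N') : Red (pi M N) (pi M' N') :=
  (Red.map (f := fun x => Tm.pi x N) (Step.piL N) h).trans (Red.map (Step.piR M') h')
theorem Conv.app {M M' N N' : Tm S} (h : Conv M M') (h' : Conv N N') :
    Conv (app M N) (app M' N') :=
  (Conv.map (f := fun x => Tm.app x N) (Step.appL N) h).trans (Conv.map (Step.appR M') h')
theorem Conv.lam {M M' N N' : Tm S} (h : Conv M M') (h' : Conv N N') :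
    Conv (lam M N) (lam M' N') :=
  (Conv.map (f := fun x => Tm.lam x N) (Step.lamL N) h).trans (Conv.map (Step.lamR M') h')
theorem Conv.pi {M M' N N' : Tm S} (h : Conv M M') (h' : Conv N N') :
    Conv (pi M N) (pi M' N') :=
  (Conv.map (f := fun x => Tm.pi x N) (Step.piL N) h).trans (Conv.map (Step.piR M') h')

theorem Red.substs {σ τ : ℕ → Tm S} (h : ∀ n, Red (σ n) (τ n)) (M : Tm S) :
    Red (Tm.subst σ M) (Tm.subst τ M) := by
  have hup : ∀ {σ τ : ℕ → Tm S}, (∀ n, Red (σ n) (τ n)) → ∀ n, Red (up σ n) (up τ n) := by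
    intro σ τ h n
    cases n with
    | zero => rfl
    | succ n => simpa using (h n).subst shift
  induction M generalizing σ τ with
  | var n => exact h n
  | srt s => rfl
  | con n A => rfl
  | app M N ihM ihN => exact Red.app (ihM h) (ihN h)
  | lam A M ihA ihM => exact Red.lam (ihA h) (ihM (hup h))
  | pi A M ihA ihM => exact Red.pi (ihA h) (ihM (hup h))

theorem Conv.up {σ τ : ℕ → Tm S} (h : ∀ n, Conv (σ n) (τ n)) (n : ℕ) :
    Conv (up σ n) (up τ n) := by
  cases n with
  | zero => rfl
  | succ n => simpa using (h n).subst shift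

theorem Conv.scons {σ τ : ℕ → Tm S} {a b : Tm S} (hab : Conv a b) (h : ∀ n, Conv (σ n) (τ n))
    (n : ℕ) : Conv (scons a σ n) (scons b τ n) := by
  cases n with
  | zero => exact hab
  | succ n => exact h n

theorem Conv.substs {σ τ : ℕ → Tm S} (h : ∀ n, Conv (σ n) (τ n)) (M : Tm S) :
    Conv (Tm.subst σ M) (Tm.subst τ M) := by
  induction M generalizing σ τ with
  | var n => exact h n
  | srt s => rfl
  | con n A => rfl
  | app M N ihM ihN => exact Conv.app (ihM h) (ihN h)
  | lam A M ihA ihM => exact Conv.lam (ihA h) (ihM (Conv.up h))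
  | pi A M ihA ihM => exact Conv.pi (ihA h) (ihM (Conv.up h))

theorem Conv.inst {M M' N N' : Tm S} (h : Conv M M') (h' : Conv N N') :
    Conv (inst M N) (inst M' N') :=
  (h.subst _).trans (Conv.substs (Conv.scons h' fun _ => Conv.refl _) _)

theorem Red.inst {M M' N N' : Tm S} (h : Red M M') (h' : Red N N') :
    Red (inst M N) (inst M' N') :=
  (h.subst _).trans (Red.substs (fun n => by cases n; exact h'; rfl) _)

theorem Conv.beta (A M N : Tm S) : Conv (Tm.app (Tm.lam A M) N) (Tm.inst M N) :=
  (Step.beta A M N).conv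

/-! ### Church-Rosser -/

inductive Par : Tm S → Tm S → Prop
  | var (n : ℕ) : Par (var n) (var n)
  | srt (s : S) : Par (srt s) (srt s)
  | con (n : ℕ) (A : Tm S) : Par (con n A) (con n A)
  | app {M M' N N' : Tm S} : Par M M' → Par N N' → Par (app M N) (app M' N')
  | lam {M M' N N' : Tm S} : Par M M' → Par N N' → Par (lam M N) (lam M' N')
  | pi {M M' N N' : Tm S} : Par M M' → Par N N' → Par (pi M N) (pi M' N')
  | beta (A : Tm S) {M M' N N' : Tm S} : Par M M' → Par N N' → Par (app (lam A M) N) (inst M' N')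

theorem Par.refl (M : Tm S) : Par M M := by
  induction M <;> constructor <;> assumption

theorem Step.par {M N : Tm S} (h : Step M N) : Par M N := by
  induction h with
  | beta A M N => exact .beta A (.refl _) (.refl _)
  | appL N _ ih => exact .app ih (.refl _)
  | appR M _ ih => exact .app (.refl _) ih
  | lamL M _ ih => exact .lam ih (.refl _)
  | lamR A _ ih => exact .lam (.refl _) ih
  | piL B _ ih => exact .pi ih (.refl _)
  | piR A _ ih => exact .pi (.refl _) ih

theorem Par.red {M N : Tm S} (h : Par M N) : Red M N := by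
  induction h with
  | var n => rfl
  | srt s => rfl
  | con n A => rfl
  | app _ _ ih ih' => exact Red.app ih ih'
  | lam _ _ ih ih' => exact Red.lam ih ih'
  | pi _ _ ih ih' => exact Red.pi ih ih'
  | beta A _ _ ih ih' => exact Relation.ReflTransGen.head (Step.beta _ _ _) (Red.inst ih ih')

theorem Par.rn {M N : Tm S} (h : Par M N) (ξ : ℕ → ℕ) : Par (ren ξ M) (ren ξ N) := by
  induction h generalizing ξ with
  | var n => exact .refl _
  | srt s => exact .refl _
  | con n A => exact .refl _
  | app _ _ ih ih' => exact .app (ih _) (ih' _)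
  | lam _ _ ih ih' => exact .lam (ih _) (ih' _)
  | pi _ _ ih ih' => exact .pi (ih _) (ih' _)
  | @beta A M M' N N' _ _ ih ih' =>
    have : ren ξ (inst M' N') = inst (ren (upr ξ) M') (ren ξ N') := by
      simp only [ren_eq, subst_subst]; congr 1; funext n; cases n <;> simp [comp_apply, upr]
    rw [this]; exact .beta _ (ih _) (ih' _)

theorem Par.subst {M N : Tm S} (h : Par M N) {σ τ : ℕ → Tm S} (hs : ∀ n, Par (σ n) (τ n)) :
    Par (subst σ M) (subst τ N) := by
  have hup : ∀ {σ τ : ℕ → Tm S}, (∀ n, Par (σ n) (τ n)) → ∀ n, Par (up σ n) (up τ n) := by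
    intro σ τ h n
    cases n with
    | zero => exact .refl _
    | succ n => exact (h n).rn _
  induction h generalizing σ τ with
  | var n => exact hs n
  | srt s => exact .refl _
  | con n A => exact .refl _
  | app _ _ ih ih' => exact .app (ih hs) (ih' hs)
  | lam _ _ ih ih' => exact .lam (ih hs) (ih' (hup hs))
  | pi _ _ ih ih' => exact .pi (ih hs) (ih' (hup hs))
  | beta A _ _ ih ih' => rw [subst_inst]; exact .beta _ (ih (hup hs)) (ih' hs)

def dev : Tm S → Tm S
  | var n => var n
  | srt s => srt s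
  | con n A => con n A
  | app (lam _ M) N => inst (dev M) (dev N)
  | app M N => app (dev M) (dev N)
  | lam A M => lam (dev A) (dev M)
  | pi A M => pi (dev A) (dev M)

theorem Par.tri {M N : Tm S} (h : Par M N) : Par N (dev M) := by
  induction h with
  | var n => exact .refl _
  | srt s => exact .refl _
  | con n A => exact .refl _
  | lam _ _ ih ih' => exact .lam ih ih'
  | pi _ _ ih ih' => exact .pi ih ih'
  | beta A _ _ ih ih' =>
    exact ih.subst (fun n => by cases n; exact ih'; exact .refl _)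
  | @app M M' N N' hM _ ih ih' =>
    cases hM with
    | lam h1 h2 => cases ih with
      | lam _ h4 => exact .beta _ h4 ih'
    | var n => exact .app ih ih'
    | srt n => exact .app ih ih'
    | con n A => exact .app ih ih'
    | app _ _ => exact .app ih ih'
    | pi _ _ => exact .app ih ih'
    | beta _ _ _ => exact .app ih ih'

theorem red_iff_par {M N : Tm S} : Red M N ↔ Relation.ReflTransGen Par M N := by
  constructor
  · intro h
    induction h with
    | refl => rfl
    | tail _ h ih => exact ih.tail h.par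
  · intro h
    induction h with
    | refl => rfl
    | tail _ h ih => exact ih.trans h.red

theorem confluence {M N L : Tm S} (h : Red M N) (h' : Red M L) : ∃ K, Red N K ∧ Red L K := by
  have := Relation.church_rosser (r := Par)
    (fun a b c hb hc => ⟨dev a, .single hb.tri, .single hc.tri⟩) (red_iff_par.1 h)
    (red_iff_par.1 h')
  obtain ⟨K, h1, h2⟩ := this
  exact ⟨K, red_iff_par.2 h1, red_iff_par.2 h2⟩

theorem Conv.join {M N : Tm S} (h : Conv M N) : ∃ K, Red M K ∧ Red N K := by
  induction h with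
  | rel _ _ h => exact ⟨_, .single h, .refl⟩
  | refl => exact ⟨_, .refl, .refl⟩
  | symm _ _ _ ih => obtain ⟨K, h1, h2⟩ := ih; exact ⟨K, h2, h1⟩
  | trans _ _ _ _ _ ih ih' =>
    obtain ⟨K, h1, h2⟩ := ih
    obtain ⟨K', h3, h4⟩ := ih'
    obtain ⟨L, h5, h6⟩ := confluence h2 h3
    exact ⟨L, h1.trans h5, h4.trans h6⟩

theorem Normal.red_eq {M N : Tm S} (hM : Normal M) (h : Red M N) : N = M := by
  rcases h.cases_head with h | ⟨K, h, _⟩
  · exact h.symm
  · exact (hM _ h).elim

theorem Conv.red_normal {M N : Tm S} (h : Conv M N) (hN : Normal N) : Red M N := by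
  obtain ⟨K, h1, h2⟩ := h.join
  rwa [hN.red_eq h2] at h1

theorem Conv.normal_eq {M N : Tm S} (h : Conv M N) (hM : Normal M) (hN : Normal N) : M = N :=
  (hM.red_eq (h.red_normal hN)).symm

theorem normal_var (n : ℕ) : Normal (var n : Tm S) := fun _ h => by cases h
theorem normal_srt (s : S) : Normal (srt s) := fun _ h => by cases h
theorem normal_con (n : ℕ) (A : Tm S) : Normal (con n A) := fun _ h => by cases h

theorem normal_pi {A B : Tm S} : Normal (pi A B) ↔ Normal A ∧ Normal B := by
  constructor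
  · intro h; exact ⟨fun _ h' => h _ (.piL _ h'), fun _ h' => h _ (.piR _ h')⟩
  · rintro ⟨h1, h2⟩ N h
    cases h with
    | piL _ h => exact h1 _ h
    | piR _ h => exact h2 _ h

theorem normal_lam {A B : Tm S} : Normal (lam A B) ↔ Normal A ∧ Normal B := by
  constructor
  · intro h; exact ⟨fun _ h' => h _ (.lamL _ h'), fun _ h' => h _ (.lamR _ h')⟩
  · rintro ⟨h1, h2⟩ N h
    cases h with
    | lamL _ h => exact h1 _ h
    | lamR _ h => exact h2 _ h

theorem normal_app {M N : Tm S} :
    Normal (app M N) ↔ Normal M ∧ Normal N ∧ ∀ A B, M ≠ lam A B := by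
  constructor
  · intro h
    refine ⟨fun _ h' => h _ (.appL _ h'), fun _ h' => h _ (.appR _ h'), ?_⟩
    rintro A B rfl
    exact h _ (.beta _ _ _)
  · rintro ⟨h1, h2, h3⟩ N h
    cases h with
    | beta A B _ => exact h3 _ _ rfl
    | appL _ h => exact h1 _ h
    | appR _ h => exact h2 _ h

theorem Red.pi_inv {A B K : Tm S} (h : Red (Tm.pi A B) K) :
    ∃ A' B', K = Tm.pi A' B' ∧ Red A A' ∧ Red B B' := by
  induction h with
  | refl => exact ⟨A, B, rfl, .refl, .refl⟩
  | tail _ h ih =>
    obtain ⟨A', B', rfl, h1, h2⟩ := ih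
    cases h with
    | piL _ h => exact ⟨_, _, rfl, h1.tail h, h2⟩
    | piR _ h => exact ⟨_, _, rfl, h1, h2.tail h⟩

theorem Red.lam_inv {A B K : Tm S} (h : Red (Tm.lam A B) K) :
    ∃ A' B', K = Tm.lam A' B' ∧ Red A A' ∧ Red B B' := by
  induction h with
  | refl => exact ⟨A, B, rfl, .refl, .refl⟩
  | tail _ h ih =>
    obtain ⟨A', B', rfl, h1, h2⟩ := ih
    cases h with
    | lamL _ h => exact ⟨_, _, rfl, h1.tail h, h2⟩
    | lamR _ h => exact ⟨_, _, rfl, h1, h2.tail h⟩

theorem Conv.pi_inj {A B A' B' : Tm S} (h : Conv (Tm.pi A B) (Tm.pi A' B')) :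
    Conv A A' ∧ Conv B B' := by
  obtain ⟨K, h1, h2⟩ := h.join
  obtain ⟨_, _, rfl, h3, h4⟩ := h1.pi_inv
  obtain ⟨_, _, h, h5, h6⟩ := h2.pi_inv
  cases h
  exact ⟨h3.conv.trans h5.conv.symm, h4.conv.trans h6.conv.symm⟩

theorem Conv.srt_inj {s t : S} (h : Conv (srt s) (srt t)) : s = t := by
  simpa using h.normal_eq (normal_srt _) (normal_srt _)

theorem not_conv_pi_srt {A B : Tm S} {s : S} : ¬ Conv (pi A B) (srt s) := by
  intro h
  obtain ⟨_, _, h, _⟩ := (h.red_normal (normal_srt _)).pi_inv
  cases h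

theorem Conv.red_pi {T A B : Tm S} (h : Conv T (Tm.pi A B)) :
    ∃ A' B', Red T (Tm.pi A' B') ∧ Red A A' ∧ Red B B' := by
  obtain ⟨K, h1, h2⟩ := h.join
  obtain ⟨_, _, rfl, h3, h4⟩ := h2.pi_inv
  exact ⟨_, _, h1, h3, h4⟩

/-! ### Renamings reflect reduction -/

def IsRen (σ : ℕ → Tm S) : Prop := ∀ n, ∃ m, σ n = var m

theorem IsRen.up {σ : ℕ → Tm S} (h : IsRen σ) : IsRen (up σ) := by
  intro n
  cases n with
  | zero => exact ⟨0, rfl⟩
  | succ n => obtain ⟨m, hm⟩ := h n; exact ⟨m + 1, by simp [hm]⟩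

theorem isRen_shift : IsRen (shift : ℕ → Tm S) := fun n => ⟨n + 1, rfl⟩

theorem IsRen.eq_srt {σ : ℕ → Tm S} (h : IsRen σ) {M : Tm S} {s : S} (e : subst σ M = srt s) :
    M = srt s := by
  cases M with
  | var n => obtain ⟨m, hm⟩ := h n; simp [hm] at e
  | _ => simp_all

theorem IsRen.eq_con {σ : ℕ → Tm S} (h : IsRen σ) {M A : Tm S} {k : ℕ}
    (e : subst σ M = con k A) : M = con k A := by
  cases M with
  | var n => obtain ⟨m, hm⟩ := h n; simp [hm] at e
  | _ => simp_all

theorem IsRen.eq_var {σ : ℕ → Tm S} (_h : IsRen σ) {M : Tm S} {k : ℕ}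
    (e : subst σ M = var k) : ∃ n, M = var n ∧ σ n = var k := by
  cases M with
  | var n => exact ⟨n, rfl, e⟩
  | _ => simp_all

theorem IsRen.eq_app {σ : ℕ → Tm S} (h : IsRen σ) {M A B : Tm S} (e : subst σ M = app A B) :
    ∃ A' B', M = app A' B' ∧ subst σ A' = A ∧ subst σ B' = B := by
  cases M with
  | var n => obtain ⟨m, hm⟩ := h n; simp [hm] at e
  | app A' B' => exact ⟨A', B', rfl, by simpa using e⟩
  | _ => simp_all

theorem IsRen.eq_lam {σ : ℕ → Tm S} (h : IsRen σ) {M A B : Tm S} (e : subst σ M = lam A B) :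
    ∃ A' B', M = lam A' B' ∧ subst σ A' = A ∧ subst (Tm.up σ) B' = B := by
  cases M with
  | var n => obtain ⟨m, hm⟩ := h n; simp [hm] at e
  | lam A' B' => exact ⟨A', B', rfl, by simpa using e⟩
  | _ => simp_all

theorem IsRen.eq_pi {σ : ℕ → Tm S} (h : IsRen σ) {M A B : Tm S} (e : subst σ M = pi A B) :
    ∃ A' B', M = pi A' B' ∧ subst σ A' = A ∧ subst (Tm.up σ) B' = B := by
  cases M with
  | var n => obtain ⟨m, hm⟩ := h n; simp [hm] at e
  | pi A' B' => exact ⟨A', B', rfl, by simpa using e⟩
  | _ => simp_all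

theorem IsRen.step_inv {σ : ℕ → Tm S} (h : IsRen σ) {M K : Tm S} (hs : Step (subst σ M) K) :
    ∃ M', Step M M' ∧ K = subst σ M' := by
  generalize e : subst σ M = X at hs
  induction hs generalizing σ M with
  | beta A B N =>
    obtain ⟨M₁, N', rfl, h1, rfl⟩ := h.eq_app e
    obtain ⟨A', B', rfl, rfl, rfl⟩ := h.eq_lam h1
    exact ⟨_, .beta _ _ _, by simp⟩
  | appL N _ ih =>
    obtain ⟨M₁, N', rfl, h1, rfl⟩ := h.eq_app e
    obtain ⟨M', h2, rfl⟩ := ih h h1
    exact ⟨_, .appL _ h2, rfl⟩
  | appR N _ ih =>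
    obtain ⟨M₁, N', rfl, rfl, h1⟩ := h.eq_app e
    obtain ⟨M', h2, rfl⟩ := ih h h1
    exact ⟨_, .appR _ h2, rfl⟩
  | lamL N _ ih =>
    obtain ⟨M₁, N', rfl, h1, rfl⟩ := h.eq_lam e
    obtain ⟨M', h2, rfl⟩ := ih h h1
    exact ⟨_, .lamL _ h2, rfl⟩
  | lamR N _ ih =>
    obtain ⟨M₁, N', rfl, rfl, h1⟩ := h.eq_lam e
    obtain ⟨M', h2, rfl⟩ := ih h.up h1
    exact ⟨_, .lamR _ h2, rfl⟩
  | piL N _ ih =>
    obtain ⟨M₁, N', rfl, h1, rfl⟩ := h.eq_pi e
    obtain ⟨M', h2, rfl⟩ := ih h h1
    exact ⟨_, .piL _ h2, rfl⟩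
  | piR N _ ih =>
    obtain ⟨M₁, N', rfl, rfl, h1⟩ := h.eq_pi e
    obtain ⟨M', h2, rfl⟩ := ih h.up h1
    exact ⟨_, .piR _ h2, rfl⟩

theorem Normal.ren {σ : ℕ → Tm S} (h : IsRen σ) {M : Tm S} (hM : Normal M) :
    Normal (subst σ M) := fun _ hs => by
  obtain ⟨M', h1, _⟩ := h.step_inv hs
  exact hM _ h1

theorem Normal.of_subst {σ : ℕ → Tm S} {M : Tm S} (hM : Normal (subst σ M)) : Normal M :=
  fun _ hs => hM _ (hs.subst σ)

/-! ### Normal forms -/

def HasNf (M : Tm S) : Prop := ∃ N, Normal N ∧ Conv M N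

open Classical in
noncomputable def nf (M : Tm S) : Tm S :=
  if h : HasNf M then h.choose else var 0

theorem HasNf.normal {M : Tm S} (h : HasNf M) : Normal (nf M) := by
  rw [nf, dif_pos h]; exact h.choose_spec.1

theorem HasNf.conv {M : Tm S} (h : HasNf M) : Conv M (nf M) := by
  rw [nf, dif_pos h]; exact h.choose_spec.2

theorem HasNf.red {M : Tm S} (h : HasNf M) : Red M (nf M) := h.conv.red_normal h.normal

theorem nf_normal (M : Tm S) : Normal (nf M) := by
  by_cases h : HasNf M
  · exact h.normal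
  · rw [nf, dif_neg h]; exact normal_var 0

theorem nf_eq {M N : Tm S} (hN : Normal N) (h : Conv M N) : nf M = N := by
  have hM : HasNf M := ⟨N, hN, h⟩
  exact (hM.conv.symm.trans h).normal_eq hM.normal hN

theorem Normal.nf_eq {M : Tm S} (h : Normal M) : nf M = M := Tm.nf_eq h (.refl _)

theorem Normal.hasNf {M : Tm S} (h : Normal M) : HasNf M := ⟨M, h, .refl _⟩

@[simp] theorem nf_nf (M : Tm S) : nf (nf M) = nf M := (nf_normal M).nf_eq

theorem HasNf.of_conv {M N : Tm S} (h : HasNf M) (hc : Conv M N) : HasNf N := by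
  obtain ⟨K, h1, h2⟩ := h
  exact ⟨K, h1, hc.symm.trans h2⟩

theorem Conv.nf_eq {M N : Tm S} (h : Conv M N) : nf M = nf N := by
  by_cases hM : HasNf M
  · exact (Tm.nf_eq hM.normal (h.symm.trans hM.conv)).symm
  · have hN : ¬ HasNf N := fun hN => hM (hN.of_conv h.symm)
    rw [nf, nf, dif_neg hM, dif_neg hN]

theorem HasNf.pi_inv {A B : Tm S} (h : HasNf (pi A B)) : HasNf A ∧ HasNf B := by
  obtain ⟨A', B', e, h1, h2⟩ := h.red.pi_inv
  have := h.normal
  rw [e, normal_pi] at this
  exact ⟨⟨_, this.1, h1.conv⟩, ⟨_, this.2, h2.conv⟩⟩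

theorem HasNf.lam_inv {A B : Tm S} (h : HasNf (lam A B)) : HasNf A ∧ HasNf B := by
  obtain ⟨A', B', e, h1, h2⟩ := h.red.lam_inv
  have := h.normal
  rw [e, normal_lam] at this
  exact ⟨⟨_, this.1, h1.conv⟩, ⟨_, this.2, h2.conv⟩⟩

theorem nf_pi {A B : Tm S} (h : HasNf (pi A B)) : nf (pi A B) = pi (nf A) (nf B) :=
  nf_eq (normal_pi.2 ⟨nf_normal _, nf_normal _⟩) (Conv.pi h.pi_inv.1.conv h.pi_inv.2.conv)

theorem nf_lam {A B : Tm S} (h : HasNf (lam A B)) : nf (lam A B) = lam (nf A) (nf B) :=
  nf_eq (normal_lam.2 ⟨nf_normal _, nf_normal _⟩) (Conv.lam h.lam_inv.1.conv h.lam_inv.2.conv)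

@[simp] theorem nf_srt (s : S) : nf (srt s) = srt s := (normal_srt s).nf_eq

theorem HasNf.ren {σ : ℕ → Tm S} (h : IsRen σ) {M : Tm S} (hM : HasNf M) : HasNf (subst σ M) :=
  ⟨_, hM.normal.ren h, hM.conv.subst σ⟩

theorem nf_ren {σ : ℕ → Tm S} (h : IsRen σ) {M : Tm S} (hM : HasNf M) :
    nf (subst σ M) = subst σ (nf M) :=
  nf_eq (hM.normal.ren h) (hM.conv.subst σ)

/-- If the normal form is not the junk value shape, it is a true normal form. -/
theorem conv_of_nf_pi {M A B : Tm S} (h : nf M = pi A B) : Conv M (pi A B) := by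
  by_cases hM : HasNf M
  · exact h ▸ hM.conv
  · rw [nf, dif_neg hM] at h; cases h

theorem conv_of_nf_srt {M : Tm S} {s : S} (h : nf M = srt s) : Conv M (srt s) := by
  by_cases hM : HasNf M
  · exact h ▸ hM.conv
  · rw [nf, dif_neg hM] at h; cases h

/-! ### Neutral terms and strong normalization -/

/-- Terms whose head is not an abstraction. -/
inductive Neu : Tm S → Prop
  | var (n : ℕ) : Neu (var n)
  | srt (s : S) : Neu (srt s)
  | con (n : ℕ) (A : Tm S) : Neu (con n A)
  | pi (A B : Tm S) : Neu (pi A B)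
  | app {M : Tm S} (N : Tm S) : Neu M → Neu (app M N)

theorem Neu.step {M N : Tm S} (h : Neu M) (hs : Step M N) : Neu N := by
  induction h generalizing N with
  | app N hM ih =>
    cases hs with
    | beta => cases hM
    | appL _ h => exact .app _ (ih h)
    | appR _ h => exact .app _ hM
  | pi A B => cases hs <;> constructor
  | _ => cases hs

theorem Normal.neu_or_lam {M : Tm S} (h : Normal M) : Neu M ∨ ∃ A B, M = lam A B := by
  induction M with
  | lam A B => exact .inr ⟨_, _, rfl⟩
  | app M N ih _ =>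
    rcases ih (normal_app.1 h).1 with h' | ⟨A, B, rfl⟩
    · exact .inl (.app _ h')
    · exact ((normal_app.1 h).2.2 _ _ rfl).elim
  | _ => left; constructor

/-- Terms headed by the variable `x`. -/
inductive VHd (x : ℕ) : Tm S → Prop
  | var : VHd x (var x)
  | app {M : Tm S} (N : Tm S) : VHd x M → VHd x (app M N)

/-- Terms headed by a constant. -/
inductive CHd : Tm S → Prop
  | con (n : ℕ) (A : Tm S) : CHd (con n A)
  | app {M : Tm S} (N : Tm S) : CHd M → CHd (app M N)

theorem VHd.neu {x : ℕ} {M : Tm S} (h : VHd x M) : Neu M := by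
  induction h <;> constructor; assumption
theorem CHd.neu {M : Tm S} (h : CHd M) : Neu M := by
  induction h <;> constructor; assumption

theorem VHd.step {x : ℕ} {M N : Tm S} (h : VHd x M) (hs : Step M N) : VHd x N := by
  induction h generalizing N with
  | var => cases hs
  | app N hM ih =>
    cases hs with
    | beta => cases hM
    | appL _ h => exact .app _ (ih h)
    | appR _ h => exact .app _ hM

theorem CHd.step {M N : Tm S} (h : CHd M) (hs : Step M N) : CHd N := by
  induction h generalizing N with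
  | con => cases hs
  | app N hM ih =>
    cases hs with
    | beta => cases hM
    | appL _ h => exact .app _ (ih h)
    | appR _ h => exact .app _ hM

theorem VHd.red {x : ℕ} {M N : Tm S} (h : VHd x M) (hs : Red M N) : VHd x N := by
  induction hs with
  | refl => exact h
  | tail _ h' ih => exact ih.step h'

theorem CHd.red {M N : Tm S} (h : CHd M) (hs : Red M N) : CHd N := by
  induction hs with
  | refl => exact h
  | tail _ h' ih => exact ih.step h'

theorem CHd.subst {M : Tm S} (h : CHd M) (σ : ℕ → Tm S) : CHd (subst σ M) := by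
  induction h <;> constructor; assumption

theorem VHd.subst {x y : ℕ} {M : Tm S} (h : VHd x M) {σ : ℕ → Tm S} (hσ : VHd y (σ x)) :
    VHd y (subst σ M) := by
  induction h with
  | var => exact hσ
  | app N _ ih => exact .app _ ih

theorem VHd.unique {x y : ℕ} {M : Tm S} (h : VHd x M) (h' : VHd y M) : x = y := by
  induction h with
  | var => cases h'; rfl
  | app N _ ih => cases h' with | app _ h' => exact ih h'

theorem CHd.not_conv_pi {M A B : Tm S} (h : CHd M) : ¬ Conv M (pi A B) := by
  intro hc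
  obtain ⟨_, _, h1, _⟩ := hc.red_pi
  cases h.red h1

theorem CHd.not_conv_srt {M : Tm S} {s : S} (h : CHd M) : ¬ Conv M (srt s) := by
  intro hc
  cases h.red (hc.red_normal (normal_srt _))

def SN (M : Tm S) : Prop := Acc (fun N M => Step M N) M

theorem SN.step {M N : Tm S} (h : SN M) (hs : Step M N) : SN N := h.inv hs

theorem SN.red {M N : Tm S} (h : SN M) (hs : Red M N) : SN N := by
  induction hs with
  | refl => exact h
  | tail _ h' ih => exact ih.step h'

theorem SN.intro {M : Tm S} (h : ∀ N, Step M N → SN N) : SN M := Acc.intro _ h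

theorem Normal.sn {M : Tm S} (h : Normal M) : SN M := SN.intro fun N hs => (h N hs).elim

theorem SN.of_map {f : Tm S → Tm S} (hf : ∀ {a b}, Step a b → Step (f a) (f b)) {M : Tm S}
    (h : SN (f M)) : SN M := by
  generalize e : f M = X at h
  induction h generalizing M with
  | intro X _ ih => exact SN.intro fun N hs => ih (f N) (e ▸ hf hs) rfl

theorem SN.of_subst {σ : ℕ → Tm S} {M : Tm S} (h : SN (subst σ M)) : SN M :=
  SN.of_map (f := subst σ) (fun h => h.subst σ) h

theorem SN.appL {M N : Tm S} (h : SN (app M N)) : SN M :=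
  SN.of_map (f := fun x => app x N) (Step.appL N) h
theorem SN.appR {M N : Tm S} (h : SN (app M N)) : SN N := SN.of_map (Step.appR M) h
theorem SN.lamL {M N : Tm S} (h : SN (lam M N)) : SN M :=
  SN.of_map (f := fun x => lam x N) (Step.lamL N) h
theorem SN.lamR {M N : Tm S} (h : SN (lam M N)) : SN N := SN.of_map (Step.lamR M) h
theorem SN.piL {M N : Tm S} (h : SN (pi M N)) : SN M :=
  SN.of_map (f := fun x => pi x N) (Step.piL N) h
theorem SN.piR {M N : Tm S} (h : SN (pi M N)) : SN N := SN.of_map (Step.piR M) h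

theorem SN.lam {A M : Tm S} (hA : SN A) (hM : SN M) : SN (lam A M) := by
  induction hA generalizing M with
  | intro A hA ihA =>
    induction hM with
    | intro M hM ihM =>
      refine SN.intro fun N hs => ?_
      cases hs with
      | lamL _ h => exact ihA _ h (Acc.intro _ hM)
      | lamR _ h => exact ihM _ h

theorem SN.pi {A M : Tm S} (hA : SN A) (hM : SN M) : SN (pi A M) := by
  induction hA generalizing M with
  | intro A hA ihA =>
    induction hM with
    | intro M hM ihM =>
      refine SN.intro fun N hs => ?_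
      cases hs with
      | piL _ h => exact ihA _ h (Acc.intro _ hM)
      | piR _ h => exact ihM _ h

theorem SN.app_neu {M N : Tm S} (hM : SN M) (hN : SN N) (hn : Neu M) : SN (app M N) := by
  induction hM generalizing N with
  | intro M hM ihM =>
    induction hN with
    | intro N hN ihN =>
      refine SN.intro fun K hs => ?_
      cases hs with
      | beta => cases hn
      | appL _ h => exact ihM _ h (Acc.intro _ hN) (hn.step h)
      | appR _ h => exact ihN _ h

/-- Weak head contraction of a redex with annotation `A` and argument `N`. -/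
inductive WH (A N : Tm S) : Tm S → Tm S → Prop
  | beta (M : Tm S) : WH A N (app (lam A M) N) (inst M N)
  | app {X X' : Tm S} (Y : Tm S) : WH A N X X' → WH A N (app X Y) (app X' Y)

theorem WH.step {A N X X' : Tm S} (h : WH A N X X') : Step X X' := by
  induction h with
  | beta M => exact .beta _ _ _
  | app Y _ ih => exact .appL _ ih

theorem WH.subst {A N X X' : Tm S} (h : WH A N X X') (σ : ℕ → Tm S) :
    WH (subst σ A) (subst σ N) (subst σ X) (subst σ X') := by
  induction h with
  | beta M => rw [subst_inst]; exact .beta _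
  | app Y _ ih => exact .app _ ih

theorem WH.not_neu {A N X X' : Tm S} (h : WH A N X X') : ¬ Neu X := by
  induction h with
  | beta M => intro h; cases h with | app _ h => cases h
  | app Y _ ih => intro h; cases h with | app _ h => exact ih h

theorem WH.cases_step {A N X X' Z : Tm S} (h : WH A N X X') (hs : Step X Z) :
    Z = X' ∨ (∃ A', Step A A' ∧ WH A' N Z X') ∨
      (∃ N' X'', Step N N' ∧ WH A N' Z X'' ∧ Red X' X'') ∨
      (∃ X'', WH A N Z X'' ∧ Step X' X'') := by
  induction h generalizing Z with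
  | beta M =>
    cases hs with
    | beta => exact .inl rfl
    | appL _ h =>
      cases h with
      | lamL _ h => exact .inr (.inl ⟨_, h, .beta _⟩)
      | lamR _ h => exact .inr (.inr (.inr ⟨_, .beta _, h.subst _⟩))
    | appR _ h => exact .inr (.inr (.inl ⟨_, _, h, .beta _, Red.inst .refl (.single h)⟩))
  | app Y hX ih =>
    cases hs with
    | beta => cases hX
    | appL _ h =>
      rcases ih h with rfl | ⟨A', h1, h2⟩ | ⟨N', X'', h1, h2, h3⟩ | ⟨X'', h1, h2⟩
      · exact .inl rfl
      · exact .inr (.inl ⟨_, h1, .app _ h2⟩)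
      · exact .inr (.inr (.inl ⟨_, _, h1, .app _ h2, Red.app h3 .refl⟩))
      · exact .inr (.inr (.inr ⟨_, .app _ h1, .appL _ h2⟩))
    | appR _ h => exact .inr (.inr (.inr ⟨_, .app _ hX, .appR _ h⟩))

theorem WH.sn {A N X X' : Tm S} (h : WH A N X X') (hA : SN A) (hN : SN N) (hX : SN X') :
    SN X := by
  induction hA generalizing N X X' with
  | intro A hA ihA =>
    induction hN generalizing X X' with
    | intro N hN ihN =>
      induction hX generalizing X with
      | intro X' hX ihX =>
        refine SN.intro fun Z hs => ?_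
        rcases h.cases_step hs with rfl | ⟨A', h1, h2⟩ | ⟨N', X'', h1, h2, h3⟩ | ⟨X'', h1, h2⟩
        · exact Acc.intro _ hX
        · exact ihA _ h1 h2 (Acc.intro _ hN) (Acc.intro _ hX)
        · exact ihN _ h1 h2 (SN.red (Acc.intro _ hX) h3)
        · exact ihX _ h2 h1

theorem shape (M : Tm S) : Neu M ∨ (∃ A B, M = lam A B) ∨ ∃ A N M', WH A N M M' := by
  induction M with
  | lam A B => exact .inr (.inl ⟨_, _, rfl⟩)
  | app M N ih _ =>
    rcases ih with h | ⟨A, B, rfl⟩ | ⟨A, N', M', h⟩
    · exact .inl (.app _ h)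
    · exact .inr (.inr ⟨_, _, _, .beta _⟩)
    · exact .inr (.inr ⟨_, _, _, .app _ h⟩)
  | _ => left; constructor

/-- Immediate subterms. -/
inductive ISub : Tm S → Tm S → Prop
  | appL (M N : Tm S) : ISub M (app M N)
  | appR (M N : Tm S) : ISub N (app M N)
  | lamL (M N : Tm S) : ISub M (lam M N)
  | lamR (M N : Tm S) : ISub N (lam M N)
  | piL (M N : Tm S) : ISub M (pi M N)
  | piR (M N : Tm S) : ISub N (pi M N)

abbrev PSub (M N : Tm S) : Prop := Relation.TransGen ISub M N

theorem WH.psub {A N X X' : Tm S} (h : WH A N X X') : PSub A X ∧ PSub N X := by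
  induction h with
  | beta M => exact ⟨.tail (.single (.lamL _ _)) (.appL _ _), .single (.appR _ _)⟩
  | app Y _ ih => exact ⟨ih.1.tail (.appL _ _), ih.2.tail (.appL _ _)⟩

theorem ISub.step {M N M' : Tm S} (h : ISub M N) (hs : Step M M') :
    ∃ N', Step N N' ∧ ISub M' N' := by
  cases h with
  | appL => exact ⟨_, .appL _ hs, .appL _ _⟩
  | appR => exact ⟨_, .appR _ hs, .appR _ _⟩
  | lamL => exact ⟨_, .lamL _ hs, .lamL _ _⟩
  | lamR => exact ⟨_, .lamR _ hs, .lamR _ _⟩
  | piL => exact ⟨_, .piL _ hs, .piL _ _⟩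
  | piR => exact ⟨_, .piR _ hs, .piR _ _⟩

theorem isub_wf : WellFounded (ISub : Tm S → Tm S → Prop) := by
  refine ⟨fun M => ?_⟩
  induction M <;> refine Acc.intro _ fun N h => ?_ <;> cases h <;> assumption

theorem SN.ind {P : Tm S → Prop}
    (h : ∀ M, (∀ N, Step M N → P N) → (∀ N, PSub N M → P N) → P M) {M : Tm S} (hM : SN M) :
    P M := by
  have aux : ∀ {N N' M : Tm S}, Step N N' → Relation.ReflTransGen ISub N M →
      ∃ M', Step M M' ∧ Relation.ReflTransGen ISub N' M' := by
    intro N N' M hs hN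
    induction hN with
    | refl => exact ⟨_, hs, .refl⟩
    | tail _ h2 ih2 =>
      obtain ⟨K', h3, h4⟩ := ih2
      obtain ⟨M', h5, h6⟩ := h2.step h3
      exact ⟨M', h5, h4.tail h6⟩
  have key : ∀ N, Relation.ReflTransGen ISub N M → P N := by
    induction hM with
    | intro M _ ih =>
      intro N
      induction N using (isub_wf (S := S)).transGen.induction with
      | _ N ihN =>
        intro hN
        refine h N (fun N' hs => ?_) (fun N' hs => ihN N' hs (hs.to_reflTransGen.trans hN))
        obtain ⟨M', h1, h2⟩ := aux hs hN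
        exact ih M' h1 N' h2
  exact key M .refl

end Tm

end Vale.Agent.P340
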