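import Vale.Agent.P340.Graph

/-! Reduction of the conjecture to finite specifications with constants. -/

namespace Vale.Agent.P340

universe u

variable {S : Type u}

namespace Transfer

open Tm

/-! ### Embedding of expressions -/

def emb : Expr S → Tm S
  | .var n => .var n
  | .srt s => .srt s
  | .app M N => .app (emb M) (emb N)
  | .lam A M => .lam (emb A) (emb M)
  | .pi A B => .pi (emb A) (emb B)

theorem upr_eq (ξ : ℕ → ℕ) : Expr.upr ξ = Tm.upr ξ := by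
  funext n; cases n <;> rfl

theorem emb_ren (ξ : ℕ → ℕ) (M : Expr S) : emb (Expr.ren ξ M) = Tm.ren ξ (emb M) := by
  induction M generalizing ξ with
  | var n => rfl
  | srt s => rfl
  | app M N ihM ihN => simp only [Expr.ren, emb, Tm.ren, ihM, ihN]
  | lam A M ihA ihM => simp only [Expr.ren, emb, Tm.ren, ihA, ihM, upr_eq]
  | pi A M ihA ihM => simp only [Expr.ren, emb, Tm.ren, ihA, ihM, upr_eq]

theorem emb_lift (M : Expr S) : emb (Expr.lift M) = Tm.lift (emb M) := by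
  rw [Expr.lift, emb_ren, ren_eq]; rfl

theorem emb_ups (σ : ℕ → Expr S) :
    (fun n => emb (Expr.ups σ n)) = Tm.up fun n => emb (σ n) := by
  funext n
  cases n with
  | zero => rfl
  | succ n => rw [up_succ]; exact emb_lift _

theorem emb_subst (σ : ℕ → Expr S) (M : Expr S) :
    emb (Expr.subst σ M) = Tm.subst (fun n => emb (σ n)) (emb M) := by
  induction M generalizing σ with
  | var n => rfl
  | srt s => rfl
  | app M N ihM ihN => simp only [Expr.subst, emb, Tm.subst, ihM, ihN]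
  | lam A M ihA ihM => simp only [Expr.subst, emb, Tm.subst, ihA, ihM, emb_ups]
  | pi A M ihA ihM => simp only [Expr.subst, emb, Tm.subst, ihA, ihM, emb_ups]

theorem emb_inst (M N : Expr S) : emb (Expr.inst M N) = Tm.inst (emb M) (emb N) := by
  rw [Expr.inst, emb_subst]
  congr 1
  funext n
  cases n <;> rfl

theorem emb_step {M N : Expr S} (h : Expr.Step M N) : Step (emb M) (emb N) := by
  induction h with
  | beta A M N => rw [emb_inst]; exact .beta _ _ _
  | appL N _ ih => exact .appL _ ih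
  | appR M _ ih => exact .appR _ ih
  | lamL M _ ih => exact .lamL _ ih
  | lamR A _ ih => exact .lamR _ ih
  | piL B _ ih => exact .piL _ ih
  | piR A _ ih => exact .piR _ ih

theorem emb_conv {M N : Expr S} (h : Expr.Conv M N) : Conv (emb M) (emb N) := by
  induction h with
  | rel _ _ h => exact (emb_step h).conv
  | refl => rfl
  | symm _ _ _ ih => exact ih.symm
  | trans _ _ _ _ _ ih ih' => exact ih.trans ih'

theorem emb_red {M N : Expr S} (h : Relation.ReflTransGen Expr.Step M N) :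
    Red (emb M) (emb N) := by
  induction h with
  | refl => rfl
  | tail _ h ih => exact ih.tail (emb_step h)

theorem emb_ty {P : PTS S} (K : ℕ → Tm S → Prop) {Γ : List (Expr S)} {M A : Expr S}
    (h : Typ P Γ M A) : Ty ⟨P, K⟩ (Γ.map emb) (emb M) (emb A) := by
  induction h with
  | ax h => exact .ax h
  | var _ ih => rw [emb_lift]; exact .var ih
  | weak _ _ ih ih' => rw [emb_lift, emb_lift]; exact .weak ih ih'
  | pi _ _ h ih ih' => exact .pi ih ih' h
  | lam _ _ ih ih' => exact .lam ih ih'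
  | app _ _ ih ih' => rw [emb_inst]; exact .app ih ih'
  | conv _ _ h ih ih' => exact .conv ih ih' (emb_conv h)

theorem no_seq {M : Expr S} (h : SN (emb M)) :
    ¬ ∃ f : ℕ → Expr S, f 0 = M ∧ ∀ n, Expr.Step (f n) (f (n + 1)) := by
  generalize e : emb M = X at h
  induction h generalizing M with
  | intro X _ ih =>
    rintro ⟨f, h0, hf⟩
    refine ih (emb (f 1)) ?_ rfl ⟨fun n => f (n + 1), rfl, fun n => hf (n + 1)⟩
    rw [← e, ← h0]
    exact emb_step (hf 0)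

/-! ### Back to expressions -/

def un (z : S) : Tm S → Expr S
  | .var n => .var n
  | .srt s => .srt s
  | .app M N => .app (un z M) (un z N)
  | .lam A M => .lam (un z A) (un z M)
  | .pi A B => .pi (un z A) (un z B)
  | .con _ _ => .srt z

theorem un_ren (z : S) (ξ : ℕ → ℕ) (M : Tm S) : un z (Tm.ren ξ M) = Expr.ren ξ (un z M) := by
  induction M generalizing ξ with
  | var n => rfl
  | srt s => rfl
  | con n A => rfl
  | app M N ihM ihN => simp only [Expr.ren, un, Tm.ren, ihM, ihN]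
  | lam A M ihA ihM => simp only [Expr.ren, un, Tm.ren, ihA, ihM, upr_eq]
  | pi A M ihA ihM => simp only [Expr.ren, un, Tm.ren, ihA, ihM, upr_eq]

theorem un_up (z : S) (σ : ℕ → Tm S) :
    (fun n => un z (Tm.up σ n)) = Expr.ups fun n => un z (σ n) := by
  funext n
  cases n with
  | zero => rfl
  | succ n => exact un_ren _ _ _

theorem un_subst (z : S) (σ : ℕ → Tm S) (M : Tm S) :
    un z (Tm.subst σ M) = Expr.subst (fun n => un z (σ n)) (un z M) := by
  induction M generalizing σ with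
  | var n => rfl
  | srt s => rfl
  | con n A => rfl
  | app M N ihM ihN => simp only [Expr.subst, un, Tm.subst, ihM, ihN]
  | lam A M ihA ihM => simp only [Expr.subst, un, Tm.subst, ihA, ihM, un_up]
  | pi A M ihA ihM => simp only [Expr.subst, un, Tm.subst, ihA, ihM, un_up]

theorem un_lift (z : S) (M : Tm S) : un z (Tm.lift M) = Expr.lift (un z M) := by
  rw [Expr.lift, ← un_ren, ren_eq]; rfl

theorem un_inst (z : S) (M N : Tm S) : un z (Tm.inst M N) = Expr.inst (un z M) (un z N) := by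
  rw [Expr.inst, Tm.inst, un_subst]
  congr 1
  funext n
  cases n <;> rfl

theorem un_step (z : S) {M N : Tm S} (h : Step M N) : Expr.Step (un z M) (un z N) := by
  induction h with
  | beta A M N => rw [un_inst]; exact .beta _ _ _
  | appL N _ ih => exact .appL _ ih
  | appR M _ ih => exact .appR _ ih
  | lamL M _ ih => exact .lamL _ ih
  | lamR A _ ih => exact .lamR _ ih
  | piL B _ ih => exact .piL _ ih
  | piR A _ ih => exact .piR _ ih

theorem un_conv (z : S) {M N : Tm S} (h : Conv M N) : Expr.Conv (un z M) (un z N) := by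
  induction h with
  | rel _ _ h => exact .rel _ _ (un_step z h)
  | refl => exact .refl _
  | symm _ _ _ ih => exact .symm _ _ ih
  | trans _ _ _ _ _ ih ih' => exact .trans _ _ _ ih ih'

theorem un_emb (z : S) (M : Expr S) : un z (emb M) = M := by
  induction M with
  | var n => rfl
  | srt s => rfl
  | app M N ihM ihN => simp only [emb, un, ihM, ihN]
  | lam A M ihA ihM => simp only [emb, un, ihA, ihM]
  | pi A M ihA ihM => simp only [emb, un, ihA, ihM]

theorem un_ty (z : S) {P : PTS S} {Γ : List (Tm S)} {M A : Tm S}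
    (h : Ty ⟨P, fun _ _ => False⟩ Γ M A) : Typ P (Γ.map (un z)) (un z M) (un z A) := by
  induction h with
  | ax h => exact .ax h
  | var _ ih => rw [un_lift]; exact .var ih
  | weak _ _ ih ih' => rw [un_lift, un_lift]; exact .weak ih ih'
  | pi _ _ h ih ih' => exact .pi ih ih' h
  | lam _ _ ih ih' => exact .lam ih ih'
  | app _ _ ih ih' => rw [un_inst]; exact .app ih ih'
  | conv _ _ h ih ih' => exact .conv ih ih' (un_conv z h)
  | con h => exact h.elim
  | conO h => exact h.elim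

/-- All constants of a term lie in `X`. -/
def ConIn (X : ℕ → Tm S → Prop) : Tm S → Prop
  | .var _ => True
  | .srt _ => True
  | .app M N => ConIn X M ∧ ConIn X N
  | .lam A M => ConIn X A ∧ ConIn X M
  | .pi A B => ConIn X A ∧ ConIn X B
  | .con n A => X n A

theorem ConIn.ren {X : ℕ → Tm S → Prop} {σ : ℕ → Tm S} (hσ : IsRen σ) {M : Tm S}
    (h : ConIn X M) : ConIn X (Tm.subst σ M) := by
  induction M generalizing σ with
  | var n => obtain ⟨m, hm⟩ := hσ n; rw [subst_var, hm]; trivial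
  | srt s => trivial
  | con n A => exact h
  | app M N ihM ihN => exact ⟨ihM hσ h.1, ihN hσ h.2⟩
  | lam A M ihA ihM => exact ⟨ihA hσ h.1, ihM hσ.up h.2⟩
  | pi A M ihA ihM => exact ⟨ihA hσ h.1, ihM hσ.up h.2⟩

theorem conIn_of_ty {Q : Sig S} {Γ : List (Tm S)} {M A : Tm S} (h : Ty Q Γ M A) :
    ConIn Q.cn M := by
  induction h with
  | ax => trivial
  | var => trivial
  | weak _ _ ih _ => exact ih.ren isRen_shift
  | pi _ _ _ ih ih' => exact ⟨ih, ih'⟩
  | lam _ _ ih ih' => exact ⟨ih'.1, ih⟩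
  | app _ _ ih ih' => exact ⟨ih, ih'⟩
  | conv _ _ _ ih _ => exact ih
  | con h => exact h
  | conO h => exact h

theorem emb_un (z : S) {M : Tm S} (h : ConIn (fun _ _ => False) M) : emb (un z M) = M := by
  induction M with
  | var n => rfl
  | srt s => rfl
  | con n A => exact h.elim
  | app M N ihM ihN => simp only [emb, un, ihM h.1, ihN h.2]
  | lam A M ihA ihM => simp only [emb, un, ihA h.1, ihM h.2]
  | pi A M ihA ihM => simp only [emb, un, ihA h.1, ihM h.2]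

theorem nonempty_of_ty {Q : Sig S} {Γ : List (Tm S)} {M A : Tm S} (h : Ty Q Γ M A) :
    Nonempty S := by
  induction h with
  | @ax s => exact ⟨s⟩
  | @conO _ s => exact ⟨s⟩
  | _ => assumption

theorem wn_pure {P : PTS S} (h : WeaklyNormalizing P) : WN ⟨P, fun _ _ => False⟩ := by
  intro Γ M A hM
  obtain ⟨z⟩ := nonempty_of_ty hM
  obtain ⟨N, h1, h2⟩ := h (un z M) ⟨_, _, .inl (un_ty z hM)⟩
  have h3 := emb_red h1
  rw [emb_un z (conIn_of_ty hM)] at h3
  refine ⟨emb N, fun K hK => ?_, h3.conv⟩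
  have h4 := un_step z hK
  rw [un_emb] at h4
  exact h2 _ h4

/-! ### Replacing constants by variables -/

def upc (θ : ℕ → Tm S → Tm S) : ℕ → Tm S → Tm S := fun n A => Tm.lift (θ n A)

def ab : (ℕ → Tm S → Tm S) → Tm S → Tm S
  | _, .var n => .var n
  | _, .srt s => .srt s
  | θ, .app M N => .app (ab θ M) (ab θ N)
  | θ, .lam A M => .lam (ab θ A) (ab (upc θ) M)
  | θ, .pi A B => .pi (ab θ A) (ab (upc θ) B)
  | θ, .con n A => θ n A

theorem upc_subst {θ θ' : ℕ → Tm S → Tm S} {σ : ℕ → Tm S}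
    (h : ∀ n A, θ' n A = Tm.subst σ (θ n A)) (n : ℕ) (A : Tm S) :
    upc θ' n A = Tm.subst (Tm.up σ) (upc θ n A) := by
  simp only [upc, h, subst_lift]

theorem ab_ren {θ θ' : ℕ → Tm S → Tm S} {σ : ℕ → Tm S} (hσ : IsRen σ)
    (h : ∀ n A, θ' n A = Tm.subst σ (θ n A)) (M : Tm S) :
    ab θ' (Tm.subst σ M) = Tm.subst σ (ab θ M) := by
  induction M generalizing θ θ' σ with
  | var n => obtain ⟨m, hm⟩ := hσ n; simp only [subst_var, ab, hm]
  | srt s => rfl
  | con n A => exact h n A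
  | app M N ihM ihN => simp only [subst_app, ab, ihM hσ h, ihN hσ h]
  | lam A M ihA ihM => simp only [subst_lam, ab, ihA hσ h, ihM hσ.up (upc_subst h)]
  | pi A M ihA ihM => simp only [subst_pi, ab, ihA hσ h, ihM hσ.up (upc_subst h)]

theorem ab_lift (θ : ℕ → Tm S → Tm S) (M : Tm S) :
    ab (upc θ) (Tm.lift M) = Tm.lift (ab θ M) :=
  ab_ren isRen_shift (fun _ _ => rfl) M

theorem ab_subst {θ θ' : ℕ → Tm S → Tm S} {σ σ' : ℕ → Tm S} (hσ : ∀ n, ab θ' (σ n) = σ' n)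
    (h : ∀ n A, θ' n A = Tm.subst σ' (θ n A)) (M : Tm S) :
    ab θ' (Tm.subst σ M) = Tm.subst σ' (ab θ M) := by
  have hup : ∀ {θ' : ℕ → Tm S → Tm S} {σ σ' : ℕ → Tm S}, (∀ n, ab θ' (σ n) = σ' n) →
      ∀ n, ab (upc θ') (Tm.up σ n) = Tm.up σ' n := by
    intro θ' σ σ' hσ n
    cases n with
    | zero => rfl
    | succ n => rw [up_succ, up_succ, ab_lift, hσ]
  induction M generalizing θ θ' σ σ' with
  | var n => exact hσ n
  | srt s => rfl
  | con n A => exact h n A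
  | app M N ihM ihN => simp only [subst_app, ab, ihM hσ h, ihN hσ h]
  | lam A M ihA ihM => simp only [subst_lam, ab, ihA hσ h, ihM (hup hσ) (upc_subst h)]
  | pi A M ihA ihM => simp only [subst_pi, ab, ihA hσ h, ihM (hup hσ) (upc_subst h)]

theorem ab_inst (θ : ℕ → Tm S → Tm S) (M N : Tm S) :
    ab θ (Tm.inst M N) = Tm.inst (ab (upc θ) M) (ab θ N) := by
  refine ab_subst (fun n => ?_) (fun n A => ?_) M
  · cases n <;> rfl
  · simp [upc]

theorem ab_step {M N : Tm S} (h : Step M N) (θ : ℕ → Tm S → Tm S) : Step (ab θ M) (ab θ N) := by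
  induction h generalizing θ with
  | beta A M N => rw [ab_inst]; exact .beta _ _ _
  | appL N _ ih => exact .appL _ (ih _)
  | appR M _ ih => exact .appR _ (ih _)
  | lamL M _ ih => exact .lamL _ (ih _)
  | lamR A _ ih => exact .lamR _ (ih _)
  | piL B _ ih => exact .piL _ (ih _)
  | piR A _ ih => exact .piR _ (ih _)

theorem ab_congr {X : ℕ → Tm S → Prop} {θ θ' : ℕ → Tm S → Tm S}
    (h : ∀ n A, X n A → θ n A = θ' n A) {M : Tm S} (hM : ConIn X M) : ab θ M = ab θ' M := by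
  have hup : ∀ {θ θ' : ℕ → Tm S → Tm S}, (∀ n A, X n A → θ n A = θ' n A) →
      ∀ n A, X n A → upc θ n A = upc θ' n A := by
    intro θ θ' h n A hA
    simp only [upc, h n A hA]
  induction M generalizing θ θ' with
  | var n => rfl
  | srt s => rfl
  | con n A => exact h n A hM
  | app M N ihM ihN => simp only [ab, ihM h hM.1, ihN h hM.2]
  | lam A M ihA ihM => simp only [ab, ihA h hM.1, ihM (hup h) hM.2]
  | pi A M ihA ihM => simp only [ab, ihA h hM.1, ihM (hup h) hM.2]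

/-- Every constant is sent to a variable or a sort. -/
def VS (θ : ℕ → Tm S → Tm S) : Prop := ∀ n A, (∃ m, θ n A = .var m) ∨ ∃ s, θ n A = .srt s

theorem VS.up {θ : ℕ → Tm S → Tm S} (h : VS θ) : VS (upc θ) := by
  intro n A
  rcases h n A with ⟨m, hm⟩ | ⟨s, hs⟩
  · exact .inl ⟨m + 1, by simp [upc, hm]⟩
  · exact .inr ⟨s, by simp [upc, hs]⟩

theorem VS.eq_app {θ : ℕ → Tm S → Tm S} (h : VS θ) {M A B : Tm S} (e : ab θ M = .app A B) :
    ∃ A' B', M = .app A' B' ∧ ab θ A' = A ∧ ab θ B' = B := by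
  cases M with
  | con n C => rcases h n C with ⟨m, hm⟩ | ⟨s, hm⟩ <;> simp [ab, hm] at e
  | app A' B' => exact ⟨A', B', rfl, by simpa [ab] using e⟩
  | _ => simp [ab] at e

theorem VS.eq_lam {θ : ℕ → Tm S → Tm S} (h : VS θ) {M A B : Tm S} (e : ab θ M = .lam A B) :
    ∃ A' B', M = .lam A' B' ∧ ab θ A' = A ∧ ab (upc θ) B' = B := by
  cases M with
  | con n C => rcases h n C with ⟨m, hm⟩ | ⟨s, hm⟩ <;> simp [ab, hm] at e
  | lam A' B' => exact ⟨A', B', rfl, by simpa [ab] using e⟩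
  | _ => simp [ab] at e

theorem VS.eq_pi {θ : ℕ → Tm S → Tm S} (h : VS θ) {M A B : Tm S} (e : ab θ M = .pi A B) :
    ∃ A' B', M = .pi A' B' ∧ ab θ A' = A ∧ ab (upc θ) B' = B := by
  cases M with
  | con n C => rcases h n C with ⟨m, hm⟩ | ⟨s, hm⟩ <;> simp [ab, hm] at e
  | pi A' B' => exact ⟨A', B', rfl, by simpa [ab] using e⟩
  | _ => simp [ab] at e

theorem VS.step_inv {θ : ℕ → Tm S → Tm S} (h : VS θ) {M K : Tm S} (hs : Step (ab θ M) K) :
    ∃ M', Step M M' ∧ K = ab θ M' := by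
  generalize e : ab θ M = X at hs
  induction hs generalizing θ M with
  | beta A B N =>
    obtain ⟨M₁, N', rfl, h1, rfl⟩ := h.eq_app e
    obtain ⟨A', B', rfl, rfl, rfl⟩ := h.eq_lam h1
    exact ⟨_, .beta _ _ _, (ab_inst _ _ _).symm⟩
  | appL N _ ih =>
    obtain ⟨M₁, N', rfl, h1, rfl⟩ := h.eq_app e
    obtain ⟨M', h2, rfl⟩ := ih h h1
    exact ⟨_, .appL _ h2, rfl⟩
  | appR N _ ih =>
    obtain ⟨M₁, N', rfl, rfl, h1⟩ := h.eq_app e
    obtain ⟨M', h2, rfl⟩ := ih h h1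
    exact ⟨_, .appR _ h2, rfl⟩
  | lamL N _ ih =>
    obtain ⟨M₁, N', rfl, h1, rfl⟩ := h.eq_lam e
    obtain ⟨M', h2, rfl⟩ := ih h h1
    exact ⟨_, .lamL _ h2, rfl⟩
  | lamR N _ ih =>
    obtain ⟨M₁, N', rfl, rfl, h1⟩ := h.eq_lam e
    obtain ⟨M', h2, rfl⟩ := ih h.up h1
    exact ⟨_, .lamR _ h2, rfl⟩
  | piL N _ ih =>
    obtain ⟨M₁, N', rfl, h1, rfl⟩ := h.eq_pi e
    obtain ⟨M', h2, rfl⟩ := ih h h1
    exact ⟨_, .piL _ h2, rfl⟩
  | piR N _ ih =>
    obtain ⟨M₁, N', rfl, rfl, h1⟩ := h.eq_pi e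
    obtain ⟨M', h2, rfl⟩ := ih h.up h1
    exact ⟨_, .piR _ h2, rfl⟩

theorem VS.hasNf {θ : ℕ → Tm S → Tm S} (h : VS θ) {M : Tm S} (hM : HasNf (ab θ M)) :
    HasNf M := by
  have key : ∀ K, Red (ab θ M) K → ∃ M', Red M M' ∧ K = ab θ M' := by
    intro K hK
    induction hK with
    | refl => exact ⟨M, .refl, rfl⟩
    | tail _ h2 ih =>
      obtain ⟨M', h3, rfl⟩ := ih
      obtain ⟨M'', h4, rfl⟩ := h.step_inv h2
      exact ⟨M'', h3.tail h4, rfl⟩
  obtain ⟨M', h1, h2⟩ := key _ hM.red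
  refine ⟨M', fun K hK => hM.normal (ab θ K) ?_, h1.conv⟩
  rw [h2]
  exact ab_step hK θ

def upn (θ : ℕ → Tm S → Tm S) : ℕ → ℕ → Tm S → Tm S
  | 0 => θ
  | k + 1 => upc (upn θ k)

theorem VS.upn {θ : ℕ → Tm S → Tm S} (h : VS θ) : ∀ k, VS (upn θ k)
  | 0 => h
  | k + 1 => (h.upn k).up

def actx (θ : ℕ → Tm S → Tm S) (D : List (Tm S)) : List (Tm S) → List (Tm S)
  | [] => D
  | A :: Γ => ab (upn θ Γ.length) A :: actx θ D Γ

theorem ab_ty {P : PTS S} {X : ℕ → Tm S → Prop} {θ : ℕ → Tm S → Tm S} {D : List (Tm S)}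
    (hD : Wf ⟨P, fun _ _ => False⟩ D)
    (hθ : ∀ n A, X n A → Ty ⟨P, fun _ _ => False⟩ D (θ n A) (ab θ A))
    {Γ : List (Tm S)} {M A : Tm S} (h : Ty ⟨P, X⟩ Γ M A) :
    Ty ⟨P, fun _ _ => False⟩ (actx θ D Γ) (ab (upn θ Γ.length) M) (ab (upn θ Γ.length) A) := by
  induction h with
  | ax h => exact hD.ax h
  | var _ ih =>
    simp only [List.length_cons, upn, ab_lift]
    exact .var ih
  | weak _ _ ih ih' =>
    simp only [List.length_cons, upn, ab_lift]
    exact .weak ih ih'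
  | pi _ _ h ih ih' => exact .pi ih ih' h
  | lam _ _ ih ih' => exact .lam ih ih'
  | app _ _ ih ih' => rw [ab_inst]; exact .app ih ih'
  | conv _ _ h ih ih' => exact .conv ih ih' (Conv.map (fun h => ab_step h _) h)
  | con h => exact hθ _ _ h
  | conO h => exact hθ _ _ h

/-- Lists of constants, each typed with the help of the later ones. -/
inductive OK (P : PTS S) : List (ℕ × Tm S) → Prop
  | nil : OK P []
  | cons {L : List (ℕ × Tm S)} {n : ℕ} {A : Tm S} {s : S} : OK P L →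
      Ty ⟨P, fun m B => (m, B) ∈ L⟩ [] A (.srt s) → OK P ((n, A) :: L)
  | consO {L : List (ℕ × Tm S)} {n : ℕ} {s₀ s : S} : OK P L → P.ax s₀ s →
      OK P ((n, .srt s) :: L)

theorem ty_sub {P : PTS S} {L L' : List (ℕ × Tm S)} (hL : L ⊆ L') {Γ : List (Tm S)}
    {M A : Tm S} (h : Ty ⟨P, fun m B => (m, B) ∈ L⟩ Γ M A) :
    Ty ⟨P, fun m B => (m, B) ∈ L'⟩ Γ M A :=
  Ty.mono (Q := ⟨P, fun m B => (m, B) ∈ L⟩) (Q' := ⟨P, fun m B => (m, B) ∈ L'⟩)
    (fun _ _ h => h) (fun _ _ _ h => h) (fun _ _ h => hL h) h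

theorem OK.mem {P : PTS S} {L : List (ℕ × Tm S)} (h : OK P L) {m : ℕ} {B : Tm S}
    (hm : (m, B) ∈ L) : ConIn (fun m B => (m, B) ∈ L) B ∧ Tm.lift B = B := by
  have key : (∃ s, B = .srt s) ∨ ∃ s, Ty ⟨P, fun m B => (m, B) ∈ L⟩ [] B (.srt s) := by
    induction h with
    | nil => cases hm
    | cons _ h ih =>
      rcases List.mem_cons.1 hm with e | hm
      · cases e
        exact .inr ⟨_, ty_sub (List.subset_cons_self _ _) h⟩
      · exact (ih hm).imp id fun ⟨s, hs⟩ => ⟨s, ty_sub (List.subset_cons_self _ _) hs⟩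
    | consO _ h ih =>
      rcases List.mem_cons.1 hm with e | hm
      · cases e
        exact .inl ⟨_, rfl⟩
      · exact (ih hm).imp id fun ⟨s, hs⟩ => ⟨s, ty_sub (List.subset_cons_self _ _) hs⟩
  rcases key with ⟨s, rfl⟩ | ⟨s, hs⟩
  · exact ⟨trivial, rfl⟩
  · exact ⟨conIn_of_ty hs, hs.closed _⟩

theorem exists_ok {P : PTS S} {K : ℕ → Tm S → Prop} {Γ : List (Tm S)} {M A : Tm S}
    (h : Ty ⟨P, K⟩ Γ M A) : ∀ L, OK P L →
      ∃ L', OK P L' ∧ L ⊆ L' ∧ Ty ⟨P, fun m B => (m, B) ∈ L'⟩ Γ M A := by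
  induction h with
  | ax h => exact fun L hL => ⟨L, hL, List.Subset.refl _, .ax h⟩
  | var _ ih =>
    intro L hL
    obtain ⟨L', h1, h2, h3⟩ := ih L hL
    exact ⟨L', h1, h2, .var h3⟩
  | weak _ _ ih ih' =>
    intro L hL
    obtain ⟨L', h1, h2, h3⟩ := ih L hL
    obtain ⟨L'', h4, h5, h6⟩ := ih' L' h1
    exact ⟨L'', h4, List.Subset.trans h2 h5, .weak (ty_sub h5 h3) h6⟩
  | pi _ _ h ih ih' =>
    intro L hL
    obtain ⟨L', h1, h2, h3⟩ := ih L hL
    obtain ⟨L'', h4, h5, h6⟩ := ih' L' h1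
    exact ⟨L'', h4, List.Subset.trans h2 h5, .pi (ty_sub h5 h3) h6 h⟩
  | lam _ _ ih ih' =>
    intro L hL
    obtain ⟨L', h1, h2, h3⟩ := ih L hL
    obtain ⟨L'', h4, h5, h6⟩ := ih' L' h1
    exact ⟨L'', h4, List.Subset.trans h2 h5, .lam (ty_sub h5 h3) h6⟩
  | app _ _ ih ih' =>
    intro L hL
    obtain ⟨L', h1, h2, h3⟩ := ih L hL
    obtain ⟨L'', h4, h5, h6⟩ := ih' L' h1
    exact ⟨L'', h4, List.Subset.trans h2 h5, .app (ty_sub h5 h3) h6⟩
  | conv _ _ h ih ih' =>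
    intro L hL
    obtain ⟨L', h1, h2, h3⟩ := ih L hL
    obtain ⟨L'', h4, h5, h6⟩ := ih' L' h1
    exact ⟨L'', h4, List.Subset.trans h2 h5, .conv (ty_sub h5 h3) h6 h⟩
  | @con n A s _ _ ih =>
    intro L hL
    obtain ⟨L', h1, h2, h3⟩ := ih L hL
    exact ⟨(n, A) :: L', h1.cons h3, List.Subset.trans h2 (List.subset_cons_self _ _),
      .con List.mem_cons_self (ty_sub (List.subset_cons_self _ _) h3)⟩
  | @conO n s₀ s _ h =>
    exact fun L hL => ⟨(n, .srt s) :: L, hL.consO h, List.subset_cons_self _ _,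
      .conO List.mem_cons_self h⟩

theorem OK.exists_ctx {P : PTS S} {L : List (ℕ × Tm S)} (h : OK P L) :
    ∃ D θ, Wf ⟨P, fun _ _ => False⟩ D ∧ VS θ ∧
      ∀ n A, (n, A) ∈ L → Ty ⟨P, fun _ _ => False⟩ D (θ n A) (ab θ A) := by
  classical
  induction h with
  | nil => exact ⟨[], fun _ _ => .var 0, .nil, fun _ _ => .inl ⟨0, rfl⟩, fun _ _ h => by cases h⟩
  | @cons L n A s hL hA ih =>
    obtain ⟨D, θ, h1, h2, h3⟩ := ih
    by_cases hm : (n, A) ∈ L
    · refine ⟨D, θ, h1, h2, fun m B hB => h3 m B ?_⟩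
      rcases List.mem_cons.1 hB with e | hB
      · rwa [e]
      · exact hB
    have h4 : Ty ⟨P, fun _ _ => False⟩ D (ab θ A) (.srt s) := ab_ty h1 h3 hA
    let θ' : ℕ → Tm S → Tm S := fun m B => if (m, B) = (n, A) then .var 0 else upc θ m B
    have h5 : ∀ m B, (m, B) ∈ L → θ' m B = upc θ m B := fun m B hB =>
      if_neg fun e : (m, B) = (n, A) => hm (e ▸ hB)
    have h6 : ∀ B : Tm S, ConIn (fun m B => (m, B) ∈ L) B → Tm.lift B = B →
        ab θ' B = Tm.lift (ab θ B) := by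
      intro B hB hB'
      rw [ab_congr h5 hB, ← ab_lift, hB']
    refine ⟨ab θ A :: D, θ', h4.wf_cons, fun m B => ?_, fun m B hB => ?_⟩
    · by_cases e : (m, B) = (n, A)
      · exact .inl ⟨0, if_pos e⟩
      · rw [show θ' m B = upc θ m B from if_neg e]
        exact h2.up m B
    · rcases List.mem_cons.1 hB with e | hB
      · cases e
        rw [show θ' n A = .var 0 from if_pos rfl, h6 A (conIn_of_ty hA) (hA.closed _)]
        exact .var h4
      · rw [h5 m B hB, h6 B (hL.mem hB).1 (hL.mem hB).2]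
        exact (h3 m B hB).weak h4
  | @consO L n s₀ s hL hs ih =>
    obtain ⟨D, θ, h1, h2, h3⟩ := ih
    by_cases hm : (n, Tm.srt s) ∈ L
    · refine ⟨D, θ, h1, h2, fun m B hB => h3 m B ?_⟩
      rcases List.mem_cons.1 hB with e | hB
      · rwa [e]
      · exact hB
    let θ' : ℕ → Tm S → Tm S := fun m B => if (m, B) = (n, .srt s) then .srt s₀ else θ m B
    have h5 : ∀ m B, (m, B) ∈ L → θ' m B = θ m B := fun m B hB =>
      if_neg fun e : (m, B) = (n, .srt s) => hm (e ▸ hB)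
    refine ⟨D, θ', h1, fun m B => ?_, fun m B hB => ?_⟩
    · by_cases e : (m, B) = (n, .srt s)
      · exact .inr ⟨s₀, if_pos e⟩
      · rw [show θ' m B = θ m B from if_neg e]
        exact h2 m B
    · rcases List.mem_cons.1 hB with e | hB
      · cases e
        rw [show θ' n (.srt s) = .srt s₀ from if_pos rfl]
        exact h1.ax hs
      · rw [h5 m B hB, ab_congr h5 (hL.mem hB).1]
        exact h3 m B hB

theorem wn_full {P : PTS S} (h : WeaklyNormalizing P) (K : ℕ → Tm S → Prop) : WN ⟨P, K⟩ := by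
  intro Γ M A hM
  obtain ⟨L, h1, -, h2⟩ := exists_ok hM [] .nil
  obtain ⟨D, θ, h3, h4, h5⟩ := h1.exists_ctx
  exact (h4.upn _).hasNf (wn_pure h _ _ _ (ab_ty h3 h5 h2))

/-! ### Finite and usable restrictions -/

theorem ty_rules {ax : S → S → Prop} {K : ℕ → Tm S → Prop} {E E' : S → S → S → Prop}
    (hE : ∀ a b c, E a b c → E' a b c) {Γ : List (Tm S)} {M A : Tm S}
    (h : Ty ⟨⟨ax, E⟩, K⟩ Γ M A) : Ty ⟨⟨ax, E'⟩, K⟩ Γ M A :=
  Ty.mono (Q := ⟨⟨ax, E⟩, K⟩) (Q' := ⟨⟨ax, E'⟩, K⟩) (fun _ _ h => h) hE (fun _ _ h => h) h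

theorem exists_fin {Q : Sig S} {Γ : List (Tm S)} {M A : Tm S} (h : Ty Q Γ M A) :
    ∃ E, FinRules E ∧ (∀ a b c, E a b c → Q.rule a b c) ∧ Ty ⟨⟨Q.ax, E⟩, Q.cn⟩ Γ M A := by
  have two : ∀ {Γ₁ Γ₂ : List (Tm S)} {M₁ A₁ M₂ A₂ : Tm S},
      (∃ E, FinRules E ∧ (∀ a b c, E a b c → Q.rule a b c) ∧ Ty ⟨⟨Q.ax, E⟩, Q.cn⟩ Γ₁ M₁ A₁) →
      (∃ E, FinRules E ∧ (∀ a b c, E a b c → Q.rule a b c) ∧ Ty ⟨⟨Q.ax, E⟩, Q.cn⟩ Γ₂ M₂ A₂) →
      ∃ E, FinRules E ∧ (∀ a b c, E a b c → Q.rule a b c) ∧ Ty ⟨⟨Q.ax, E⟩, Q.cn⟩ Γ₁ M₁ A₁ ∧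
        Ty ⟨⟨Q.ax, E⟩, Q.cn⟩ Γ₂ M₂ A₂ := by
    rintro Γ₁ Γ₂ M₁ A₁ M₂ A₂ ⟨E, h1, h2, h3⟩ ⟨E', h4, h5, h6⟩
    exact ⟨fun a b c => E a b c ∨ E' a b c, Set.Finite.union h1 h4,
      fun a b c h => h.elim (h2 a b c) (h5 a b c),
      ty_rules (fun _ _ _ h => .inl h) h3, ty_rules (fun _ _ _ h => .inr h) h6⟩
  induction h with
  | ax h => exact ⟨fun _ _ _ => False, Set.finite_empty, fun _ _ _ h => h.elim, .ax h⟩
  | var _ ih =>
    obtain ⟨E, h1, h2, h3⟩ := ih
    exact ⟨E, h1, h2, .var h3⟩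
  | weak _ _ ih ih' =>
    obtain ⟨E, h1, h2, h3, h4⟩ := two ih ih'
    exact ⟨E, h1, h2, .weak h3 h4⟩
  | @pi Γ A B a b c _ _ h ih ih' =>
    obtain ⟨E, h1, h2, h3, h4⟩ := two ih ih'
    refine ⟨fun a' b' c' => (a', b', c') = (a, b, c) ∨ E a' b' c', Set.Finite.insert (a, b, c) h1,
      ?_, .pi (ty_rules (fun _ _ _ h => .inr h) h3) (ty_rules (fun _ _ _ h => .inr h) h4)
        (.inl rfl)⟩
    rintro a' b' c' (e | e)
    · cases e; exact h
    · exact h2 _ _ _ e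
  | lam _ _ ih ih' =>
    obtain ⟨E, h1, h2, h3, h4⟩ := two ih ih'
    exact ⟨E, h1, h2, .lam h3 h4⟩
  | app _ _ ih ih' =>
    obtain ⟨E, h1, h2, h3, h4⟩ := two ih ih'
    exact ⟨E, h1, h2, .app h3 h4⟩
  | conv _ _ h ih ih' =>
    obtain ⟨E, h1, h2, h3, h4⟩ := two ih ih'
    exact ⟨E, h1, h2, .conv h3 h4 h⟩
  | con h _ ih =>
    obtain ⟨E, h1, h2, h3⟩ := ih
    exact ⟨E, h1, h2, .con h h3⟩
  | conO h h' => exact ⟨fun _ _ _ => False, Set.finite_empty, fun _ _ _ h => h.elim, .conO h h'⟩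

theorem gen_of_ty {Q : Sig S} {Γ : List (Tm S)} {M : Tm S} {s : S} (h : Ty Q Γ M (.srt s)) :
    Gen Q.toPTS s := by
  generalize e : Tm.srt s = T at h
  induction h generalizing s with
  | ax h => cases e; exact .tgt h
  | var h _ =>
    obtain rfl := isRen_shift.eq_srt e.symm
    exact .src h.gen_srt'
  | weak _ _ ih _ => exact ih (isRen_shift.eq_srt e.symm).symm
  | pi _ _ h ih ih' => cases e; exact .rule h (ih rfl) (ih' rfl)
  | lam => cases e
  | app h1 h2 =>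
    obtain ⟨t, h3⟩ := h1.pi_srt
    obtain ⟨a, b, -, -, h4⟩ := h3.gen_pi'
    have h5 := h4.inst_srt h2
    rw [← e] at h5
    exact .src h5.gen_srt'
  | conv _ h => cases e; exact .src h.gen_srt'
  | con _ h => cases e; exact .src h.gen_srt'
  | conO _ h => cases e; exact .tgt h

/-- The restriction to usable rules. -/
def usable (Q : Sig S) : Sig S :=
  ⟨⟨Q.ax, fun a b c => Q.rule a b c ∧ Gen Q.toPTS a ∧ Gen Q.toPTS b⟩, Q.cn⟩

theorem gen_usable {Q : Sig S} {s : S} (h : Gen Q.toPTS s) : Gen (usable Q).toPTS s := by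
  induction h with
  | src h => exact .src h
  | tgt h => exact .tgt h
  | rule h h1 h2 ih ih' => exact .rule ⟨h, h1, h2⟩ ih ih'

theorem ty_usable {Q : Sig S} {Γ : List (Tm S)} {M A : Tm S} (h : Ty Q Γ M A) :
    Ty (usable Q) Γ M A := by
  induction h with
  | ax h => exact .ax h
  | var _ ih => exact .var ih
  | weak _ _ ih ih' => exact .weak ih ih'
  | pi h1 h2 h ih ih' => exact .pi ih ih' ⟨h, gen_of_ty h1, gen_of_ty h2⟩
  | lam _ _ ih ih' => exact .lam ih ih'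
  | app _ _ ih ih' => exact .app ih ih'
  | conv _ _ h ih ih' => exact .conv ih ih' h
  | con h _ ih => exact .con h ih
  | conO h h' => exact .conO h h'

end Transfer

open Transfer in
theorem transfer
    (main : ∀ Q : Sig S, Full Q → FinRules Q.rule → Usable Q.toPTS → Tm.WN Q →
      ∀ Γ M A, Tm.Ty Q Γ M A → Tm.SN M)
    (P : PTS S) (h : WeaklyNormalizing P) : StronglyNormalizing P := by
  have key : ∀ Γ M A, Tm.Ty ⟨P, fun _ _ => True⟩ Γ M A → Tm.SN M := by
    intro Γ M A hM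
    obtain ⟨E, h1, h2, h3⟩ := exists_fin hM
    refine main (usable ⟨⟨P.ax, E⟩, fun _ _ => True⟩) (fun _ _ => trivial)
      (h1.mono fun _ _ _ h => h.1) (fun a b c h => ⟨gen_usable h.2.1, gen_usable h.2.2⟩)
      (fun Γ M A hM => wn_full h (fun _ _ => True) Γ M A ?_) Γ M A (ty_usable h3)
    exact ty_rules (E' := P.rule) (fun _ _ _ h => h2 _ _ _ h.1) hM
  rintro M ⟨Γ, A, hM | hM⟩
  · exact no_seq (key _ _ _ (emb_ty _ hM))
  · refine no_seq ?_
    rcases (emb_ty (fun _ _ => True) hM).ty_ty with ⟨s, e⟩ | ⟨s, h'⟩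
    · rw [e]; exact (Tm.normal_srt s).sn
    · exact key _ _ _ h'

end Vale.Agent.P340
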