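import Vale.Agent.P340.Syn

/-! Typing for internal terms and its metatheory. -/

namespace Vale.Agent.P340

universe u

/-- A specification together with the set of allowed constants. -/
structure Sig (S : Type u) extends PTS S where
  cn : ℕ → Tm S → Prop

namespace Tm

variable {S : Type u}

inductive Ty (Q : Sig S) : List (Tm S) → Tm S → Tm S → Prop
  | ax {s t : S} : Q.ax s t → Ty Q [] (srt s) (srt t)
  | var {Γ : List (Tm S)} {A : Tm S} {s : S} :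
      Ty Q Γ A (srt s) → Ty Q (A :: Γ) (var 0) (lift A)
  | weak {Γ : List (Tm S)} {M B A : Tm S} {s : S} :
      Ty Q Γ M B → Ty Q Γ A (srt s) → Ty Q (A :: Γ) (lift M) (lift B)
  | pi {Γ : List (Tm S)} {A B : Tm S} {s₁ s₂ s₃ : S} :
      Ty Q Γ A (srt s₁) → Ty Q (A :: Γ) B (srt s₂) → Q.rule s₁ s₂ s₃ →
      Ty Q Γ (pi A B) (srt s₃)
  | lam {Γ : List (Tm S)} {A M B : Tm S} {s : S} :
      Ty Q (A :: Γ) M B → Ty Q Γ (pi A B) (srt s) → Ty Q Γ (lam A M) (pi A B)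
  | app {Γ : List (Tm S)} {M N A B : Tm S} :
      Ty Q Γ M (pi A B) → Ty Q Γ N A → Ty Q Γ (app M N) (inst B N)
  | conv {Γ : List (Tm S)} {M A B : Tm S} {s : S} :
      Ty Q Γ M A → Ty Q Γ B (srt s) → Conv A B → Ty Q Γ M B
  | con {n : ℕ} {A : Tm S} {s : S} : Q.cn n A → Ty Q [] A (srt s) → Ty Q [] (con n A) A
  | conO {n : ℕ} {s₀ s : S} : Q.cn n (srt s) → Q.ax s₀ s → Ty Q [] (con n (srt s)) (srt s)

variable {Q : Sig S} {Γ Δ Θ : List (Tm S)} {M N A B T : Tm S} {σ τ : ℕ → Tm S}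

inductive Wf (Q : Sig S) : List (Tm S) → Prop
  | nil : Wf Q []
  | cons {Γ : List (Tm S)} {A : Tm S} {s : S} : Wf Q Γ → Ty Q Γ A (srt s) → Wf Q (A :: Γ)

theorem Ty.wf (h : Ty Q Γ M A) : Wf Q Γ := by
  induction h with
  | ax => exact .nil
  | var h ih => exact .cons ih h
  | weak _ h ih => exact .cons ih h
  | con => exact .nil
  | conO => exact .nil
  | _ => assumption

theorem Ty.wf_cons {s : S} (h : Ty Q Γ A (srt s)) : Wf Q (A :: Γ) := .cons h.wf h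

theorem Wf.inv (h : Wf Q (A :: Γ)) : ∃ s, Ty Q Γ A (srt s) := by
  cases h with | cons _ h => exact ⟨_, h⟩

theorem Wf.tail (h : Wf Q (A :: Γ)) : Wf Q Γ := by
  cases h with | cons h _ => exact h

/-- Weakening with a well formed context as side condition. -/
theorem Ty.wk (h : Ty Q Γ M B) (hA : Wf Q (A :: Γ)) : Ty Q (A :: Γ) (lift M) (lift B) := by
  obtain ⟨s, hs⟩ := hA.inv
  exact h.weak hs

theorem Ty.wk_srt {s : S} (h : Ty Q Γ M (srt s)) (hA : Wf Q (A :: Γ)) :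
    Ty Q (A :: Γ) (lift M) (srt s) := h.wk hA

theorem Wf.var0 (hA : Wf Q (A :: Γ)) : Ty Q (A :: Γ) (Tm.var 0) (lift A) := by
  obtain ⟨s, hs⟩ := hA.inv
  exact hs.var

theorem Ty.scope (h : Ty Q Γ M A) : ∀ σ τ : ℕ → Tm S, (∀ n < Γ.length, σ n = τ n) →
    subst σ M = subst τ M ∧ subst σ A = subst τ A := by
  have hup : ∀ {k : ℕ} {σ τ : ℕ → Tm S}, (∀ n < k, σ n = τ n) →
      ∀ n < k + 1, up σ n = up τ n := by
    intro k σ τ h n hn
    cases n with
    | zero => rfl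
    | succ n => simp [h n (by omega)]
  induction h with
  | ax => simp
  | var _ ih =>
    intro σ τ h
    refine ⟨h 0 (by simp), ?_⟩
    simpa using (ih (comp shift σ) (comp shift τ) fun n hn => h (n + 1) (by simpa using hn)).1
  | weak _ _ ih _ =>
    intro σ τ h
    simpa using ih (comp shift σ) (comp shift τ) fun n hn => h (n + 1) (by simpa using hn)
  | pi _ _ _ ih ih' =>
    intro σ τ h
    simp [(ih σ τ h).1, (ih' _ _ (hup h)).1]
  | lam _ _ ih ih' =>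
    intro σ τ h
    have := (ih' σ τ h).1
    simp only [subst_pi, pi.injEq] at this
    simp [this.1, (ih _ _ (hup h)).1, (ih _ _ (hup h)).2]
  | app _ _ ih ih' =>
    intro σ τ h
    have := (ih σ τ h).2
    simp only [subst_pi, pi.injEq] at this
    rw [subst_inst, subst_inst, this.2]
    simp [(ih σ τ h).1, (ih' σ τ h).1]
  | conv _ _ _ ih ih' => intro σ τ h; exact ⟨(ih σ τ h).1, (ih' σ τ h).1⟩
  | con _ _ ih => intro σ τ h; exact ⟨rfl, (ih σ τ h).1⟩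
  | conO => simp

theorem Ty.closed (h : Ty Q [] M A) (σ : ℕ → Tm S) : subst σ M = M := by
  simpa using (h.scope σ Tm.var (by simp)).1

theorem Ty.closed_ty (h : Ty Q [] M A) (σ : ℕ → Tm S) : subst σ A = A := by
  simpa using (h.scope σ Tm.var (by simp)).2

theorem Ty.of_closed (h : Ty Q [] M A) (hΓ : Wf Q Γ) : Ty Q Γ M A := by
  induction hΓ with
  | nil => exact h
  | cons _ h' ih =>
    have := ih.weak h'
    rwa [lift, lift, h.closed, h.closed_ty] at this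

theorem Wf.ax {s t : S} (hΓ : Wf Q Γ) (h : Q.ax s t) : Ty Q Γ (srt s) (srt t) :=
  (Ty.ax h).of_closed hΓ

/-- Typed substitutions from `Γ` to `Δ`. -/
def Sub (Q : Sig S) (Δ : List (Tm S)) : (ℕ → Tm S) → List (Tm S) → Prop
  | _, [] => Wf Q Δ
  | σ, A :: Γ => Sub Q Δ (comp shift σ) Γ ∧ Ty Q Δ (σ 0) (subst (comp shift σ) A)

theorem Sub.wf (h : Sub Q Δ σ Γ) : Wf Q Δ := by
  induction Γ generalizing σ with
  | nil => exact h
  | cons A Γ ih => exact ih h.1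

theorem Sub.nil (h : Wf Q Δ) : Sub Q Δ σ [] := h

theorem Sub.cons (h : Sub Q Δ σ Γ) (hN : Ty Q Δ N (subst σ A)) :
    Sub Q Δ (scons N σ) (A :: Γ) := by
  refine ⟨by simpa using h, by simpa using hN⟩

theorem Sub.wk (h : Sub Q Δ σ Γ) (hA : Wf Q (A :: Δ)) : Sub Q (A :: Δ) (comp σ shift) Γ := by
  induction Γ generalizing σ with
  | nil => exact hA
  | cons B Γ ih =>
    refine ⟨by simpa using ih h.1, ?_⟩
    simpa [comp_apply] using h.2.wk hA

theorem Sub.up (h : Sub Q Δ σ Γ) (hA : Wf Q (subst σ A :: Δ)) :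
    Sub Q (subst σ A :: Δ) (up σ) (A :: Γ) := by
  rw [up_eq]
  exact (h.wk hA).cons (by simpa using hA.var0)

theorem Ty.pi_dom (h : Ty Q Γ (Tm.pi A B) T) : ∃ s, Ty Q Γ A (srt s) := by
  generalize e : Tm.pi A B = X at h
  induction h generalizing A B with
  | weak _ h2 ih _ =>
    obtain ⟨A', B', rfl, rfl, rfl⟩ := isRen_shift.eq_pi e.symm
    obtain ⟨s, hs⟩ := ih rfl
    exact ⟨s, hs.weak h2⟩
  | pi h _ _ => cases e; exact ⟨_, h⟩
  | conv _ _ _ ih _ => exact ih e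
  | _ => cases e

theorem Ty.subst (h : Ty Q Γ M A) (hs : Sub Q Δ σ Γ) : Ty Q Δ (subst σ M) (subst σ A) := by
  induction h generalizing Δ σ with
  | ax h => exact hs.wf.ax h
  | var _ _ => simpa using hs.2
  | weak _ _ ih _ => simpa using ih hs.1
  | pi _ _ hr ih ih' => exact .pi (ih hs) (ih' (hs.up (ih hs).wf_cons)) hr
  | @lam Γ A M B s h1 h2 ih ih' =>
    have hw : Wf Q (Tm.subst σ A :: Δ) := by
      obtain ⟨s, h⟩ := (ih' hs).pi_dom
      exact h.wf_cons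
    exact .lam (ih (hs.up hw)) (ih' hs)
  | app _ _ ih ih' => rw [subst_inst]; exact .app (ih hs) (ih' hs)
  | conv _ _ hc ih ih' => exact .conv (ih hs) (ih' hs) (hc.subst _)
  | con h1 h2 _ => rw [h2.closed]; exact (Ty.con h1 h2).of_closed hs.wf
  | conO h1 h2 => exact (Ty.conO h1 h2).of_closed hs.wf

theorem Ty.subst_srt {s : S} (h : Ty Q Γ M (srt s)) (hs : Sub Q Δ σ Γ) :
    Ty Q Δ (Tm.subst σ M) (srt s) := h.subst hs

theorem Wf.sub_id (h : Wf Q Γ) : Sub Q Γ Tm.var Γ := by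
  induction h with
  | nil => exact Wf.nil
  | cons _ h ih =>
    have := (ih.wk h.wf_cons).cons (A := _) (by simpa using h.var)
    simpa using this

theorem Wf.sub_shift (h : Wf Q (A :: Γ)) : Sub Q (A :: Γ) shift Γ := by
  simpa using h.tail.sub_id.wk h

theorem Sub.comp (h : Sub Q Δ σ Γ) (h' : Sub Q Θ τ Δ) : Sub Q Θ (comp σ τ) Γ := by
  induction Γ generalizing σ with
  | nil => exact h'.wf
  | cons B Γ ih => exact ⟨by simpa using ih h.1, by simpa [comp_apply] using h.2.subst h'⟩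

theorem Sub.tail (h : Sub Q Δ σ (A :: Γ)) : Sub Q Δ (Tm.comp shift σ) Γ := h.1

theorem Ty.sub_inst (hN : Ty Q Γ N A) : Sub Q Γ (scons N Tm.var) (A :: Γ) :=
  hN.wf.sub_id.cons (by simpa using hN)

theorem Ty.inst (h : Ty Q (A :: Γ) M B) (hN : Ty Q Γ N A) : Ty Q Γ (inst M N) (inst B N) :=
  h.subst hN.sub_inst

theorem Ty.inst_srt {s : S} (h : Ty Q (A :: Γ) M (srt s)) (hN : Ty Q Γ N A) :
    Ty Q Γ (Tm.inst M N) (srt s) := h.inst hN

/-- Lifting a typed substitution under a binder whose type is typed in the source context. -/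
theorem Sub.up' {s : S} (h : Sub Q Δ σ Γ) (hA : Ty Q Γ A (srt s)) :
    Sub Q (Tm.subst σ A :: Δ) (Tm.up σ) (A :: Γ) := h.up (hA.subst_srt h).wf_cons

theorem Sub.upw (h : Sub Q Δ σ Γ) (hA : Wf Q (A :: Γ)) :
    Sub Q (Tm.subst σ A :: Δ) (Tm.up σ) (A :: Γ) := by
  obtain ⟨s, hs⟩ := hA.inv
  exact h.up' hs

theorem Ty.ctx_conv {A' : Tm S} (h : Ty Q (A :: Γ) M B) (hA : Wf Q (A' :: Γ)) (hc : Conv A A') :
    Ty Q (A' :: Γ) M B := by
  obtain ⟨s, hs⟩ := h.wf.inv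
  have : Sub Q (A' :: Γ) (scons (Tm.var 0) shift) (A :: Γ) :=
    hA.sub_shift.cons (.conv hA.var0 (hs.wk_srt hA) (hc.symm.subst _))
  simpa using h.subst this

/-! ### Generation -/

inductive Look : List (Tm S) → ℕ → Tm S → Prop
  | zero (A : Tm S) (Γ : List (Tm S)) : Look (A :: Γ) 0 (lift A)
  | succ {Γ : List (Tm S)} {n : ℕ} {A : Tm S} (B : Tm S) :
      Look Γ n A → Look (B :: Γ) (n + 1) (lift A)

theorem Look.unique {n : ℕ} (h : Look Γ n A) (h' : Look Γ n B) : A = B := by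
  induction h generalizing B with
  | zero => cases h'; rfl
  | succ _ _ ih => cases h' with | succ _ h' => rw [ih h']

theorem Look.ty {n : ℕ} (h : Look Γ n A) (hΓ : Wf Q Γ) : Ty Q Γ (var n) A := by
  induction h with
  | zero => exact hΓ.var0
  | succ _ _ ih => exact (ih hΓ.tail).wk hΓ

theorem Look.srt {n : ℕ} (h : Look Γ n A) (hΓ : Wf Q Γ) : ∃ s, Ty Q Γ A (srt s) := by
  induction h with
  | zero => obtain ⟨s, hs⟩ := hΓ.inv; exact ⟨s, hs.wk_srt hΓ⟩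
  | succ _ _ ih => obtain ⟨s, hs⟩ := ih hΓ.tail; exact ⟨s, hs.wk_srt hΓ⟩

theorem Ty.gen_srt {s : S} (h : Ty Q Γ (srt s) T) : ∃ t, Q.ax s t ∧ Conv T (srt t) := by
  generalize e : Tm.srt s = X at h
  induction h with
  | ax h => cases e; exact ⟨_, h, .refl _⟩
  | weak _ h2 ih _ =>
    obtain ⟨t, h1, h2⟩ := ih (isRen_shift.eq_srt e.symm).symm
    exact ⟨t, h1, h2.subst shift⟩
  | conv _ _ hc ih _ => obtain ⟨t, h1, h2⟩ := ih e; exact ⟨t, h1, hc.symm.trans h2⟩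
  | _ => cases e

theorem Ty.gen_srt' {s t : S} (h : Ty Q Γ (srt s) (srt t)) : Q.ax s t := by
  obtain ⟨t', h1, h2⟩ := h.gen_srt
  rwa [h2.srt_inj]

theorem Ty.gen_var {n : ℕ} (h : Ty Q Γ (Tm.var n) T) : ∃ A, Look Γ n A ∧ Conv T A := by
  generalize e : Tm.var n = X at h
  induction h generalizing n with
  | var h => cases e; exact ⟨_, .zero _ _, .refl _⟩
  | weak _ h2 ih _ =>
    obtain ⟨m, rfl, h3⟩ := isRen_shift.eq_var e.symm
    obtain ⟨A, h1, h2⟩ := ih rfl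
    cases h3
    exact ⟨_, .succ _ h1, h2.subst shift⟩
  | conv _ _ hc ih _ => obtain ⟨t, h1, h2⟩ := ih e; exact ⟨t, h1, hc.symm.trans h2⟩
  | _ => cases e

theorem Ty.gen_con {n : ℕ} (h : Ty Q Γ (Tm.con n A) T) :
    Q.cn n A ∧ Conv T A ∧ Ty Q [] (Tm.con n A) A := by
  generalize e : Tm.con n A = X at h
  induction h with
  | con h h' => cases e; exact ⟨h, .refl _, .con h h'⟩
  | conO h h' => cases e; exact ⟨h, .refl _, .conO h h'⟩
  | weak _ h2 ih _ =>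
    obtain rfl := isRen_shift.eq_con e.symm
    obtain ⟨h1, h2, h3⟩ := ih rfl
    refine ⟨h1, ?_, h3⟩
    have := h2.subst shift
    rwa [h3.closed_ty] at this
  | conv _ _ hc ih _ => obtain ⟨t, h1, h2⟩ := ih e; exact ⟨t, hc.symm.trans h1, h2⟩
  | _ => cases e

theorem Ty.gen_pi (h : Ty Q Γ (Tm.pi A B) T) : ∃ a b c, Q.rule a b c ∧ Ty Q Γ A (srt a) ∧
    Ty Q (A :: Γ) B (srt b) ∧ Conv T (srt c) := by
  generalize e : Tm.pi A B = X at h
  induction h generalizing A B with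
  | pi h1 h2 h3 => cases e; exact ⟨_, _, _, h3, h1, h2, .refl _⟩
  | weak _ h2 ih _ =>
    obtain ⟨A', B', rfl, rfl, rfl⟩ := isRen_shift.eq_pi e.symm
    obtain ⟨a, b, c, h3, h4, h5, h6⟩ := ih rfl
    exact ⟨a, b, c, h3, h4.weak h2, h5.subst_srt (h2.wf_cons.sub_shift.up' h4), h6.subst shift⟩
  | conv _ _ hc ih _ =>
    obtain ⟨a, b, c, h3, h4, h5, h6⟩ := ih e
    exact ⟨a, b, c, h3, h4, h5, hc.symm.trans h6⟩
  | _ => cases e

theorem Ty.gen_pi' {c : S} (h : Ty Q Γ (Tm.pi A B) (srt c)) : ∃ a b, Q.rule a b c ∧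
    Ty Q Γ A (srt a) ∧ Ty Q (A :: Γ) B (srt b) := by
  obtain ⟨a, b, c', h1, h2, h3, h4⟩ := h.gen_pi
  obtain rfl := h4.srt_inj
  exact ⟨a, b, h1, h2, h3⟩

theorem Ty.gen_lam (h : Ty Q Γ (Tm.lam A M) T) : ∃ B s, Ty Q (A :: Γ) M B ∧
    Ty Q Γ (Tm.pi A B) (srt s) ∧ Conv T (Tm.pi A B) := by
  generalize e : Tm.lam A M = X at h
  induction h generalizing A M with
  | lam h1 h2 => cases e; exact ⟨_, _, h1, h2, .refl _⟩
  | weak _ h2 ih _ =>
    obtain ⟨A', B', rfl, rfl, rfl⟩ := isRen_shift.eq_lam e.symm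
    obtain ⟨B, s, h3, h4, h5⟩ := ih rfl
    exact ⟨_, s, h3.subst (h2.wf_cons.sub_shift.upw h3.wf), h4.weak h2, h5.subst shift⟩
  | conv _ _ hc ih _ =>
    obtain ⟨B, s, h3, h4, h5⟩ := ih e
    exact ⟨B, s, h3, h4, hc.symm.trans h5⟩
  | _ => cases e

theorem Ty.gen_app (h : Ty Q Γ (Tm.app M N) T) : ∃ A B, Ty Q Γ M (Tm.pi A B) ∧
    Ty Q Γ N A ∧ Conv T (Tm.inst B N) := by
  generalize e : Tm.app M N = X at h
  induction h generalizing M N with
  | app h1 h2 => cases e; exact ⟨_, _, h1, h2, .refl _⟩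
  | weak _ h2 ih _ =>
    obtain ⟨A', B', rfl, rfl, rfl⟩ := isRen_shift.eq_app e.symm
    obtain ⟨A, B, h3, h4, h5⟩ := ih rfl
    refine ⟨_, _, h3.weak h2, h4.weak h2, ?_⟩
    have := h5.subst shift
    rwa [subst_inst] at this
  | conv _ _ hc ih _ =>
    obtain ⟨A, B, h3, h4, h5⟩ := ih e
    exact ⟨A, B, h3, h4, hc.symm.trans h5⟩
  | _ => cases e

theorem Ty.ty_ty (h : Ty Q Γ M T) : (∃ s, T = srt s) ∨ ∃ s, Ty Q Γ T (srt s) := by
  induction h with
  | ax => exact .inl ⟨_, rfl⟩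
  | var h => exact .inr ⟨_, h.weak h⟩
  | weak _ h2 ih _ =>
    rcases ih with ⟨s, rfl⟩ | ⟨s, h⟩
    · exact .inl ⟨s, rfl⟩
    · exact .inr ⟨s, h.weak h2⟩
  | pi => exact .inl ⟨_, rfl⟩
  | lam _ h => exact .inr ⟨_, h⟩
  | app _ h2 ih _ =>
    rcases ih with ⟨s, h⟩ | ⟨s, h⟩
    · cases h
    · obtain ⟨a, b, -, -, h⟩ := h.gen_pi'
      exact .inr ⟨b, h.inst h2⟩
  | conv _ h => exact .inr ⟨_, h⟩
  | con _ h => exact .inr ⟨_, h.of_closed .nil⟩
  | conO => exact .inl ⟨_, rfl⟩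

theorem Ty.pi_srt (h : Ty Q Γ M (Tm.pi A B)) : ∃ s, Ty Q Γ (Tm.pi A B) (srt s) := by
  rcases h.ty_ty with ⟨s, h⟩ | h
  · cases h
  · exact h

theorem Ty.step (h : Ty Q Γ M T) {M' : Tm S} (hs : Step M M') : Ty Q Γ M' T := by
  induction h generalizing M' with
  | weak _ h2 ih _ =>
    obtain ⟨M', h, rfl⟩ := isRen_shift.step_inv hs
    exact (ih h).weak h2
  | conv _ h2 h3 ih _ => exact .conv (ih hs) h2 h3
  | pi h1 h2 h3 ih ih' =>
    cases hs with
    | piL _ h => exact .pi (ih h) (h2.ctx_conv (ih h).wf_cons h.conv) h3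
    | piR _ h => exact .pi h1 (ih' h) h3
  | lam h1 h2 ih ih' =>
    cases hs with
    | lamL _ h =>
      have h3 := ih' (.piL _ h)
      obtain ⟨s, h4⟩ := h3.pi_dom
      exact .conv (.lam (h1.ctx_conv h4.wf_cons h.conv) h3) h2 (Step.piL _ h).conv.symm
    | lamR _ h => exact .lam (ih h) h2
  | app h1 h2 ih ih' =>
    obtain ⟨s, h3⟩ := h1.pi_srt
    obtain ⟨a, b, -, -, h5⟩ := h3.gen_pi'
    cases hs with
    | appL _ h => exact .app (ih h) h2
    | appR _ h => exact .conv (.app h1 (ih' h)) (h5.inst h2) (Conv.inst (.refl _) h.conv.symm)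
    | beta =>
      obtain ⟨B', s', h6, h7, h8⟩ := h1.gen_lam
      obtain ⟨a', h9⟩ := h7.pi_dom
      exact .conv (h6.inst (.conv h2 h9 h8.pi_inj.1)) (h5.inst h2)
        (Conv.inst h8.pi_inj.2.symm (.refl _))
  | _ => cases hs

theorem Ty.red (h : Ty Q Γ M T) {M' : Tm S} (hs : Red M M') : Ty Q Γ M' T := by
  induction hs with
  | refl => exact h
  | tail _ h' ih => exact ih.step h'

theorem Ty.red_ty (h : Ty Q Γ M T) {T' : Tm S} (hs : Red T T') : Ty Q Γ M T' := by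
  rcases h.ty_ty with ⟨s, rfl⟩ | ⟨s, h'⟩
  · rwa [(normal_srt s).red_eq hs]
  · exact .conv h (h'.red hs) hs.conv

theorem Ty.conv_normal (h : Ty Q Γ M T) {T' : Tm S} (hc : Conv T T') (hn : Normal T') :
    Ty Q Γ M T' := h.red_ty (hc.red_normal hn)

theorem Ty.conv_srt {s : S} (h : Ty Q Γ M T) (hc : Conv T (srt s)) : Ty Q Γ M (srt s) :=
  h.conv_normal hc (normal_srt s)

theorem Ty.not_srt_pi {s : S} (h : Ty Q Γ (srt s) T) : ¬ Conv T (Tm.pi A B) := by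
  obtain ⟨t, -, h2⟩ := h.gen_srt
  exact fun h => not_conv_pi_srt (h.symm.trans h2)

theorem Ty.not_pi_pi {A' B' : Tm S} (h : Ty Q Γ (Tm.pi A' B') T) : ¬ Conv T (Tm.pi A B) := by
  obtain ⟨a, b, c, -, -, -, h2⟩ := h.gen_pi
  exact fun h => not_conv_pi_srt (h.symm.trans h2)

theorem Ty.not_lam_srt {s : S} (h : Ty Q Γ (Tm.lam A M) T) : ¬ Conv T (srt s) := by
  obtain ⟨B, t, -, -, h2⟩ := h.gen_lam
  exact fun h => not_conv_pi_srt (h2.symm.trans h)

/-- A typed neutral term is a sort, a product, or headed by a variable or a constant. -/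
theorem Neu.cases (h : Neu M) (ht : Ty Q Γ M T) :
    (∃ s, M = Tm.srt s) ∨ (∃ A B, M = Tm.pi A B) ∨ (∃ x, VHd x M) ∨ CHd M := by
  induction h generalizing T with
  | var n => exact .inr (.inr (.inl ⟨n, .var⟩))
  | srt s => exact .inl ⟨s, rfl⟩
  | con n A => exact .inr (.inr (.inr (.con n A)))
  | pi A B => exact .inr (.inl ⟨A, B, rfl⟩)
  | app N _ ih =>
    obtain ⟨A, B, h1, -, -⟩ := ht.gen_app
    rcases ih h1 with ⟨s, rfl⟩ | ⟨A', B', rfl⟩ | ⟨x, h⟩ | h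
    · exact (h1.not_srt_pi (.refl _)).elim
    · exact (h1.not_pi_pi (.refl _)).elim
    · exact .inr (.inr (.inl ⟨x, .app _ h⟩))
    · exact .inr (.inr (.inr (.app _ h)))

/-- A normal type is a sort, a product, or headed by a variable or a constant. -/
theorem Normal.type_cases {s : S} (h : Normal M) (ht : Ty Q Γ M (srt s)) :
    (∃ s, M = srt s) ∨ (∃ A B, M = Tm.pi A B) ∨ (∃ x, VHd x M) ∨ CHd M := by
  rcases h.neu_or_lam with h | ⟨A, B, rfl⟩
  · exact h.cases ht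
  · exact (ht.not_lam_srt (.refl _)).elim

theorem VHd.unique_ty {x : ℕ} (h : VHd x M) {T' : Tm S} (h1 : Ty Q Γ M T) (h2 : Ty Q Γ M T') :
    Conv T T' := by
  induction h generalizing T T' with
  | var =>
    obtain ⟨A, h3, h4⟩ := h1.gen_var
    obtain ⟨A', h5, h6⟩ := h2.gen_var
    obtain rfl := h3.unique h5
    exact h4.trans h6.symm
  | app N _ ih =>
    obtain ⟨A, B, h3, -, h4⟩ := h1.gen_app
    obtain ⟨A', B', h5, -, h6⟩ := h2.gen_app
    exact h4.trans ((Conv.inst (ih h3 h5).pi_inj.2 (.refl _)).trans h6.symm)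

theorem CHd.unique_ty (h : CHd M) {T' : Tm S} (h1 : Ty Q Γ M T) (h2 : Ty Q Γ M T') :
    Conv T T' := by
  induction h generalizing T T' with
  | con => exact h1.gen_con.2.1.trans h2.gen_con.2.1.symm
  | app N _ ih =>
    obtain ⟨A, B, h3, -, h4⟩ := h1.gen_app
    obtain ⟨A', B', h5, -, h6⟩ := h2.gen_app
    exact h4.trans ((Conv.inst (ih h3 h5).pi_inj.2 (.refl _)).trans h6.symm)

theorem WH.ty {X X' : Tm S} (h : WH A N X X') (ht : Ty Q Γ X T) :
    (∃ T₁, Ty Q Γ A T₁) ∧ ∃ T₂, Ty Q Γ N T₂ := by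
  induction h generalizing T with
  | beta M =>
    obtain ⟨A', B, h1, h2, -⟩ := ht.gen_app
    obtain ⟨B', s, h3, -, -⟩ := h1.gen_lam
    obtain ⟨a, h4⟩ := h3.wf.inv
    exact ⟨⟨_, h4⟩, ⟨_, h2⟩⟩
  | app Y _ ih =>
    obtain ⟨A', B, h1, -, -⟩ := ht.gen_app
    exact ih h1

theorem Ty.mono {Q' : Sig S} (hax : ∀ s t, Q.ax s t → Q'.ax s t)
    (hr : ∀ a b c, Q.rule a b c → Q'.rule a b c) (hc : ∀ n A, Q.cn n A → Q'.cn n A)
    (h : Ty Q Γ M A) : Ty Q' Γ M A := by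
  induction h with
  | ax h => exact .ax (hax _ _ h)
  | var _ ih => exact .var ih
  | weak _ _ ih ih' => exact .weak ih ih'
  | pi _ _ h ih ih' => exact .pi ih ih' (hr _ _ _ h)
  | lam _ _ ih ih' => exact .lam ih ih'
  | app _ _ ih ih' => exact .app ih ih'
  | conv _ _ h ih ih' => exact .conv ih ih' h
  | con h _ ih => exact .con (hc _ _ h) ih
  | conO h h' => exact .conO (hc _ _ h) (hax _ _ h')

/-- Every typed term has a normal form. -/
def WN (Q : Sig S) : Prop := ∀ Γ M A, Ty Q Γ M A → HasNf M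

theorem Ty.hasNf (hw : WN Q) (h : Ty Q Γ M A) : HasNf M := hw _ _ _ h

theorem Ty.hasNf_ty (hw : WN Q) (h : Ty Q Γ M A) : HasNf A := by
  rcases h.ty_ty with ⟨s, rfl⟩ | ⟨s, h⟩
  · exact (normal_srt s).hasNf
  · exact h.hasNf hw

theorem Ty.nf (hw : WN Q) (h : Ty Q Γ M A) : Ty Q Γ (nf M) A := h.red (h.hasNf hw).red

theorem Ty.nf_ty (hw : WN Q) (h : Ty Q Γ M A) : Ty Q Γ M (Tm.nf A) :=
  h.red_ty (h.hasNf_ty hw).red

/-- Closed typing up to conversion of the type. -/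
def CTy (Q : Sig S) (M A : Tm S) : Prop := ∃ A', Ty Q [] M A' ∧ Conv A' A

theorem Ty.cty (h : Ty Q [] M A) : CTy Q M A := ⟨A, h, .refl _⟩

theorem CTy.conv (h : CTy Q M A) (hc : Conv A B) : CTy Q M B := by
  obtain ⟨A', h1, h2⟩ := h
  exact ⟨A', h1, h2.trans hc⟩

theorem CTy.ty {s : S} (h : CTy Q M A) (hA : Ty Q [] A (srt s)) : Ty Q [] M A := by
  obtain ⟨A', h1, h2⟩ := h
  exact .conv h1 hA h2

theorem CTy.ty_normal (h : CTy Q M A) (hA : Normal A) : Ty Q [] M A := by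
  obtain ⟨A', h1, h2⟩ := h
  exact h1.conv_normal h2 hA

theorem CTy.red (h : CTy Q M A) (hr : Red M N) : CTy Q N A := by
  obtain ⟨A', h1, h2⟩ := h
  exact ⟨A', h1.red hr, h2⟩

theorem cty_congr (h : Conv A B) : CTy Q M A ↔ CTy Q M B := ⟨fun h' => h'.conv h, fun h' => h'.conv h.symm⟩

/-- Application of closed terms typed up to conversion. -/
theorem CTy.app (h : CTy Q M (pi A B)) (hN : CTy Q N A) : CTy Q (app M N) (inst B N) := by
  obtain ⟨T, h1, h2⟩ := h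
  obtain ⟨A', B', h3, h4, h5⟩ := h2.red_pi
  have h6 := h1.red_ty h3
  obtain ⟨s, h7⟩ := h6.pi_srt
  obtain ⟨a, h8⟩ := h7.pi_dom
  exact ⟨_, .app h6 ((hN.conv h4.conv).ty h8), Conv.inst h5.conv.symm (.refl _)⟩

end Tm

end Vale.Agent.P340
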