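import Mathlib.Logic.Small.List
import Mathlib.Logic.Small.Set
import Vale.Agent.P340.Spine

/-! Semantic values for kinds: sets of pairs of a spine and a term. -/

namespace Vale.Agent.P340

universe u

inductive V (S : Type u) : Type (u + 1)
  | mk (tag : ℕ) (ι : Type u) (f : ι → V S) (t : ι → Tm S) : V S
  | nil : V S
  | cons (N D : Tm S) (v : V S) (π : V S) : V S

abbrev Stk (S : Type u) : Type (u + 1) := List ((Tm S × Tm S) × V S)

namespace Tm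

variable {S : Type u}

def enc : Stk S → V S
  | [] => .nil
  | q :: π => .cons q.1.1 q.1.2 q.2 (enc π)

def dec : V S → Stk S
  | .cons N D v π => ((N, D), v) :: dec π
  | _ => []

theorem dec_enc (π : Stk S) : dec (enc π) = π := by
  induction π with
  | nil => rfl
  | cons q π ih => simp [enc, dec, ih]

def tag : V S → ℕ
  | .mk n _ _ _ => n
  | _ => 0

def un : V S → Set (Stk S × Tm S)
  | .mk _ _ f t => Set.range fun i => (dec (f i), t i)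
  | _ => ∅

instance small_un (v : V S) : Small.{u} (un v) := by
  cases v <;> unfold un <;> infer_instance

open Classical in
noncomputable def mkV (n : ℕ) (X : Set (Stk S × Tm S)) : V S :=
  if _h : Small.{u} X then
    .mk n (Shrink.{u} X) (fun i => enc ((equivShrink X).symm i).1.1)
      (fun i => ((equivShrink X).symm i).1.2)
  else .mk n PEmpty (fun i => i.elim) (fun i => i.elim)

@[simp] theorem tag_mkV (n : ℕ) (X : Set (Stk S × Tm S)) : tag (mkV n X) = n := by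
  unfold mkV; split_ifs <;> rfl

theorem un_mkV (n : ℕ) {X : Set (Stk S × Tm S)} (h : Small.{u} X) : un (mkV n X) = X := by
  rw [mkV, dif_pos h, un]
  ext p
  constructor
  · rintro ⟨i, rfl⟩
    simp only [dec_enc]
    exact ((equivShrink X).symm i).2
  · intro hp
    exact ⟨equivShrink X ⟨p, hp⟩, by simp [dec_enc]⟩

theorem un_mkV_subset (n : ℕ) (X : Set (Stk S × Tm S)) : un (mkV n X) ⊆ X := by
  by_cases h : Small.{u} X
  · rw [un_mkV n h]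
  · rw [mkV, dif_neg h, un]
    rintro _ ⟨i, _⟩
    exact i.elim

variable (Q : Sig S) (c₀ : S)

/-- Complete spines with values taken from the family `E`. -/
def Sp (E : Tm S → Set (V S)) (W : Tm S) (π : Stk S) : Prop :=
  BSp Q c₀ (π.map Prod.fst) W ∧ ∀ q ∈ π, q.2 ∈ E q.1.2

def Pw (n : ℕ) (E : Tm S → Set (V S)) (W : Tm S) : Set (V S) :=
  {v | ∃ X : Set (Stk S × Tm S), (∀ p ∈ X, Sp Q c₀ E W p.1) ∧ v = mkV n X}

variable {Q c₀}

theorem Sp.mono {E E' : Tm S → Set (V S)} {W : Tm S} (h : ∀ D, Succ Q c₀ W D → E D ⊆ E' D)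
    {π : Stk S} (hπ : Sp Q c₀ E W π) : Sp Q c₀ E' W π :=
  ⟨hπ.1, fun q hq => h _ ⟨_, q.1.1, hπ.1, List.mem_map.2 ⟨q, hq, rfl⟩⟩ (hπ.2 q hq)⟩

theorem sp_congr {E E' : Tm S → Set (V S)} {W : Tm S} (h : ∀ D, Succ Q c₀ W D → E D = E' D)
    {π : Stk S} : Sp Q c₀ E W π ↔ Sp Q c₀ E' W π :=
  ⟨Sp.mono fun D hD => (h D hD).le, Sp.mono fun D hD => (h D hD).ge⟩

theorem Pw.tag {n : ℕ} {E : Tm S → Set (V S)} {W : Tm S} {v : V S} (h : v ∈ Pw Q c₀ n E W) :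
    tag v = n := by
  obtain ⟨X, -, rfl⟩ := h
  simp

theorem Pw.mono {n : ℕ} {E E' : Tm S → Set (V S)} {W : Tm S}
    (h : ∀ D, Succ Q c₀ W D → E D ⊆ E' D) : Pw Q c₀ n E W ⊆ Pw Q c₀ n E' W := by
  rintro _ ⟨X, hX, rfl⟩
  exact ⟨X, fun p hp => (hX p hp).mono h, rfl⟩

theorem small_sp {E : Tm S → Set (V S)} {W : Tm S}
    (h : ∀ D, Succ Q c₀ W D → Small.{u} (E D)) :
    Small.{u} {p : Stk S × Tm S | Sp Q c₀ E W p.1} := by
  let U : Set (V S) := ⋃ D : {D // Succ Q c₀ W D}, E D.1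
  have : ∀ D : {D // Succ Q c₀ W D}, Small.{u} (E D.1) := fun D => h D.1 D.2
  have : Small.{u} U := small_iUnion _
  let g : List ((Tm S × Tm S) × U) × Tm S → Stk S × Tm S :=
    fun p => (p.1.map fun q => (q.1, q.2.1), p.2)
  refine small_subset (s := Set.range g) ?_
  rintro ⟨π, t⟩ hp
  have hU : ∀ q ∈ π, q.2 ∈ U := fun q hq =>
    Set.mem_iUnion.2 ⟨⟨q.1.2, _, q.1.1, hp.1, List.mem_map.2 ⟨q, hq, rfl⟩⟩, hp.2 q hq⟩
  refine ⟨(π.attach.map fun q => (q.1.1, ⟨q.1.2, hU _ q.2⟩), t), ?_⟩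
  simp only [g, List.map_map, Function.comp_def, Prod.mk.eta, Prod.mk.injEq, and_true]
  exact List.attach_map_subtype_val π

theorem small_pw {n : ℕ} {E : Tm S → Set (V S)} {W : Tm S}
    (h : ∀ D, Succ Q c₀ W D → Small.{u} (E D)) : Small.{u} (Pw Q c₀ n E W) := by
  have := small_sp h
  refine small_subset (s := Set.range fun X : Set {p : Stk S × Tm S | Sp Q c₀ E W p.1} =>
    mkV n (Subtype.val '' X)) ?_
  rintro _ ⟨X, hX, rfl⟩
  refine ⟨Subtype.val ⁻¹' X, ?_⟩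
  simp only [Subtype.image_preimage_coe]
  congr 1
  exact Set.inter_eq_right.2 hX

variable (Q c₀)

inductive FV : Tm S → V S → Prop
  | mk {W : Tm S} {X : Set (Stk S × Tm S)} : (∀ p ∈ X, BSp Q c₀ (p.1.map Prod.fst) W) →
      (∀ p ∈ X, ∀ q ∈ p.1, FV q.1.2 q.2) → FV W (mkV 0 X)

/-- Full values. -/
def F (W : Tm S) : Set (V S) := {v | FV Q c₀ W v}

open Classical in
/-- Full values on accessible kinds, `E` elsewhere. -/
def Fa (E : Tm S → Set (V S)) (W : Tm S) : Set (V S) := if AccK Q c₀ W then F Q c₀ W else E W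

/-- Finitary values of stage below `n`. -/
def Av : ℕ → Tm S → Set (V S)
  | 0, _ => ∅
  | n + 1, W => Av n W ∪ Pw Q c₀ (n + 2) (Fa Q c₀ (Pw Q c₀ 1 (Fa Q c₀ (Av n)))) W

def Bv (n : ℕ) : Tm S → Set (V S) := Pw Q c₀ 1 (Fa Q c₀ (Av Q c₀ n))

def Ainf (W : Tm S) : Set (V S) := ⋃ n, Av Q c₀ n W

def Binf : Tm S → Set (V S) := Pw Q c₀ 1 (Fa Q c₀ (Ainf Q c₀))

open Classical in
/-- The values of a kind. -/
def E (W : Tm S) : Set (V S) :=
  if AccK Q c₀ W then F Q c₀ W else if Sgn Q c₀ true W then Binf Q c₀ W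
  else if Sgn Q c₀ false W then Ainf Q c₀ W else {mkV 0 ∅}

variable {Q c₀}

theorem F_eq (W : Tm S) : F Q c₀ W = Pw Q c₀ 0 (F Q c₀) W := by
  ext v
  constructor
  · intro h
    have : ∀ {W v}, FV Q c₀ W v → v ∈ Pw Q c₀ 0 (F Q c₀) W := by
      rintro W v ⟨h1, h2⟩
      exact ⟨_, fun p hp => ⟨h1 p hp, h2 p hp⟩, rfl⟩
    exact this h
  · rintro ⟨X, hX, rfl⟩
    exact .mk (fun p hp => (hX p hp).1) fun p hp => (hX p hp).2

theorem F_tag {W : Tm S} {v : V S} (h : v ∈ F Q c₀ W) : tag v = 0 := by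
  rw [F_eq] at h; exact Pw.tag h

theorem small_F {W : Tm S} (h : AccK Q c₀ W) : Small.{u} (F Q c₀ W) := by
  induction h with
  | intro W _ ih => rw [F_eq]; exact small_pw ih

theorem Fa_pos {E : Tm S → Set (V S)} {W : Tm S} (h : AccK Q c₀ W) :
    Fa Q c₀ E W = F Q c₀ W := if_pos h

theorem Fa_neg {E : Tm S → Set (V S)} {W : Tm S} (h : ¬ AccK Q c₀ W) : Fa Q c₀ E W = E W :=
  if_neg h

theorem small_Fa {E : Tm S → Set (V S)} (h : ∀ W, Small.{u} (E W)) (W : Tm S) :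
    Small.{u} (Fa Q c₀ E W) := by
  by_cases hW : AccK Q c₀ W
  · rw [Fa_pos hW]; exact small_F hW
  · rw [Fa_neg hW]; exact h W

theorem Fa_mono {E E' : Tm S → Set (V S)} (h : ∀ W, E W ⊆ E' W) (W : Tm S) :
    Fa Q c₀ E W ⊆ Fa Q c₀ E' W := by
  by_cases hW : AccK Q c₀ W
  · rw [Fa_pos hW, Fa_pos hW]
  · rw [Fa_neg hW, Fa_neg hW]; exact h W

theorem small_Av (n : ℕ) (W : Tm S) : Small.{u} (Av Q c₀ n W) := by
  induction n generalizing W with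
  | zero => unfold Av; infer_instance
  | succ n ih =>
    have := ih W
    have : Small.{u} (Pw Q c₀ (n + 2) (Fa Q c₀ (Pw Q c₀ 1 (Fa Q c₀ (Av Q c₀ n)))) W) :=
      small_pw fun D _ => small_Fa (fun W => small_pw fun D _ => small_Fa ih D) D
    unfold Av; infer_instance

theorem small_Bv (n : ℕ) (W : Tm S) : Small.{u} (Bv Q c₀ n W) :=
  small_pw fun D _ => small_Fa (small_Av n) D

theorem small_Ainf (W : Tm S) : Small.{u} (Ainf Q c₀ W) := by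
  have := fun n => small_Av (Q := Q) (c₀ := c₀) n W
  exact small_iUnion _

theorem mem_Av {n : ℕ} {W : Tm S} {v : V S} :
    v ∈ Av Q c₀ n W ↔ ∃ k < n, v ∈ Pw Q c₀ (k + 2) (Fa Q c₀ (Bv Q c₀ k)) W := by
  induction n with
  | zero => simp [Av]
  | succ n ih =>
    simp only [Av, Set.mem_union, ih]
    constructor
    · rintro (⟨k, h1, h2⟩ | h)
      · exact ⟨k, by omega, h2⟩
      · exact ⟨n, by omega, h⟩
    · rintro ⟨k, h1, h2⟩
      rcases Nat.lt_succ_iff_lt_or_eq.1 h1 with h | rfl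
      · exact .inl ⟨k, h, h2⟩
      · exact .inr h2

theorem Ainf_tag {W : Tm S} {v : V S} (h : v ∈ Ainf Q c₀ W) : 2 ≤ tag v := by
  obtain ⟨n, h⟩ := Set.mem_iUnion.1 h
  obtain ⟨k, -, h⟩ := mem_Av.1 h
  rw [Pw.tag h]; omega

theorem Ainf_lt {W : Tm S} {v : V S} {n : ℕ} (h : v ∈ Ainf Q c₀ W) (hn : tag v < n + 2) :
    v ∈ Av Q c₀ n W := by
  obtain ⟨m, h⟩ := Set.mem_iUnion.1 h
  obtain ⟨k, -, h⟩ := mem_Av.1 h
  exact mem_Av.2 ⟨k, by have := Pw.tag h; omega, h⟩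

theorem Bv_subset (n : ℕ) (W : Tm S) : Bv Q c₀ n W ⊆ Binf Q c₀ W :=
  Pw.mono fun D _ => Fa_mono (fun W => Set.subset_iUnion (fun n => Av Q c₀ n W) n) D

/-! ### Truncation -/

open Classical in
noncomputable def tr (n : ℕ) (v : V S) : V S :=
  if tag v = 1 then mkV 1 {p ∈ un v | ∀ q ∈ p.1, tag q.2 < n + 2} else v

noncomputable def trS (n : ℕ) (π : Stk S) : Stk S := π.map fun q => (q.1, tr n q.2)

theorem tr_of_ne {n : ℕ} {v : V S} (h : tag v ≠ 1) : tr n v = v := if_neg h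

@[simp] theorem tag_tr (n : ℕ) (v : V S) : tag (tr n v) = tag v := by
  unfold tr; split_ifs with h <;> simp [*]

theorem un_tr {n : ℕ} {v : V S} (h : tag v = 1) :
    un (tr n v) = {p ∈ un v | ∀ q ∈ p.1, tag q.2 < n + 2} := by
  rw [tr, if_pos h, un_mkV]
  exact small_subset (Set.sep_subset _ _)

theorem tr_tr {k n : ℕ} (h : k ≤ n) (v : V S) : tr k (tr n v) = tr k v := by
  by_cases hv : tag v = 1
  · have h1 := un_tr (n := n) hv
    rw [tr, if_pos (by simpa using hv), h1, tr, if_pos hv]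
    congr 1
    ext p
    simp only [Set.mem_ofPred_eq]
    exact ⟨fun h' => ⟨h'.1.1, h'.2⟩, fun h' => ⟨⟨h'.1, fun q hq => by
      have := h'.2 q hq; omega⟩, h'.2⟩⟩
  · rw [tr_of_ne hv]

theorem tr_Binf {n : ℕ} {W : Tm S} {v : V S} (h : v ∈ Binf Q c₀ W) : tr n v ∈ Bv Q c₀ n W := by
  rw [tr, if_pos (Pw.tag h)]
  obtain ⟨X, hX, rfl⟩ := h
  refine ⟨_, fun p hp => ?_, rfl⟩
  have h1 := hX p (un_mkV_subset _ _ hp.1)
  refine ⟨h1.1, fun q hq => ?_⟩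
  have h2 := h1.2 q hq
  by_cases hD : AccK Q c₀ q.1.2
  · rwa [Fa_pos hD] at h2 ⊢
  · rw [Fa_neg hD] at h2 ⊢
    exact Ainf_lt h2 (hp.2 q hq)

@[simp] theorem trS_fst (n : ℕ) (π : Stk S) : (trS n π).map Prod.fst = π.map Prod.fst := by
  simp [trS, Function.comp_def]

theorem Sp.trS {n : ℕ} {W : Tm S} {π : Stk S} (h : Sp Q c₀ (Fa Q c₀ (Binf Q c₀)) W π) :
    Sp Q c₀ (Fa Q c₀ (Bv Q c₀ n)) W (trS n π) := by
  refine ⟨by simpa using h.1, fun q hq => ?_⟩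
  obtain ⟨q', hq', rfl⟩ := List.mem_map.1 hq
  have h2 := h.2 q' hq'
  by_cases hD : AccK Q c₀ q'.1.2
  · rw [Fa_pos hD] at h2 ⊢
    rwa [tr_of_ne (by rw [F_tag h2]; omega)]
  · rw [Fa_neg hD] at h2 ⊢
    exact tr_Binf h2

open Classical in
/-- The set of terms a value assigns to a spine. -/
def fib (v : V S) (π : Stk S) : Set (Tm S) :=
  if 2 ≤ tag v then {t | (trS (tag v - 2) π, t) ∈ un v}
  else {t | (π, t) ∈ un v ∧ ∀ q ∈ π, tag q.2 ≠ 1}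

theorem fib_empty (n : ℕ) (π : Stk S) : fib (mkV n ∅) π = ∅ := by
  unfold fib
  rw [un_mkV n inferInstance]
  split_ifs <;> simp

/-! ### Signs -/

theorem E_acc {W : Tm S} (h : AccK Q c₀ W) : E Q c₀ W = F Q c₀ W := if_pos h

theorem E_pos {W : Tm S} (h : ¬ AccK Q c₀ W) (h' : Sgn Q c₀ true W) :
    E Q c₀ W = Binf Q c₀ W := by rw [E, if_neg h, if_pos h']

theorem E_neg {W : Tm S} (h : ¬ AccK Q c₀ W) (h' : ¬ Sgn Q c₀ true W) (h'' : Sgn Q c₀ false W) :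
    E Q c₀ W = Ainf Q c₀ W := by rw [E, if_neg h, if_neg h', if_pos h'']

theorem E_junk {W : Tm S} (h : ¬ AccK Q c₀ W) (h' : ¬ Sgn Q c₀ true W)
    (h'' : ¬ Sgn Q c₀ false W) : E Q c₀ W = {mkV 0 ∅} := by
  rw [E, if_neg h, if_neg h', if_neg h'']

theorem sp_acc {W : Tm S} (h : AccK Q c₀ W) {π : Stk S} :
    Sp Q c₀ (E Q c₀) W π ↔ Sp Q c₀ (F Q c₀) W π :=
  sp_congr fun _ hD => E_acc (h.succ hD)

theorem sp_pos (H : HypII Q c₀) {W : Tm S} (h : Sgn Q c₀ true W) {π : Stk S} :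
    Sp Q c₀ (E Q c₀) W π ↔ Sp Q c₀ (Fa Q c₀ (Ainf Q c₀)) W π := by
  refine sp_congr fun D hD => ?_
  by_cases h1 : AccK Q c₀ D
  · rw [E_acc h1, Fa_pos h1]
  · rw [Fa_neg h1, E_neg h1 (fun h2 => h1 (H D h2 (h.step hD))) (h.step hD)]

theorem sp_neg {W : Tm S} (h : Sgn Q c₀ false W) {π : Stk S} :
    Sp Q c₀ (E Q c₀) W π ↔ Sp Q c₀ (Fa Q c₀ (Binf Q c₀)) W π := by
  refine sp_congr fun D hD => ?_
  by_cases h1 : AccK Q c₀ D
  · rw [E_acc h1, Fa_pos h1]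
  · rw [Fa_neg h1, E_pos h1 (h.step hD)]

theorem sp_Bv {W : Tm S} (h : Sgn Q c₀ false W) {n : ℕ} {π : Stk S}
    (hπ : Sp Q c₀ (Fa Q c₀ (Bv Q c₀ n)) W π) : Sp Q c₀ (E Q c₀) W π :=
  (sp_neg h).2 (hπ.mono fun D _ => Fa_mono (Bv_subset n) D)

theorem sp_neg_tag {W : Tm S} (h : Sgn Q c₀ false W) {π : Stk S} (hπ : Sp Q c₀ (E Q c₀) W π) :
    ∀ q ∈ π, tag q.2 ≤ 1 := by
  intro q hq
  have h2 := ((sp_neg h).1 hπ).2 q hq
  by_cases hD : AccK Q c₀ q.1.2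
  · rw [Fa_pos hD] at h2; rw [F_tag h2]; omega
  · rw [Fa_neg hD] at h2; rw [Pw.tag h2]

variable (Q c₀)

def Good (W : Tm S) : Prop := AccK Q c₀ W ∨ Sgn Q c₀ true W ∨ Sgn Q c₀ false W

def Fac (W : Tm S) (φ : Stk S → Set (Tm S)) (n : ℕ) : Prop :=
  ∀ π, Sp Q c₀ (E Q c₀) W π → φ π = φ (trS n π)

open Classical in
noncomputable def reify (W : Tm S) (φ : Stk S → Set (Tm S)) : V S :=
  if AccK Q c₀ W then mkV 0 {p | Sp Q c₀ (E Q c₀) W p.1 ∧ p.2 ∈ φ p.1}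
  else if Sgn Q c₀ true W then mkV 1 {p | Sp Q c₀ (E Q c₀) W p.1 ∧ p.2 ∈ φ p.1}
  else if Sgn Q c₀ false W then
    mkV (sInf {n | Fac Q c₀ W φ n} + 2)
      {p | Sp Q c₀ (Fa Q c₀ (Bv Q c₀ (sInf {n | Fac Q c₀ W φ n}))) W p.1 ∧ p.2 ∈ φ p.1}
  else mkV 0 ∅

open Classical in
/-- The values over which products quantify. -/
def Qv (W : Tm S) : Set (V S) := if AccK Q c₀ W ∨ Sgn Q c₀ true W then E Q c₀ W else {mkV 0 ∅}

variable {Q c₀}

theorem Good.succ {W D : Tm S} (h : Good Q c₀ W) (hD : Succ Q c₀ W D) : Good Q c₀ D := by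
  rcases h with h | h | h
  · exact .inl (h.succ hD)
  · exact .inr (.inr (h.step hD))
  · exact .inr (.inl (h.step hD))

theorem Qv_tag {W : Tm S} {v : V S} (h : v ∈ Qv Q c₀ W) : tag v ≤ 1 := by
  unfold Qv at h
  split_ifs at h with h1
  · by_cases h2 : AccK Q c₀ W
    · rw [E_acc h2] at h; rw [F_tag h]; omega
    · rw [E_pos h2 (h1.resolve_left h2)] at h; rw [Pw.tag h]
  · rw [h]; simp

theorem Qv_nonempty (W : Tm S) : ∃ v, v ∈ Qv Q c₀ W := by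
  unfold Qv
  split_ifs with h1
  · by_cases h2 : AccK Q c₀ W
    · rw [E_acc h2, F_eq]; exact ⟨_, ∅, by simp, rfl⟩
    · rw [E_pos h2 (h1.resolve_left h2)]; exact ⟨_, ∅, by simp, rfl⟩
  · exact ⟨_, rfl⟩

theorem Qv_good {W : Tm S} {v : V S} (h : v ∈ Qv Q c₀ W) :
    Good Q c₀ W ∨ ∀ π, fib v π = ∅ := by
  unfold Qv at h
  split_ifs at h with h1
  · exact .inl (h1.imp id .inl)
  · rw [h]; exact .inr (fib_empty 0)

theorem Qv_pos {W : Tm S} (h : Sgn Q c₀ true W) : Qv Q c₀ W = E Q c₀ W := if_pos (.inr h)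

theorem reify_mem (H : HypII Q c₀) (W : Tm S) (φ : Stk S → Set (Tm S)) :
    reify Q c₀ W φ ∈ E Q c₀ W := by
  unfold reify
  split_ifs with h1 h2 h3
  · rw [E_acc h1, F_eq]; exact ⟨_, fun p hp => (sp_acc h1).1 hp.1, rfl⟩
  · rw [E_pos h1 h2]; exact ⟨_, fun p hp => (sp_pos H h2).1 hp.1, rfl⟩
  · rw [E_neg h1 h2 h3]
    exact Set.mem_iUnion.2 ⟨_, mem_Av.2 ⟨_, Nat.lt_succ_self _, _, fun p hp => hp.1, rfl⟩⟩
  · rw [E_junk h1 h2 h3]; rfl

theorem reify_congr {W : Tm S} {φ ψ : Stk S → Set (Tm S)}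
    (h : ∀ π, Sp Q c₀ (E Q c₀) W π → φ π = ψ π) : reify Q c₀ W φ = reify Q c₀ W ψ := by
  have h0 : {p : Stk S × Tm S | Sp Q c₀ (E Q c₀) W p.1 ∧ p.2 ∈ φ p.1} =
      {p | Sp Q c₀ (E Q c₀) W p.1 ∧ p.2 ∈ ψ p.1} := by
    ext p; exact and_congr_right fun hp => by rw [h _ hp]
  unfold reify
  split_ifs with h1 h2 h3
  · rw [h0]
  · rw [h0]
  · have h4 : {n | Fac Q c₀ W φ n} = {n | Fac Q c₀ W ψ n} := by
      ext n
      refine forall_congr' fun π => forall_congr' fun hπ => ?_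
      rw [h _ hπ, h _ (sp_Bv h3 ((sp_neg h3).1 hπ).trS)]
    rw [h4]
    congr 1
    ext p; exact and_congr_right fun hp => by rw [h _ (sp_Bv h3 hp)]
  · rfl

/-- Finitary functions on spines. -/
def Fnt (φ : Stk S → Set (Tm S)) (n : ℕ) : Prop :=
  ∀ π : Stk S, (∀ q ∈ π, tag q.2 ≤ 1) → φ π = φ (trS n π)

theorem fib_reify (H : HypII Q c₀) {W : Tm S} (hW : Good Q c₀ W) {φ : Stk S → Set (Tm S)}
    {n : ℕ} (hφ : Fnt φ n) {π : Stk S} (hπ : Sp Q c₀ (E Q c₀) W π) :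
    fib (reify Q c₀ W φ) π = φ π := by
  unfold reify
  split_ifs with h1 h2 h3
  · rw [fib, if_neg (by simp), un_mkV]
    · ext t
      refine ⟨fun h => h.1.2, fun h => ⟨⟨hπ, h⟩, fun q hq => ?_⟩⟩
      rw [F_tag (((sp_acc h1).1 hπ).2 q hq)]; omega
    · have := small_sp (Q := Q) (c₀ := c₀) (E := F Q c₀) (W := W) fun D hD => small_F (h1.succ hD)
      exact small_subset (s := {p : Stk S × Tm S | Sp Q c₀ (F Q c₀) W p.1})
        fun p hp => (sp_acc h1).1 hp.1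
  · rw [fib, if_neg (by simp), un_mkV]
    · ext t
      refine ⟨fun h => h.1.2, fun h => ⟨⟨hπ, h⟩, fun q hq => ?_⟩⟩
      have h4 := ((sp_pos H h2).1 hπ).2 q hq
      by_cases hD : AccK Q c₀ q.1.2
      · rw [Fa_pos hD] at h4; rw [F_tag h4]; omega
      · rw [Fa_neg hD] at h4; have := Ainf_tag h4; omega
    · have := small_sp (Q := Q) (c₀ := c₀) (W := W) (E := Fa Q c₀ (Ainf Q c₀))
        fun D _ => small_Fa small_Ainf D
      exact small_subset (s := {p : Stk S × Tm S | Sp Q c₀ (Fa Q c₀ (Ainf Q c₀)) W p.1})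
        fun p hp => (sp_pos H h2).1 hp.1
  · have h4 : Fac Q c₀ W φ (sInf {n | Fac Q c₀ W φ n}) :=
      Nat.sInf_mem (s := {n | Fac Q c₀ W φ n}) ⟨n, fun π hπ => hφ π (sp_neg_tag h3 hπ)⟩
    rw [fib, if_pos (by simp), un_mkV, h4 π hπ]
    · ext t
      simp only [tag_mkV, Nat.add_sub_cancel, Set.mem_ofPred_eq]
      exact ⟨fun h => h.2, fun h => ⟨((sp_neg h3).1 hπ).trS, h⟩⟩
    · have := small_sp (Q := Q) (c₀ := c₀) (W := W)
        (E := Fa Q c₀ (Bv Q c₀ (sInf {n | Fac Q c₀ W φ n})))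
        fun D _ => small_Fa (small_Bv (sInf {n | Fac Q c₀ W φ n})) D
      exact small_subset (s := {p : Stk S × Tm S |
        Sp Q c₀ (Fa Q c₀ (Bv Q c₀ (sInf {n | Fac Q c₀ W φ n}))) W p.1}) fun p hp => hp.1
  · rcases hW with h | h | h <;> contradiction

/-! ### Approximate equality -/

def Ap (m n : ℕ) (v w : V S) : Prop :=
  (v = w ∧ tag v < m + 2) ∨ (tag v = 1 ∧ tag w = 1 ∧ tr n v = tr n w)

def ApS (m n : ℕ) (π π' : Stk S) : Prop :=
  List.Forall₂ (fun q q' => q.1 = q'.1 ∧ Ap m n q.2 q'.2) π π'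

theorem Ap.mono {m n m' n' : ℕ} {v w : V S} (h : Ap m n v w) (hm : m ≤ m') (hn : n' ≤ n) :
    Ap m' n' v w := by
  rcases h with h | ⟨h1, h2, h3⟩
  · exact .inl ⟨h.1, by omega⟩
  · exact .inr ⟨h1, h2, by rw [← tr_tr hn v, h3, tr_tr hn]⟩

theorem ApS.mono {m n m' n' : ℕ} {π π' : Stk S} (h : ApS m n π π') (hm : m ≤ m')
    (hn : n' ≤ n) : ApS m' n' π π' :=
  List.Forall₂.imp (fun _ _ h => ⟨h.1, h.2.mono hm hn⟩) h

theorem Ap.refl_left {m n : ℕ} {v w : V S} (h : Ap m n v w) : Ap m n v v := by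
  rcases h with h | h
  · exact .inl ⟨rfl, h.2⟩
  · exact .inr ⟨h.1, h.1, rfl⟩

theorem apS_refl {m n : ℕ} {π : Stk S} (h : ∀ q ∈ π, tag q.2 < m + 2) : ApS m n π π :=
  List.forall₂_same.2 fun q hq => ⟨rfl, .inl ⟨rfl, h q hq⟩⟩

theorem apS_trS {m n : ℕ} {π : Stk S} (h : ∀ q ∈ π, tag q.2 ≤ 1) : ApS m n π (trS n π) := by
  rw [ApS, trS, List.forall₂_map_right_iff, List.forall₂_same]
  intro q hq
  refine ⟨rfl, ?_⟩
  by_cases h1 : tag q.2 = 1
  · exact .inr ⟨h1, by simpa using h1, (tr_tr le_rfl _).symm⟩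
  · exact .inl ⟨(tr_of_ne h1).symm, by have := h q hq; omega⟩

theorem ApS.trS_eq {m n k : ℕ} {π π' : Stk S} (h : ApS m n π π') (hk : k ≤ n) :
    trS k π = trS k π' := by
  induction h with
  | nil => rfl
  | cons h _ ih =>
    simp only [trS, List.map_cons] at ih ⊢
    rw [ih, h.1]
    rcases h.2.mono le_rfl hk with h2 | h2
    · rw [h2.1]
    · rw [h2.2.2]

theorem ApS.eq_or {m n : ℕ} {π π' : Stk S} (h : ApS m n π π') :
    (π = π' ∧ ∀ q ∈ π, tag q.2 < m + 2) ∨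
      ((∃ q ∈ π, tag q.2 = 1) ∧ ∃ q ∈ π', tag q.2 = 1) := by
  induction h with
  | nil => simp
  | @cons q q' π π' h _ ih =>
    rcases h.2 with h2 | h2
    · rcases ih with ih | ⟨⟨a, h3, h4⟩, ⟨b, h5, h6⟩⟩
      · refine .inl ⟨by rw [ih.1, Prod.ext h.1 h2.1], ?_⟩
        intro a ha
        rcases List.mem_cons.1 ha with rfl | ha
        · exact h2.2
        · exact ih.2 a ha
      · exact .inr ⟨⟨a, List.mem_cons_of_mem _ h3, h4⟩, ⟨b, List.mem_cons_of_mem _ h5, h6⟩⟩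
    · exact .inr ⟨⟨q, List.mem_cons_self, h2.1⟩, ⟨q', List.mem_cons_self, h2.2.1⟩⟩

theorem fib_ap {m n : ℕ} (hmn : m ≤ n) {v w : V S} (h : Ap m n v w) {π π' : Stk S}
    (hπ : ApS m n π π') : fib v π = fib w π' := by
  have aux : ∀ {v w : V S}, (∀ p : Stk S × Tm S, (∀ q ∈ p.1, tag q.2 < m + 2) →
      (p ∈ un v ↔ p ∈ un w)) → {t | (π, t) ∈ un v ∧ ∀ q ∈ π, tag q.2 ≠ 1} =
      {t | (π', t) ∈ un w ∧ ∀ q ∈ π', tag q.2 ≠ 1} := by
    intro v w h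
    rcases hπ.eq_or with ⟨rfl, h2⟩ | ⟨⟨a, h3, h4⟩, ⟨b, h5, h6⟩⟩
    · ext t; exact and_congr_left fun _ => h (π, t) h2
    · ext t; exact ⟨fun h => (h.2 a h3 h4).elim, fun h => (h.2 b h5 h6).elim⟩
  rcases h with ⟨rfl, h⟩ | ⟨h1, h2, h3⟩
  · unfold fib
    split_ifs with h1
    · rw [hπ.trS_eq (by omega)]
    · exact aux fun _ _ => Iff.rfl
  · rw [fib, fib, if_neg (by omega), if_neg (by omega)]
    refine aux fun p hp => ?_
    have h4 : p ∈ un (tr n v) ↔ p ∈ un (tr n w) := by rw [h3]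
    rw [un_tr h1, un_tr h2] at h4
    have h5 : ∀ q ∈ p.1, tag q.2 < n + 2 := fun q hq => by have := hp q hq; omega
    exact ⟨fun h => (h4.1 ⟨h, h5⟩).1, fun h => (h4.2 ⟨h, h5⟩).1⟩

theorem reify_ap (H : HypII Q c₀) (W : Tm S) {φ ψ : Stk S → Set (Tm S)} {n₀ m n : ℕ}
    (hφ : Fnt φ n₀) (h : ∀ π : Stk S, (∀ q ∈ π, tag q.2 < n + 2) → φ π = ψ π) (hm : n₀ < m) :
    Ap m n (reify Q c₀ W φ) (reify Q c₀ W ψ) := by
  by_cases h1 : AccK Q c₀ W
  · refine .inl ⟨reify_congr fun π hπ => h π fun q hq => ?_, by simp [reify, h1]⟩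
    rw [F_tag (((sp_acc h1).1 hπ).2 q hq)]; omega
  by_cases h2 : Sgn Q c₀ true W
  · have hs : ∀ φ : Stk S → Set (Tm S),
        Small.{u} {p : Stk S × Tm S | Sp Q c₀ (E Q c₀) W p.1 ∧ p.2 ∈ φ p.1} := by
      intro φ
      have := small_sp (Q := Q) (c₀ := c₀) (W := W) (E := Fa Q c₀ (Ainf Q c₀))
        fun D _ => small_Fa small_Ainf D
      exact small_subset (s := {p : Stk S × Tm S | Sp Q c₀ (Fa Q c₀ (Ainf Q c₀)) W p.1})
        fun p hp => (sp_pos H h2).1 hp.1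
    simp only [reify, if_neg h1, if_pos h2]
    refine .inr ⟨by simp, by simp, ?_⟩
    rw [tr, tr, if_pos (by simp), if_pos (by simp), un_mkV _ (hs _), un_mkV _ (hs _)]
    congr 1
    ext p
    exact and_congr_left fun hp => and_congr_right fun _ => by rw [h _ hp]
  by_cases h3 : Sgn Q c₀ false W
  · refine .inl ⟨reify_congr fun π hπ => h π fun q hq => ?_, ?_⟩
    · have := sp_neg_tag h3 hπ q hq; omega
    · have : sInf {n | Fac Q c₀ W φ n} ≤ n₀ :=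
        Nat.sInf_le (s := {n | Fac Q c₀ W φ n}) fun π hπ => hφ π (sp_neg_tag h3 hπ)
      simp only [reify, if_neg h1, if_neg h2, if_pos h3, tag_mkV]
      omega
  · exact .inl ⟨by simp [reify, h1, h2, h3], by simp [reify, h1, h2, h3]⟩

end Tm

end Vale.Agent.P340
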